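import Mathlib

/-!
# Module M1 (LA-EIG): a spectral principle for symmetric operators on functions on a finite type

If `M` is symmetric for the counting inner product and every eigenvector of `M` with eigenvalue
above `c` lies in a submodule `K`, then `⟨f, M f⟩ ≤ c ⟨f, f⟩` for every `f` orthogonal to `K`.
-/

namespace Vale.Agent.Lib.P335.Bip

open Finset Matrix
open Classical

/-- Matrix form of the spectral principle. -/
theorem quad_le_of_eigen_mem {Ω : Type} [Fintype Ω] [DecidableEq Ω] (A : Matrix Ω Ω ℝ)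
    (hA : A.IsHermitian) (c : ℝ) (K : Submodule ℝ (Ω → ℝ))
    (hev : ∀ (μ : ℝ) (g : Ω → ℝ), g ≠ 0 → A *ᵥ g = μ • g → c < μ → g ∈ K)
    (f : Ω → ℝ) (hf : ∀ v ∈ K, ∑ x, v x * f x = 0) :
    f ⬝ᵥ (A *ᵥ f) ≤ c * (f ⬝ᵥ f) := by
  set b := hA.eigenvectorBasis with hb
  set ev := hA.eigenvalues with hev'
  set a : Ω → ℝ := fun i => (⇑(b i) : Ω → ℝ) ⬝ᵥ f with ha
  have hexp : f = ∑ i, a i • (⇑(b i) : Ω → ℝ) := by
    have h := b.sum_repr (WithLp.toLp 2 f)
    have h2 : (∑ i, b.repr (WithLp.toLp 2 f) i • b i : EuclideanSpace ℝ Ω) = WithLp.toLp 2 f := h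
    have h3 := congrArg (fun v : EuclideanSpace ℝ Ω => (⇑v : Ω → ℝ)) h2
    simp only at h3
    funext x
    have h4 := congrFun h3 x
    simp only [WithLp.ofLp_sum, WithLp.ofLp_smul, Finset.sum_apply, Pi.smul_apply, smul_eq_mul,
      OrthonormalBasis.repr_apply_apply] at h4
    rw [← h4]
    simp only [Finset.sum_apply, Pi.smul_apply, smul_eq_mul]
    refine Finset.sum_congr rfl fun i _ => ?_
    congr 1
    simp [ha, EuclideanSpace.inner_eq_star_dotProduct, dotProduct_comm]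
  have hortho : ∀ i, f ⬝ᵥ (⇑(b i) : Ω → ℝ) = a i := fun i => by
    simp [ha, dotProduct_comm]
  have hAf : A *ᵥ f = ∑ i, (a i * ev i) • (⇑(b i) : Ω → ℝ) := by
    conv_lhs => rw [hexp]
    rw [Matrix.mulVec_sum]
    refine Finset.sum_congr rfl fun i _ => ?_
    rw [Matrix.mulVec_smul, hA.mulVec_eigenvectorBasis i, smul_smul]
  have h1 : f ⬝ᵥ (A *ᵥ f) = ∑ i, ev i * a i ^ 2 := by
    rw [hAf, dotProduct_sum]
    refine Finset.sum_congr rfl fun i _ => ?_
    rw [dotProduct_smul, hortho i, smul_eq_mul]; ring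
  have h2 : f ⬝ᵥ f = ∑ i, a i ^ 2 := by
    have e : f ⬝ᵥ f = f ⬝ᵥ (∑ i, a i • (⇑(b i) : Ω → ℝ)) := by rw [← hexp]
    rw [e, dotProduct_sum]
    refine Finset.sum_congr rfl fun i _ => ?_
    rw [dotProduct_smul, hortho i, smul_eq_mul]; ring
  rw [h1, h2, Finset.mul_sum]
  refine Finset.sum_le_sum fun i _ => ?_
  by_cases hi : c < ev i
  · have hne : (⇑(b i) : Ω → ℝ) ≠ 0 := by
      intro h0
      have hz : b i = 0 := PiLp.ext fun x => by simpa using congrFun h0 x
      exact b.orthonormal.ne_zero i hz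
    have hK := hev (ev i) (⇑(b i)) hne (hA.mulVec_eigenvectorBasis i) hi
    have hz : a i = 0 := by
      have := hf _ hK
      simpa [ha, dotProduct] using this
    rw [hz]; simp
  · have : ev i ≤ c := not_lt.mp hi
    exact mul_le_mul_of_nonneg_right this (sq_nonneg _)

/-- **Spectral principle** (module M1).  `M` symmetric for the counting inner product, every
eigenvector with eigenvalue above `c` in `K`, `f` orthogonal to `K`: then `⟨f, M f⟩ ≤ c ⟨f, f⟩`. -/
theorem spectral_le {Ω : Type} [Fintype Ω] (M : (Ω → ℝ) →ₗ[ℝ] (Ω → ℝ))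
    (hM : ∀ f g : Ω → ℝ, ∑ x, f x * M g x = ∑ x, M f x * g x) (c : ℝ)
    (K : Submodule ℝ (Ω → ℝ))
    (h : ∀ (μ : ℝ) (v : Ω → ℝ), v ≠ 0 → M v = μ • v → c < μ → v ∈ K)
    (f : Ω → ℝ) (hf : ∀ v ∈ K, ∑ x, v x * f x = 0) :
    ∑ x, f x * M f x ≤ c * ∑ x, f x ^ 2 := by
  set A : Matrix Ω Ω ℝ := LinearMap.toMatrix' M with hA_def
  have hSA : ∀ g : Ω → ℝ, M g = A *ᵥ g := fun g => by
    rw [hA_def, ← Matrix.toLin'_apply, Matrix.toLin'_toMatrix']
  have hA : A.IsHermitian := by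
    rw [Matrix.IsHermitian, Matrix.conjTranspose_eq_transpose_of_trivial]
    ext i j
    rw [Matrix.transpose_apply]
    have h' := hM (Pi.single i 1) (Pi.single j 1)
    simp only [Pi.single_apply, ite_mul, one_mul, zero_mul, mul_ite, mul_one, mul_zero,
      Finset.sum_ite_eq', Finset.mem_univ, if_true] at h'
    rw [hA_def, LinearMap.toMatrix'_apply, LinearMap.toMatrix'_apply]
    exact h'.symm
  have key := quad_le_of_eigen_mem A hA c K (fun μ g hg0 hg hμ => by
    have hSg : M g = μ • g := by rw [hSA, hg]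
    exact h μ g hg0 hSg hμ) f hf
  have e1 : ∑ x, f x * M f x = f ⬝ᵥ (A *ᵥ f) := by
    rw [hSA]; rfl
  have e2 : ∑ x, f x ^ 2 = f ⬝ᵥ f := by
    simp [dotProduct, sq]
  rw [e1, e2]; exact key

end Vale.Agent.Lib.P335.Bip
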