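import Vale.Agent.Lib.P335.Bip.Defs

/-!
# Basic facts on class averages (module M0 of the bipartite switch-chain development)

`avg W` is the conditional expectation given the rows outside `W`: it is linear, symmetric for
the counting inner product, idempotent, and satisfies the tower property.
-/

namespace Vale.Agent.Lib.P335.Bip

open Finset
open Classical

variable {R C : Type} [Fintype R] [DecidableEq R] [Fintype C] [DecidableEq C]
variable {r : R → ℕ} {c : C → ℕ}

omit [Fintype R] [DecidableEq R] [Fintype C] [DecidableEq C] in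
theorem AgreeOff.refl (W : Finset R) (x : R → Finset C) : AgreeOff W x x := fun _ _ => rfl

omit [Fintype R] [DecidableEq R] [Fintype C] [DecidableEq C] in
theorem AgreeOff.symm {W : Finset R} {x y : R → Finset C} (h : AgreeOff W x y) :
    AgreeOff W y x := fun i hi => (h i hi).symm

omit [Fintype R] [DecidableEq R] [Fintype C] [DecidableEq C] in
theorem AgreeOff.trans {W : Finset R} {x y z : R → Finset C} (h1 : AgreeOff W x y)
    (h2 : AgreeOff W y z) : AgreeOff W x z := fun i hi => (h1 i hi).trans (h2 i hi)

omit [Fintype R] [DecidableEq R] [Fintype C] [DecidableEq C] in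
theorem AgreeOff.mono {W W' : Finset R} (hW : W ⊆ W') {x y : R → Finset C}
    (h : AgreeOff W x y) : AgreeOff W' x y := fun i hi => h i (fun hi' => hi (hW hi'))

theorem mem_cls (W : Finset R) (x y : Tab r c) : y ∈ cls W x ↔ AgreeOff W x.1 y.1 := by
  simp [cls]

theorem self_mem_cls (W : Finset R) (x : Tab r c) : x ∈ cls W x :=
  (mem_cls W x x).mpr (AgreeOff.refl W x.1)

theorem cls_eq_of_mem (W : Finset R) (x y : Tab r c) (h : y ∈ cls W x) : cls W y = cls W x := by
  have hxy : AgreeOff W x.1 y.1 := (mem_cls W x y).mp h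
  ext z
  rw [mem_cls, mem_cls]
  exact ⟨fun hz => hxy.trans hz, fun hz => hxy.symm.trans hz⟩

theorem cls_eq_of_agree (W : Finset R) (x y : Tab r c) (h : AgreeOff W x.1 y.1) :
    cls W y = cls W x :=
  cls_eq_of_mem W x y ((mem_cls W x y).mpr h)

theorem card_cls_pos (W : Finset R) (x : Tab r c) : 0 < (cls W x).card :=
  card_pos.mpr ⟨x, self_mem_cls W x⟩

theorem card_cls_pos_real (W : Finset R) (x : Tab r c) : (0 : ℝ) < ((cls W x).card : ℝ) := by
  exact_mod_cast card_cls_pos W x

theorem card_cls_ne_zero (W : Finset R) (x : Tab r c) : ((cls W x).card : ℝ) ≠ 0 :=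
  (card_cls_pos_real W x).ne'

theorem cls_subset_of_subset {W W' : Finset R} (hW : W ⊆ W') (x : Tab r c) :
    cls W x ⊆ cls W' x := by
  intro y hy
  rw [mem_cls] at hy ⊢
  exact hy.mono hW

theorem avg_apply (W : Finset R) (f : Tab r c → ℝ) (x : Tab r c) :
    avg W f x = (∑ y ∈ cls W x, f y) / ((cls W x).card : ℝ) := rfl

theorem avg_add (W : Finset R) (f g : Tab r c → ℝ) : avg W (f + g) = avg W f + avg W g := by
  funext x
  simp only [avg_apply, Pi.add_apply, sum_add_distrib, add_div]

theorem avg_smul (W : Finset R) (a : ℝ) (f : Tab r c → ℝ) : avg W (a • f) = a • avg W f := by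
  funext x
  simp only [avg_apply, Pi.smul_apply, smul_eq_mul, ← mul_sum, mul_div_assoc]

theorem avg_apply_of_agree (W : Finset R) (f : Tab r c → ℝ) (x y : Tab r c)
    (h : AgreeOff W x.1 y.1) : avg W f x = avg W f y := by
  rw [avg_apply, avg_apply, cls_eq_of_agree W x y h]

/-- `avg W f x` written as a sum over all tables. -/
theorem avg_apply_univ (W : Finset R) (f : Tab r c → ℝ) (x : Tab r c) :
    avg W f x = ∑ y : Tab r c,
      if AgreeOff W x.1 y.1 then f y / ((cls W x).card : ℝ) else 0 := by
  rw [avg_apply, sum_div, cls, sum_filter]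

theorem avg_symm (W : Finset R) (f g : Tab r c → ℝ) : ip (avg W f) g = ip f (avg W g) := by
  unfold ip
  have h1 : ∑ x : Tab r c, avg W f x * g x
      = ∑ x : Tab r c, ∑ y : Tab r c,
          if AgreeOff W x.1 y.1 then f y * g x / ((cls W x).card : ℝ) else 0 := by
    refine sum_congr rfl fun x _ => ?_
    rw [avg_apply_univ, sum_mul]
    refine sum_congr rfl fun y _ => ?_
    split_ifs
    · ring
    · simp
  have h2 : ∑ x : Tab r c, f x * avg W g x
      = ∑ x : Tab r c, ∑ y : Tab r c,
          if AgreeOff W x.1 y.1 then f x * g y / ((cls W x).card : ℝ) else 0 := by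
    refine sum_congr rfl fun x _ => ?_
    rw [avg_apply_univ, mul_sum]
    refine sum_congr rfl fun y _ => ?_
    split_ifs
    · ring
    · simp
  rw [h1, h2, sum_comm]
  refine sum_congr rfl fun y _ => sum_congr rfl fun x _ => ?_
  by_cases h : AgreeOff W x.1 y.1
  · rw [if_pos h, if_pos h.symm, cls_eq_of_agree W x y h]
  · have h' : ¬ AgreeOff W y.1 x.1 := fun hh => h hh.symm
    rw [if_neg h, if_neg h']

theorem avg_eq_self_iff (W : Finset R) (f : Tab r c → ℝ) :
    avg W f = f ↔ ∀ x y : Tab r c, AgreeOff W x.1 y.1 → f x = f y := by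
  constructor
  · intro h x y hxy
    rw [← h]
    exact avg_apply_of_agree W f x y hxy
  · intro h
    funext x
    rw [avg_apply]
    have h1 : ∑ y ∈ cls W x, f y = ∑ _y ∈ cls W x, f x :=
      sum_congr rfl fun y hy => (h x y ((mem_cls W x y).mp hy)).symm
    rw [h1, sum_const, nsmul_eq_mul]
    field_simp [card_cls_ne_zero W x]

theorem avg_idem (W : Finset R) (f : Tab r c → ℝ) : avg W (avg W f) = avg W f :=
  (avg_eq_self_iff W (avg W f)).mpr fun x y hxy => avg_apply_of_agree W f x y hxy

/-- Two functions with the same inner product against every function are equal. -/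
theorem eq_of_ip_eq {α : Type} [Fintype α] (h h' : α → ℝ)
    (hh : ∀ g : α → ℝ, ip h g = ip h' g) : h = h' := by
  funext x
  have := hh (fun y => if y = x then 1 else 0)
  unfold ip at this
  simpa using this

theorem avg_tower (W W' : Finset R) (h : W ⊆ W') (f : Tab r c → ℝ) :
    avg W' (avg W f) = avg W' f ∧ avg W (avg W' f) = avg W' f := by
  have h2 : ∀ g : Tab r c → ℝ, avg W (avg W' g) = avg W' g := by
    intro g
    exact (avg_eq_self_iff W (avg W' g)).mpr fun x y hxy =>
      avg_apply_of_agree W' g x y (hxy.mono h)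
  refine ⟨?_, h2 f⟩
  apply eq_of_ip_eq
  intro g
  rw [avg_symm, avg_symm, h2 g, avg_symm]

/-- Averages of constants. -/
theorem avg_const (W : Finset R) (a : ℝ) : avg W (fun _ : Tab r c => a) = fun _ => a :=
  (avg_eq_self_iff W _).mpr fun _ _ _ => rfl

theorem avg_sub (W : Finset R) (f g : Tab r c → ℝ) : avg W (f - g) = avg W f - avg W g := by
  funext x
  simp only [avg_apply, Pi.sub_apply, sum_sub_distrib, sub_div]

theorem avg_zero (W : Finset R) : avg W (0 : Tab r c → ℝ) = 0 := by
  funext x
  simp [avg_apply]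

/-- `ip f (avg W f) = ip (avg W f) (avg W f)`: the average is an orthogonal projection. -/
theorem ip_avg_self (W : Finset R) (f : Tab r c → ℝ) :
    ip f (avg W f) = ip (avg W f) (avg W f) := by
  rw [avg_symm W f (avg W f), avg_idem]

theorem ip_avg_nonneg (W : Finset R) (f : Tab r c → ℝ) : 0 ≤ ip f (avg W f) := by
  rw [ip_avg_self]
  unfold ip
  exact sum_nonneg fun x _ => mul_self_nonneg _

end Vale.Agent.Lib.P335.Bip
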