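import Vale.Agent.Lib.P335.Bip.Defs

/-!
# Module M3 (CONN): switch-connectivity of tables (problem P335, bipartite model)

Two tables with the same margins that agree outside a set `W` of rows are joined by a sequence
of switches, each of which uses two rows of `W` (theorem `conn`).

Proof: induction on `W`.  For a row `i` of `W` one first makes the rows `i` of the two tables
equal: if `a` lies in row `i` of `x` but not of `y`, and `b` in row `i` of `y` but not of `x`,
then, because the column counts of `a` and `b` inside `W` agree for `x` and `y`, either `x`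
admits a switch moving `a` out of row `i` and `b` into it, or `y` admits a switch moving `b`
out of row `i` and `a` into it; either switch brings the two rows `i` closer.  Once the rows
`i` agree, the induction hypothesis for `W` without `i` applies.
-/

namespace Vale.Agent.Lib.P335.Bip

open Finset
open Classical

variable {R C : Type} [Fintype R] [DecidableEq R] [Fintype C] [DecidableEq C]
variable {r : R → ℕ} {c : C → ℕ}

omit [Fintype R] [Fintype C] in
theorem swRow_apply_left (x : R → Finset C) {i i' : R} (h : i ≠ i') (j j' : C) :
    swRow x i i' j j' i = insert j' ((x i).erase j) := by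
  unfold swRow
  rw [Function.update_of_ne h, Function.update_self]

omit [Fintype R] [Fintype C] in
theorem swRow_apply_right (x : R → Finset C) (i i' : R) (j j' : C) :
    swRow x i i' j j' i' = insert j ((x i').erase j') := by
  unfold swRow
  rw [Function.update_self]

omit [Fintype R] [Fintype C] in
theorem swRow_apply_of_ne (x : R → Finset C) {i i' k : R} (hi : k ≠ i) (hi' : k ≠ i')
    (j j' : C) : swRow x i i' j j' k = x k := by
  unfold swRow
  rw [Function.update_of_ne hi', Function.update_of_ne hi]

omit [Fintype R] [Fintype C] in
/-- A switch preserves all row sizes. -/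
theorem card_swRow (x : R → Finset C) {i i' : R} {j j' : C} (h : SwOK x i i' j j') (k : R) :
    (swRow x i i' j j' k).card = (x k).card := by
  obtain ⟨hii, hjj, hji, hj'i, hji', hj'i'⟩ := h
  by_cases hk : k = i'
  · subst hk
    rw [swRow_apply_right, Finset.card_insert_of_notMem (by simp [hji']),
      Finset.card_erase_of_mem hj'i']
    have := Finset.card_pos.2 ⟨j', hj'i'⟩
    omega
  · by_cases hk' : k = i
    · subst hk'
      rw [swRow_apply_left x hii, Finset.card_insert_of_notMem (by simp [hj'i]),
        Finset.card_erase_of_mem hji]
      have := Finset.card_pos.2 ⟨j, hji⟩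
      omega
    · rw [swRow_apply_of_ne x hk' hk]

omit [Fintype C] in
/-- A switch preserves all column counts. -/
theorem colCount_swRow (x : R → Finset C) {i i' : R} {j j' : C} (h : SwOK x i i' j j') (t : C) :
    (univ.filter (fun k => t ∈ swRow x i i' j j' k)).card
      = (univ.filter (fun k => t ∈ x k)).card := by
  obtain ⟨hii, hjj, hji, hj'i, hji', hj'i'⟩ := h
  rw [Finset.card_filter, Finset.card_filter]
  have h2 : i' ∈ (Finset.univ : Finset R) := Finset.mem_univ i'
  have h1 : i ∈ (Finset.univ : Finset R).erase i' :=
    Finset.mem_erase.2 ⟨hii, Finset.mem_univ i⟩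
  rw [← Finset.add_sum_erase _ _ h2, ← Finset.add_sum_erase _ _ h1,
    ← Finset.add_sum_erase (Finset.univ : Finset R) (fun k => if t ∈ x k then 1 else 0) h2,
    ← Finset.add_sum_erase ((Finset.univ : Finset R).erase i')
      (fun k => if t ∈ x k then 1 else 0) h1]
  have hrest : ∑ k ∈ ((Finset.univ : Finset R).erase i').erase i,
      (if t ∈ swRow x i i' j j' k then 1 else 0)
      = ∑ k ∈ ((Finset.univ : Finset R).erase i').erase i, (if t ∈ x k then 1 else 0) := by
    apply Finset.sum_congr rfl
    intro k hk
    have hki : k ≠ i := (Finset.mem_erase.1 hk).1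
    have hki' : k ≠ i' := (Finset.mem_erase.1 (Finset.mem_erase.1 hk).2).1
    rw [swRow_apply_of_ne x hki hki']
  rw [hrest, swRow_apply_right, swRow_apply_left x hii]
  have e : (if t ∈ insert j ((x i').erase j') then 1 else 0)
      + (if t ∈ insert j' ((x i).erase j) then 1 else 0)
      = (if t ∈ x i' then 1 else 0) + (if t ∈ x i then (1 : ℕ) else 0) := by
    by_cases htj : t = j
    · subst htj
      simp [hji, hji', hjj]
    · by_cases htj' : t = j'
      · subst htj'
        simp [hj'i, hj'i', htj]
      · simp [htj, htj']
  omega

omit [Fintype C] in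
/-- A switch maps tables to tables. -/
theorem isTable_swRow {x : R → Finset C} (hx : IsTable r c x) {i i' : R} {j j' : C}
    (h : SwOK x i i' j j') : IsTable r c (swRow x i i' j j') :=
  ⟨fun k => by rw [card_swRow x h]; exact hx.1 k,
    fun t => by rw [colCount_swRow x h]; exact hx.2 t⟩

omit [Fintype R] [Fintype C] in
/-- After a switch the reverse switch is available. -/
theorem swOK_swRow {x : R → Finset C} {i i' : R} {j j' : C} (h : SwOK x i i' j j') :
    SwOK (swRow x i i' j j') i i' j' j := by
  obtain ⟨hii, hjj, hji, hj'i, hji', hj'i'⟩ := h
  refine ⟨hii, Ne.symm hjj, ?_, ?_, ?_, ?_⟩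
  · rw [swRow_apply_left x hii]; simp
  · rw [swRow_apply_left x hii]; simp [hjj]
  · rw [swRow_apply_right]; simp [Ne.symm hjj]
  · rw [swRow_apply_right]; simp

omit [Fintype R] [Fintype C] in
/-- The reverse switch restores the table. -/
theorem swRow_swRow {x : R → Finset C} {i i' : R} {j j' : C} (h : SwOK x i i' j j') :
    swRow (swRow x i i' j j') i i' j' j = x := by
  obtain ⟨hii, hjj, hji, hj'i, hji', hj'i'⟩ := h
  funext k
  by_cases hk : k = i'
  · subst hk
    rw [swRow_apply_right, swRow_apply_right]
    ext t
    simp only [Finset.mem_insert, Finset.mem_erase]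
    constructor
    · rintro (rfl | ⟨htj, rfl | ⟨_, ht⟩⟩)
      · exact hj'i'
      · exact absurd rfl htj
      · exact ht
    · intro ht
      by_cases htj' : t = j'
      · exact Or.inl htj'
      · refine Or.inr ⟨?_, Or.inr ⟨htj', ht⟩⟩
        rintro rfl
        exact hji' ht
  · by_cases hk' : k = i
    · subst hk'
      rw [swRow_apply_left _ hii, swRow_apply_left x hii]
      ext t
      simp only [Finset.mem_insert, Finset.mem_erase]
      constructor
      · rintro (rfl | ⟨htj', rfl | ⟨_, ht⟩⟩)
        · exact hji
        · exact absurd rfl htj'
        · exact ht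
      · intro ht
        by_cases htj : t = j
        · exact Or.inl htj
        · refine Or.inr ⟨?_, Or.inr ⟨htj, ht⟩⟩
          rintro rfl
          exact hj'i ht
    · rw [swRow_apply_of_ne _ hk' hk, swRow_apply_of_ne x hk' hk]

omit [Fintype R] [Fintype C] in
/-- Switch adjacency inside `W` is symmetric. -/
theorem AdjIn.symm {W : Finset R} {x y : R → Finset C} (h : AdjIn W x y) : AdjIn W y x := by
  obtain ⟨i, i', j, j', hi, hi', hsw, rfl⟩ := h
  exact ⟨i, i', j', j, hi, hi', swOK_swRow hsw, (swRow_swRow hsw).symm⟩

omit [Fintype R] [Fintype C] in
theorem AdjIn.mono {W W' : Finset R} (hW : W ⊆ W') {x y : R → Finset C} (h : AdjIn W x y) :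
    AdjIn W' x y := by
  obtain ⟨i, i', j, j', hi, hi', hsw, rfl⟩ := h
  exact ⟨i, i', j, j', hW hi, hW hi', hsw, rfl⟩

omit [Fintype C] in
/-- Being joined by switches inside `W` is symmetric. -/
theorem reach_symm {W : Finset R} {x y : Tab r c}
    (h : Relation.ReflTransGen (fun u v : Tab r c => AdjIn W u.1 v.1) x y) :
    Relation.ReflTransGen (fun u v : Tab r c => AdjIn W u.1 v.1) y x := by
  induction h with
  | refl => exact Relation.ReflTransGen.refl
  | tail _ hs ih => exact Relation.ReflTransGen.head hs.symm ih

omit [Fintype C] in
/-- Being joined by switches inside `W` is monotone in `W`. -/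
theorem reach_mono {W W' : Finset R} (hW : W ⊆ W') {x y : Tab r c}
    (h : Relation.ReflTransGen (fun u v : Tab r c => AdjIn W u.1 v.1) x y) :
    Relation.ReflTransGen (fun u v : Tab r c => AdjIn W' u.1 v.1) x y := by
  induction h with
  | refl => exact Relation.ReflTransGen.refl
  | tail _ hs ih => exact Relation.ReflTransGen.tail ih (hs.mono hW)

omit [Fintype C] in
/-- Two tables agreeing outside `W` have the same column counts inside `W`. -/
theorem colCountOn_eq (W : Finset R) (x y : Tab r c) (h : AgreeOff W x.1 y.1) (t : C) :
    (W.filter fun k => t ∈ x.1 k).card = (W.filter fun k => t ∈ y.1 k).card := by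
  have hz : ∀ z : R → Finset C, (univ.filter (fun k => t ∈ z k)).card
      = (W.filter fun k => t ∈ z k).card + ∑ k ∈ Wᶜ, (if t ∈ z k then 1 else 0) := by
    intro z
    rw [Finset.card_filter, Finset.card_filter, Finset.sum_add_sum_compl]
  have h1 := hz x.1
  have h2 := hz y.1
  have h3 : ∑ k ∈ Wᶜ, (if t ∈ x.1 k then 1 else 0) = ∑ k ∈ Wᶜ, (if t ∈ y.1 k then 1 else 0) := by
    apply Finset.sum_congr rfl
    intro k hk
    rw [h k (Finset.mem_compl.1 hk)]
  have h4 : (univ.filter (fun k => t ∈ x.1 k)).card = (univ.filter (fun k => t ∈ y.1 k)).card := by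
    rw [x.2.2 t, y.2.2 t]
  omega

omit [Fintype C] in
/-- Module M3: tables agreeing outside `W` are joined by switches inside `W`. -/
theorem conn (W : Finset R) (x y : Tab r c) (h : AgreeOff W x.1 y.1) :
    Relation.ReflTransGen (fun u v : Tab r c => AdjIn W u.1 v.1) x y := by
  revert x y
  induction W using Finset.induction_on with
  | empty =>
    intro x y hout
    have : x = y := Subtype.ext (funext fun k => hout k (Finset.notMem_empty k))
    rw [this]
  | insert i S' hiS' ih =>
    -- inner induction on the number of columns of row `i` of `x` missing in row `i` of `y`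
    have inner : ∀ n : ℕ, ∀ x y : Tab r c, AgreeOff (insert i S') x.1 y.1 →
        (x.1 i \ y.1 i).card = n →
        Relation.ReflTransGen (fun u v : Tab r c => AdjIn (insert i S') u.1 v.1) x y := by
      intro n
      induction n with
      | zero =>
        intro x y hout hn
        have hsub : x.1 i ⊆ y.1 i :=
          Finset.sdiff_eq_empty_iff_subset.1 (Finset.card_eq_zero.1 hn)
        have hcard : (y.1 i).card ≤ (x.1 i).card := by rw [x.2.1 i, y.2.1 i]
        have hxy : x.1 i = y.1 i := Finset.eq_of_subset_of_card_le hsub hcard
        refine reach_mono (Finset.subset_insert i S') (ih x y ?_)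
        intro k hk
        by_cases hki : k = i
        · rw [hki]; exact hxy
        · exact hout k (by simp [hki, hk])
      | succ n ihn =>
        intro x y hout hn
        have hne : (x.1 i \ y.1 i).Nonempty := Finset.card_pos.1 (by omega)
        obtain ⟨a, ha⟩ := hne
        obtain ⟨hax, hay⟩ := Finset.mem_sdiff.1 ha
        -- a column `b` of row `i` of `y` missing in row `i` of `x`
        have hb : ∃ b, b ∈ y.1 i ∧ b ∉ x.1 i := by
          by_contra hcon
          have hsub : y.1 i ⊆ x.1 i := fun b hb => by
            by_contra hbx
            exact hcon ⟨b, hb, hbx⟩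
          have hcard : (x.1 i).card ≤ (y.1 i).card := by rw [x.2.1 i, y.2.1 i]
          have hxy : y.1 i = x.1 i := Finset.eq_of_subset_of_card_le hsub hcard
          exact hay (hxy ▸ hax)
        obtain ⟨b, hby, hbx⟩ := hb
        have hab : a ≠ b := by
          rintro rfl
          exact hbx hax
        have hiS : i ∈ insert i S' := Finset.mem_insert_self i S'
        -- one of the two tables admits a switch bringing the rows `i` closer
        have hcases : (∃ j ∈ insert i S', j ≠ i ∧ b ∈ x.1 j ∧ a ∉ x.1 j) ∨
            (∃ j ∈ insert i S', j ≠ i ∧ a ∈ y.1 j ∧ b ∉ y.1 j) := by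
          by_contra hcon
          have h1 : ∀ j ∈ insert i S', j ≠ i → b ∈ x.1 j → a ∈ x.1 j := by
            intro j hj hji hbj
            by_contra haj
            exact hcon (Or.inl ⟨j, hj, hji, hbj, haj⟩)
          have h2 : ∀ j ∈ insert i S', j ≠ i → a ∈ y.1 j → b ∈ y.1 j := by
            intro j hj hji haj
            by_contra hbj
            exact hcon (Or.inr ⟨j, hj, hji, haj, hbj⟩)
          have ea := colCountOn_eq (insert i S') x y hout a
          have eb := colCountOn_eq (insert i S') x y hout b
          have s1 : ((insert i S').filter fun k => b ∈ x.1 k)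
              ⊆ ((insert i S').filter fun k => a ∈ x.1 k).erase i := by
            intro j hj
            obtain ⟨hjS, hbj⟩ := Finset.mem_filter.1 hj
            have hji : j ≠ i := by
              rintro rfl
              exact hbx hbj
            exact Finset.mem_erase.2 ⟨hji, Finset.mem_filter.2 ⟨hjS, h1 j hjS hji hbj⟩⟩
          have s2 : ((insert i S').filter fun k => a ∈ y.1 k)
              ⊆ ((insert i S').filter fun k => b ∈ y.1 k).erase i := by
            intro j hj
            obtain ⟨hjS, haj⟩ := Finset.mem_filter.1 hj
            have hji : j ≠ i := by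
              rintro rfl
              exact hay haj
            exact Finset.mem_erase.2 ⟨hji, Finset.mem_filter.2 ⟨hjS, h2 j hjS hji haj⟩⟩
          have c1 := Finset.card_le_card s1
          have c2 := Finset.card_le_card s2
          have m1 : i ∈ (insert i S').filter fun k => a ∈ x.1 k :=
            Finset.mem_filter.2 ⟨hiS, hax⟩
          have m2 : i ∈ (insert i S').filter fun k => b ∈ y.1 k :=
            Finset.mem_filter.2 ⟨hiS, hby⟩
          rw [Finset.card_erase_of_mem m1] at c1
          rw [Finset.card_erase_of_mem m2] at c2
          have p1 := Finset.card_pos.2 ⟨i, m1⟩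
          have p2 := Finset.card_pos.2 ⟨i, m2⟩
          omega
        rcases hcases with ⟨j, hjS, hji, hbj, haj⟩ | ⟨j, hjS, hji, haj, hbj⟩
        · -- switch in `x`: row `i` trades `a` for `b`, row `j` trades `b` for `a`
          have hcan : SwOK x.1 i j a b := ⟨Ne.symm hji, hab, hax, hbx, haj, hbj⟩
          let x' : Tab r c := ⟨swRow x.1 i j a b, isTable_swRow x.2 hcan⟩
          have hstep : AdjIn (insert i S') x.1 x'.1 := ⟨i, j, a, b, hiS, hjS, hcan, rfl⟩
          refine Relation.ReflTransGen.head hstep (ihn x' y ?_ ?_)
          · intro k hk
            have hki : k ≠ i := by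
              rintro rfl
              exact hk hiS
            have hkj : k ≠ j := by
              rintro rfl
              exact hk hjS
            show swRow x.1 i j a b k = y.1 k
            rw [swRow_apply_of_ne x.1 hki hkj]; exact hout k hk
          · show (swRow x.1 i j a b i \ y.1 i).card = n
            rw [swRow_apply_left x.1 (Ne.symm hji)]
            have e : insert b ((x.1 i).erase a) \ y.1 i = (x.1 i \ y.1 i).erase a := by
              ext t
              simp only [Finset.mem_sdiff, Finset.mem_insert, Finset.mem_erase]
              constructor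
              · rintro ⟨rfl | ⟨hta, ht⟩, hty⟩
                · exact absurd hby hty
                · exact ⟨hta, ht, hty⟩
              · rintro ⟨hta, ht, hty⟩
                exact ⟨Or.inr ⟨hta, ht⟩, hty⟩
            rw [e, Finset.card_erase_of_mem ha, hn]; rfl
        · -- switch in `y`: row `i` trades `b` for `a`, row `j` trades `a` for `b`
          have hcan : SwOK y.1 i j b a := ⟨Ne.symm hji, Ne.symm hab, hby, hay, hbj, haj⟩
          let y' : Tab r c := ⟨swRow y.1 i j b a, isTable_swRow y.2 hcan⟩
          have hstep : AdjIn (insert i S') y.1 y'.1 := ⟨i, j, b, a, hiS, hjS, hcan, rfl⟩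
          refine Relation.ReflTransGen.tail (ihn x y' ?_ ?_) hstep.symm
          · intro k hk
            have hki : k ≠ i := by
              rintro rfl
              exact hk hiS
            have hkj : k ≠ j := by
              rintro rfl
              exact hk hjS
            show x.1 k = swRow y.1 i j b a k
            rw [swRow_apply_of_ne y.1 hki hkj]; exact hout k hk
          · show (x.1 i \ swRow y.1 i j b a i).card = n
            rw [swRow_apply_left y.1 (Ne.symm hji)]
            have e : x.1 i \ insert a ((y.1 i).erase b) = (x.1 i \ y.1 i).erase a := by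
              ext t
              simp only [Finset.mem_sdiff, Finset.mem_insert, Finset.mem_erase, not_or, not_and]
              constructor
              · rintro ⟨ht, hta, hty⟩
                refine ⟨hta, ht, fun hty' => ?_⟩
                have htb : t ≠ b := by
                  rintro rfl
                  exact hbx ht
                exact hty htb hty'
              · rintro ⟨hta, ht, hty⟩
                exact ⟨ht, hta, fun _ hty' => hty hty'⟩
            rw [e, Finset.card_erase_of_mem ha, hn]; rfl
    intro x y hout
    exact inner _ x y hout rfl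

end Vale.Agent.Lib.P335.Bip
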