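import Vale.Agent.Lib.P335.Bip.Avg
import Vale.Agent.Lib.P335.Bip.Conn

/-!
# Basic facts on switches of tables
-/

namespace Vale.Agent.Lib.P335.Bip

open Finset
open Classical

variable {R C : Type} [Fintype R] [DecidableEq R] [Fintype C] [DecidableEq C]
variable {r : R → ℕ} {c : C → ℕ}

theorem swRow_left (x : R → Finset C) {i i' : R} (h : i ≠ i') (j j' : C) :
    swRow x i i' j j' i = insert j' ((x i).erase j) := by
  unfold swRow
  rw [Function.update_of_ne h, Function.update_self]

theorem swRow_right (x : R → Finset C) (i i' : R) (j j' : C) :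
    swRow x i i' j j' i' = insert j ((x i').erase j') := by
  unfold swRow
  rw [Function.update_self]

theorem swRow_other (x : R → Finset C) {i i' k : R} (h1 : k ≠ i) (h2 : k ≠ i') (j j' : C) :
    swRow x i i' j j' k = x k := by
  unfold swRow
  rw [Function.update_of_ne h2, Function.update_of_ne h1]

theorem swRow_comm (x : R → Finset C) {i i' : R} (h : i ≠ i') (j j' : C) :
    swRow x i i' j j' = swRow x i' i j' j := by
  funext k
  by_cases h1 : k = i
  · subst h1
    rw [swRow_left x h, swRow_right]
  · by_cases h2 : k = i'
    · subst h2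
      rw [swRow_right, swRow_left x (Ne.symm h)]
    · rw [swRow_other x h1 h2, swRow_other x h2 h1]

theorem SwOK.symm {x : R → Finset C} {i i' : R} {j j' : C} (h : SwOK x i i' j j') :
    SwOK x i' i j' j :=
  ⟨h.1.symm, h.2.1.symm, h.2.2.2.2.2, h.2.2.2.2.1, h.2.2.2.1, h.2.2.1⟩

/-- membership in the rows of a switched table -/
theorem mem_swRow_left {x : R → Finset C} {i i' : R} {j j' : C} (h : SwOK x i i' j j') (t : C) :
    t ∈ swRow x i i' j j' i ↔ (t = j' ∨ (t ∈ x i ∧ t ≠ j)) := by
  rw [swRow_left x h.1, mem_insert, mem_erase]
  tauto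

theorem mem_swRow_right {x : R → Finset C} {i i' : R} {j j' : C} (_h : SwOK x i i' j j') (t : C) :
    t ∈ swRow x i i' j j' i' ↔ (t = j ∨ (t ∈ x i' ∧ t ≠ j')) := by
  rw [swRow_right, mem_insert, mem_erase]
  tauto

/-- the reverse switch is available and undoes the switch -/
theorem SwOK.reverse {x : R → Finset C} {i i' : R} {j j' : C} (h : SwOK x i i' j j') :
    SwOK (swRow x i i' j j') i i' j' j := by
  obtain ⟨h1, h2, h3, h4, h5, h6⟩ := h
  have h := (⟨h1, h2, h3, h4, h5, h6⟩ : SwOK x i i' j j')
  refine ⟨h1, h2.symm, ?_, ?_, ?_, ?_⟩
  · rw [mem_swRow_left h]; exact Or.inl rfl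
  · rw [mem_swRow_left h]; rintro (h7 | ⟨_, h7⟩)
    · exact h2 h7
    · exact h7 rfl
  · rw [mem_swRow_right h]; rintro (h7 | ⟨_, h7⟩)
    · exact h2 h7.symm
    · exact h7 rfl
  · rw [mem_swRow_right h]; exact Or.inl rfl

/-- a switch keeps the margins -/
theorem swRow_isTable {x : R → Finset C} (hx : IsTable r c x) {i i' : R} {j j' : C}
    (h : SwOK x i i' j j') : IsTable r c (swRow x i i' j j') := by
  obtain ⟨h1, h2, h3, h4, h5, h6⟩ := h
  have h := (⟨h1, h2, h3, h4, h5, h6⟩ : SwOK x i i' j j')
  refine ⟨?_, ?_⟩
  · intro k
    by_cases hk1 : k = i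
    · subst hk1
      rw [swRow_left x h1, card_insert_of_notMem, card_erase_of_mem h3, ← hx.1 k]
      · have := card_pos.mpr ⟨j, h3⟩
        omega
      · rw [mem_erase]; exact fun h7 => h4 h7.2
    · by_cases hk2 : k = i'
      · subst hk2
        rw [swRow_right, card_insert_of_notMem, card_erase_of_mem h6, ← hx.1 k]
        · have := card_pos.mpr ⟨j', h6⟩
          omega
        · rw [mem_erase]; exact fun h7 => h5 h7.2
      · rw [swRow_other x hk1 hk2, hx.1 k]
  · intro t
    rw [← hx.2 t]
    by_cases ht1 : t = j
    · subst ht1
      -- column j: row i loses it, row i' gains it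
      have e1 : univ.filter (fun k => t ∈ swRow x i i' t j' k)
          = insert i' ((univ.filter (fun k => t ∈ x k)).erase i) := by
        ext k
        simp only [mem_filter, mem_univ, true_and, mem_insert, mem_erase]
        by_cases hk1 : k = i
        · subst hk1
          rw [mem_swRow_left h]
          constructor
          · rintro (h7 | ⟨_, h7⟩)
            · exact absurd h7 h2
            · exact absurd rfl h7
          · rintro (h7 | ⟨h7, _⟩)
            · exact absurd h7 h1
            · exact absurd rfl h7
        · by_cases hk2 : k = i'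
          · subst hk2
            rw [mem_swRow_right h]
            exact ⟨fun _ => Or.inl rfl, fun _ => Or.inl rfl⟩
          · rw [swRow_other x hk1 hk2]
            exact ⟨fun h7 => Or.inr ⟨hk1, h7⟩, fun h7 => h7.elim (fun h8 => absurd h8 hk2) (fun h8 => h8.2)⟩
      rw [e1, card_insert_of_notMem, card_erase_of_mem]
      · have : 0 < (univ.filter (fun k => t ∈ x k)).card := card_pos.mpr ⟨i, by simp [h3]⟩
        omega
      · simp [h3]
      · simp only [mem_erase, mem_filter, mem_univ, true_and, not_and]
        exact fun _ => h5
    · by_cases ht2 : t = j'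
      · subst ht2
        have e1 : univ.filter (fun k => t ∈ swRow x i i' j t k)
            = insert i ((univ.filter (fun k => t ∈ x k)).erase i') := by
          ext k
          simp only [mem_filter, mem_univ, true_and, mem_insert, mem_erase]
          by_cases hk1 : k = i
          · subst hk1
            rw [mem_swRow_left h]
            exact ⟨fun _ => Or.inl rfl, fun _ => Or.inl rfl⟩
          · by_cases hk2 : k = i'
            · subst hk2
              rw [mem_swRow_right h]
              constructor
              · rintro (h7 | ⟨_, h7⟩)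
                · exact absurd h7 ht1
                · exact absurd rfl h7
              · rintro (h7 | ⟨h7, _⟩)
                · exact absurd h7 hk1
                · exact absurd rfl h7
            · rw [swRow_other x hk1 hk2]
              exact ⟨fun h7 => Or.inr ⟨hk2, h7⟩, fun h7 => h7.elim (fun h8 => absurd h8 hk1) (fun h8 => h8.2)⟩
        rw [e1, card_insert_of_notMem, card_erase_of_mem]
        · have : 0 < (univ.filter (fun k => t ∈ x k)).card := card_pos.mpr ⟨i', by simp [h6]⟩
          omega
        · simp [h6]
        · simp only [mem_erase, mem_filter, mem_univ, true_and, not_and]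
          exact fun _ => h4
      · congr 1
        ext k
        simp only [mem_filter, mem_univ, true_and]
        by_cases hk1 : k = i
        · subst hk1
          rw [mem_swRow_left h]
          constructor
          · rintro (h7 | ⟨h7, _⟩)
            · exact absurd h7 ht2
            · exact h7
          · exact fun h7 => Or.inr ⟨h7, ht1⟩
        · by_cases hk2 : k = i'
          · subst hk2
            rw [mem_swRow_right h]
            constructor
            · rintro (h7 | ⟨h7, _⟩)
              · exact absurd h7 ht1
              · exact h7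
            · exact fun h7 => Or.inr ⟨h7, ht2⟩
          · rw [swRow_other x hk1 hk2]

/-- a switch in rows `i`, `i'` changes no other row -/
theorem agreeOff_swRow (x : R → Finset C) (i i' : R) (j j' : C) {W : Finset R}
    (hi : i ∈ W) (hi' : i' ∈ W) : AgreeOff W x (swRow x i i' j j') := by
  intro k hk
  have h1 : k ≠ i := fun h => hk (h ▸ hi)
  have h2 : k ≠ i' := fun h => hk (h ▸ hi')
  rw [swRow_other x h1 h2]

theorem AdjIn.agreeOff {W : Finset R} {x y : R → Finset C} (h : AdjIn W x y) : AgreeOff W x y := by
  obtain ⟨i, i', j, j', hi, hi', _, rfl⟩ := h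
  exact agreeOff_swRow x i i' j j' hi hi'

end Vale.Agent.Lib.P335.Bip
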