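import Vale.Agent.Lib.P335.H15.Pairs

/-!
# Caputo's argument for a family of symmetric idempotents indexed by pairs
-/

namespace Vale.Agent.Lib.P335.Bip

open Finset
open Classical

/-- **Caputo's inequality, abstract form.**  Let `D b` be symmetric idempotents for a
symmetric positive semidefinite form `B`, indexed by finite subsets of `R`, such that
`D b` and `D b'` commute for disjoint two-element sets, and such that the sum `A_T` of the
`D b` over the two-element subsets of any three-element set `T` satisfies `A_T ≤ A_T²`.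
Then the sum `LL` over all two-element sets satisfies `LL ≤ LL²`. -/
theorem caputo_abstract {V : Type} [AddCommGroup V] [Module ℝ V] (B : V →ₗ[ℝ] V →ₗ[ℝ] ℝ)
    (hBsymm : ∀ f g, B f g = B g f) (hBpos : ∀ f, 0 ≤ B f f)
    {R : Type} [Fintype R] [DecidableEq R] (D : Finset R → V →ₗ[ℝ] V)
    (hsymm : ∀ b f g, B (D b f) g = B f (D b g))
    (hidem : ∀ b f, D b (D b f) = D b f)
    (hcomm : ∀ b b', b.card = 2 → b'.card = 2 → Disjoint b b' → ∀ f, D b (D b' f) = D b' (D b f))
    (htriple : ∀ T : Finset R, T.card = 3 → ∀ f,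
      B f (∑ b ∈ T.powersetCard 2, D b f)
        ≤ B (∑ b ∈ T.powersetCard 2, D b f) (∑ b ∈ T.powersetCard 2, D b f))
    (f : V) :
    B f (∑ b ∈ (univ : Finset R).powersetCard 2, D b f)
      ≤ B (∑ b ∈ (univ : Finset R).powersetCard 2, D b f)
          (∑ b ∈ (univ : Finset R).powersetCard 2, D b f) := by
  have hdiag : ∀ s : Finset (Finset R),
      B f (∑ b ∈ s, D b f) = ∑ b ∈ s, B (D b f) (D b f) := by
    intro s
    rw [map_sum]
    apply Finset.sum_congr rfl
    intro b _
    rw [hsymm b f (D b f), hidem]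
  have hfull : ∀ s : Finset (Finset R),
      B (∑ b ∈ s, D b f) (∑ b ∈ s, D b f) = ∑ b ∈ s, ∑ b' ∈ s, B (D b f) (D b' f) := by
    intro s
    have hx : ∀ x : Finset R, B (∑ b ∈ s, D b f) (D x f) = ∑ b ∈ s, B (D b f) (D x f) := by
      intro x
      rw [map_sum, LinearMap.sum_apply]
    rw [map_sum]
    simp only [hx]
    exact Finset.sum_comm
  rw [hdiag, hfull]
  apply H15.caputo_core_pairs (fun b b' => B (D b f) (D b' f))
  · intro b b' hb hb' hdis
    have hc := hcomm b b' hb hb' hdis
    have e : B (D b f) (D b' f) = B (D b (D b' f)) (D b (D b' f)) := by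
      have s1 : B (D b (D b' f)) (D b (D b' f)) = B (D b' f) (D b (D b' f)) := by
        rw [hsymm b (D b' f) (D b (D b' f)), hidem]
      have s2 : B (D b' f) (D b (D b' f)) = B (D b' f) (D b f) := by
        rw [hc f, ← hsymm b' (D b' f) (D b f), hidem]
      rw [s1, s2, hBsymm]
    rw [e]
    exact hBpos _
  · intro T hT
    have := htriple T hT f
    rw [hdiag, hfull] at this
    exact this

end Vale.Agent.Lib.P335.Bip
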