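import Vale.Agent.Lib.P335.Bip.JohnsonFull
import Vale.Agent.Lib.P335.Bip.Basic

/-!
# Facts on the column exchange in two rows

For two rows `i ≠ i'` and two columns `p, q` the map `Johnson.colSwapTab {i, i'} p q`
exchanges the columns `p`, `q` in the rows `i`, `i'`.  Its moved points are the tables in
which one of the two switches of the rows `i`, `i'` at the columns `p`, `q` is available, and there it is
that switch.  Summing the flip energies over all ordered pairs of distinct columns gives
twice the switch energy of the pair of rows.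
-/

namespace Vale.Agent.Lib.P335.Bip

open Finset
open Classical

set_option linter.unusedSectionVars false

variable {R C : Type} [Fintype R] [DecidableEq R] [Fintype C] [DecidableEq C]
variable {r : R → ℕ} {c : C → ℕ}

namespace Johnson

theorem colSwap_comm (W : Finset R) (p q : C) (x : R → Finset C) :
    colSwap W p q x = colSwap W q p x := by
  unfold colSwap
  rw [Equiv.swap_comm]

theorem colSwapTab_comm (W : Finset R) (p q : C) (x : Tab r c) :
    colSwapTab W p q x = colSwapTab W q p x := by
  by_cases h : wcount W x.1 p = wcount W x.1 q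
  · apply Subtype.ext
    rw [colSwapTab_pos h, colSwapTab_pos h.symm, colSwap_comm]
  · rw [colSwapTab_neg h, colSwapTab_neg (fun h' => h h'.symm)]

/-- On a table where the switch of the rows `i`, `i'` at `p`, `q` is available the column
exchange is that switch. -/
theorem colSwapTab_val_of_swOK {i i' : R} {p q : C} {x : Tab r c} (h : SwOK x.1 i i' p q) :
    (colSwapTab {i, i'} p q x).1 = swRow x.1 i i' p q := by
  have := colSwapTab_eq_of_swOK (y := ⟨swRow x.1 i i' p q, isTable_swRow x.2 h⟩) h rfl
  rw [this]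

theorem colSwapTab_val_of_swOK' {i i' : R} {p q : C} {x : Tab r c} (h : SwOK x.1 i i' q p) :
    (colSwapTab {i, i'} p q x).1 = swRow x.1 i i' q p := by
  rw [colSwapTab_comm, colSwapTab_val_of_swOK h]

theorem swRow_ne_self {x : R → Finset C} {i i' : R} {p q : C} (h : SwOK x i i' p q) :
    swRow x i i' p q ≠ x := by
  intro heq
  have h1 : p ∈ swRow x i i' p q i := by rw [heq]; exact h.2.2.1
  rw [mem_swRow, if_neg h.1, if_pos rfl] at h1
  rcases h1 with h1 | ⟨h1, -⟩
  · exact h.2.1 h1
  · exact h1 rfl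

/-- If neither switch is available, the column exchange fixes the table. -/
theorem colSwapTab_eq_self_of_not_swOK {i i' : R} (hii : i ≠ i') (x : Tab r c) (p q : C)
    (h1 : ¬ SwOK x.1 i i' p q) (h2 : ¬ SwOK x.1 i i' q p) :
    colSwapTab {i, i'} p q x = x := by
  have hfix : (p ∈ x.1 i ↔ q ∈ x.1 i) → (p ∈ x.1 i' ↔ q ∈ x.1 i') →
      colSwapTab {i, i'} p q x = x := by
    intro e1 e2
    apply colSwapTab_fix
    intro k hk
    simp only [mem_insert, mem_singleton] at hk
    rcases hk with rfl | rfl
    · exact e1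
    · exact e2
  have hneg : ((if p ∈ x.1 i then 1 else 0) + (if p ∈ x.1 i' then 1 else 0) : ℕ)
      ≠ (if q ∈ x.1 i then 1 else 0) + (if q ∈ x.1 i' then 1 else 0) →
      colSwapTab {i, i'} p q x = x := by
    intro hne
    apply colSwapTab_neg
    rw [wcount_pair hii, wcount_pair hii]
    exact hne
  by_cases a1 : p ∈ x.1 i <;> by_cases a2 : p ∈ x.1 i' <;> by_cases a3 : q ∈ x.1 i <;>
    by_cases a4 : q ∈ x.1 i' <;>
    first
    | (apply hfix
       · simp only [a1, a3]
       · simp only [a2, a4])
    | (apply hneg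
       simp [a1, a2, a3, a4]
       done)
    | (exfalso
       apply h1
       refine ⟨hii, ?_, ?_, ?_, ?_, ?_⟩ <;> first | assumption | (rintro rfl; contradiction))
    | (exfalso
       apply h2
       refine ⟨hii, ?_, ?_, ?_, ?_, ?_⟩ <;> first | assumption | (rintro rfl; contradiction))

/-- **Moved points of the column exchange.** -/
theorem colSwapTab_ne_iff {i i' : R} (hii : i ≠ i') (x : Tab r c) (p q : C) :
    colSwapTab {i, i'} p q x ≠ x ↔ (SwOK x.1 i i' p q ∨ SwOK x.1 i i' q p) := by
  constructor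
  · intro h
    by_contra hcon
    exact h (colSwapTab_eq_self_of_not_swOK hii x p q (fun h1 => hcon (Or.inl h1))
      (fun h2 => hcon (Or.inr h2)))
  · rintro (h | h) heq
    · have := colSwapTab_val_of_swOK h
      rw [heq] at this
      exact swRow_ne_self h this.symm
    · have := colSwapTab_val_of_swOK' h
      rw [heq] at this
      exact swRow_ne_self h this.symm

/-! ### the neighbours of a table inside two rows -/

/-- The neighbour of `x` obtained by the switch of the rows `i`, `i'` at the columns `jj.1`,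
`jj.2` (or `x` itself if the switch is not available). -/
noncomputable def nbr (x : Tab r c) (i i' : R) (jj : C × C) : Tab r c :=
  if h : SwOK x.1 i i' jj.1 jj.2 then ⟨swRow x.1 i i' jj.1 jj.2, isTable_swRow x.2 h⟩ else x

theorem nbr_val {x : Tab r c} {i i' : R} {jj : C × C} (h : SwOK x.1 i i' jj.1 jj.2) :
    (nbr x i i' jj).1 = swRow x.1 i i' jj.1 jj.2 := by
  unfold nbr
  rw [dif_pos h]

/-- The pairs of columns on which a switch of the rows `i`, `i'` is available. -/
def swPairs (x : R → Finset C) (i i' : R) : Finset (C × C) := (x i \ x i') ×ˢ (x i' \ x i)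

theorem mem_swPairs {x : R → Finset C} {i i' : R} (hii : i ≠ i') (jj : C × C) :
    jj ∈ swPairs x i i' ↔ SwOK x i i' jj.1 jj.2 := by
  unfold swPairs SwOK
  rw [mem_product, mem_sdiff, mem_sdiff]
  constructor
  · rintro ⟨⟨h1, h2⟩, h3, h4⟩
    exact ⟨hii, fun h => h4 (h ▸ h1), h1, h4, h2, h3⟩
  · rintro ⟨-, -, h1, h4, h2, h3⟩
    exact ⟨⟨h1, h2⟩, h3, h4⟩

theorem nbr_eq_colSwapTab {x : Tab r c} {i i' : R} {jj : C × C}
    (h : SwOK x.1 i i' jj.1 jj.2) : nbr x i i' jj = colSwapTab {i, i'} jj.1 jj.2 x := by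
  apply Subtype.ext
  rw [nbr_val h, colSwapTab_val_of_swOK h]

theorem nbr_injOn (x : Tab r c) {i i' : R} (hii : i ≠ i') :
    Set.InjOn (nbr x i i') (swPairs x.1 i i' : Finset (C × C)) := by
  intro jj hjj kk hkk heq
  have hjj' := (mem_swPairs hii jj).1 (mem_coe.1 hjj)
  have hkk' := (mem_swPairs hii kk).1 (mem_coe.1 hkk)
  have hrowa : ∀ (j j' m : C), m ∈ swRow x.1 i i' j j' i ↔ (m = j' ∨ (m ≠ j ∧ m ∈ x.1 i)) := by
    intro j j' m
    rw [mem_swRow, if_neg hii, if_pos rfl]
  have e : swRow x.1 i i' jj.1 jj.2 = swRow x.1 i i' kk.1 kk.2 := by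
    rw [← nbr_val hjj', ← nbr_val hkk', heq]
  have ea := congrFun e i
  have e2 : jj.2 = kk.2 := by
    have : jj.2 ∈ swRow x.1 i i' kk.1 kk.2 i := by
      rw [← ea, hrowa]; exact Or.inl rfl
    rw [hrowa] at this
    rcases this with h | ⟨-, h⟩
    · exact h
    · exact absurd h hjj'.2.2.2.1
  have e1 : jj.1 = kk.1 := by
    have : kk.1 ∉ swRow x.1 i i' jj.1 jj.2 i := by
      rw [ea, hrowa]
      rintro (h | ⟨h, -⟩)
      · exact hkk'.2.1 h
      · exact h rfl
    rw [hrowa] at this
    by_contra hne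
    exact this (Or.inr ⟨fun h => hne h.symm, hkk'.2.2.1⟩)
  exact Prod.ext e1 e2

theorem adjIn_pair_iff (x y : Tab r c) {i i' : R} (hii : i ≠ i') :
    AdjIn {i, i'} x.1 y.1 ↔ y ∈ (swPairs x.1 i i').image (nbr x i i') := by
  rw [mem_image]
  constructor
  · rintro ⟨a, b, j, j', ha, hb, hsw, hy⟩
    have hab : a ≠ b := hsw.1
    simp only [mem_insert, mem_singleton] at ha hb
    rcases ha with rfl | rfl <;> rcases hb with rfl | rfl
    · exact absurd rfl hab
    · refine ⟨(j, j'), (mem_swPairs hii _).2 hsw, ?_⟩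
      apply Subtype.ext
      rw [nbr_val (jj := (j, j')) hsw, hy]
    · have hsw' : SwOK x.1 b a j' j := hsw.symm
      refine ⟨(j', j), (mem_swPairs hii _).2 hsw', ?_⟩
      apply Subtype.ext
      rw [nbr_val (jj := (j', j)) hsw', hy, swRow_comm x.1 hab j j']
    · exact absurd rfl hab
  · rintro ⟨jj, hjj, rfl⟩
    have hsw := (mem_swPairs hii jj).1 hjj
    exact ⟨i, i', jj.1, jj.2, by simp, by simp, hsw, nbr_val hsw⟩

/-- A sum over the neighbours of `x` inside the rows `i`, `i'` as a sum over pairs of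
columns. -/
theorem sum_adjIn_pair (x : Tab r c) {i i' : R} (hii : i ≠ i') (G : Tab r c → ℝ) :
    ∑ y : Tab r c, (if AdjIn {i, i'} x.1 y.1 then G y else 0)
      = ∑ jj ∈ swPairs x.1 i i', G (nbr x i i' jj) := by
  rw [← sum_filter, ← sum_image (nbr_injOn x hii)]
  apply sum_congr _ fun _ _ => rfl
  ext y
  rw [mem_filter, ← adjIn_pair_iff x y hii]
  simp

/-- For a fixed table: the flip differences over all ordered pairs of distinct columns add up
to twice the sum over the neighbours inside the two rows. -/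
theorem sum_flip_pointwise {i i' : R} (hii : i ≠ i') (f : Tab r c → ℝ) (x : Tab r c) :
    ∑ p : C, ∑ q : C, (if p = q then 0 else (f x - f (colSwapTab {i, i'} p q x)) ^ 2)
      = 2 * ∑ y : Tab r c, (if AdjIn {i, i'} x.1 y.1 then (f x - f y) ^ 2 else 0) := by
  set S : Finset (C × C) := swPairs x.1 i i' with hS
  set G : C × C → ℝ := fun pq => (f x - f (nbr x i i' pq)) ^ 2 with hG
  have hpt : ∀ pq : C × C,
      (if pq.1 = pq.2 then 0 else (f x - f (colSwapTab {i, i'} pq.1 pq.2 x)) ^ 2)
        = (if pq ∈ S then G pq else 0) + (if pq.swap ∈ S then G pq.swap else 0) := by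
    intro pq
    by_cases h1 : pq ∈ S
    · have hsw := (mem_swPairs hii pq).1 h1
      have h2 : pq.swap ∉ S := by
        intro h2
        have hsw' := (mem_swPairs hii pq.swap).1 h2
        exact hsw.2.2.2.1 hsw'.2.2.1
      rw [if_pos h1, if_neg h2, if_neg hsw.2.1, add_zero]
      simp only [hG]
      rw [nbr_eq_colSwapTab hsw]
    · by_cases h2 : pq.swap ∈ S
      · have hsw := (mem_swPairs hii pq.swap).1 h2
        have hne : pq.1 ≠ pq.2 := fun h => hsw.2.1 h.symm
        rw [if_neg h1, if_pos h2, if_neg hne, zero_add]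
        simp only [hG]
        rw [nbr_eq_colSwapTab hsw, colSwapTab_comm]
        rfl
      · have e : colSwapTab {i, i'} pq.1 pq.2 x = x :=
          colSwapTab_eq_self_of_not_swOK hii x pq.1 pq.2
            (fun h => h1 ((mem_swPairs hii pq).2 h))
            (fun h => h2 ((mem_swPairs hii pq.swap).2 h))
        rw [if_neg h1, if_neg h2, e]
        simp
  have e1 : ∑ p : C, ∑ q : C, (if p = q then 0 else (f x - f (colSwapTab {i, i'} p q x)) ^ 2)
      = ∑ pq : C × C,
          (if pq.1 = pq.2 then 0 else (f x - f (colSwapTab {i, i'} pq.1 pq.2 x)) ^ 2) :=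
    (Fintype.sum_prod_type' (fun p q : C =>
      (if p = q then 0 else (f x - f (colSwapTab {i, i'} p q x)) ^ 2))).symm
  have e2 : ∑ pq : C × C, (if pq ∈ S then G pq else 0) = ∑ pq ∈ S, G pq := by
    rw [sum_ite_mem, univ_inter]
  have e3 : ∑ pq : C × C, (if pq.swap ∈ S then G pq.swap else 0)
      = ∑ pq : C × C, (if pq ∈ S then G pq else 0) :=
    Equiv.sum_comp (Equiv.prodComm C C) (fun pq => if pq ∈ S then G pq else 0)
  rw [e1, sum_congr rfl fun pq _ => hpt pq, sum_add_distrib, e3, e2, sum_adjIn_pair x hii]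
  ring

/-- **The flip energies of all ordered pairs of distinct columns add up to twice the switch
energy of the two rows.** -/
theorem sum_fen {i i' : R} (hii : i ≠ i') (f : Tab r c → ℝ) :
    ∑ p : C, ∑ q : C,
        (if p = q then 0 else ∑ x : Tab r c, (f x - f (colSwapTab {i, i'} p q x)) ^ 2)
      = 2 * energyIn {i, i'} f := by
  calc ∑ p : C, ∑ q : C,
        (if p = q then 0 else ∑ x : Tab r c, (f x - f (colSwapTab {i, i'} p q x)) ^ 2)
      = ∑ p : C, ∑ q : C, ∑ x : Tab r c,
          (if p = q then 0 else (f x - f (colSwapTab {i, i'} p q x)) ^ 2) := by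
        refine sum_congr rfl fun p _ => sum_congr rfl fun q _ => ?_
        split_ifs <;> simp
    _ = ∑ p : C, ∑ x : Tab r c, ∑ q : C,
          (if p = q then 0 else (f x - f (colSwapTab {i, i'} p q x)) ^ 2) :=
        sum_congr rfl fun p _ => sum_comm
    _ = ∑ x : Tab r c, ∑ p : C, ∑ q : C,
          (if p = q then 0 else (f x - f (colSwapTab {i, i'} p q x)) ^ 2) := sum_comm
    _ = ∑ x : Tab r c, 2 * ∑ y : Tab r c,
          (if AdjIn {i, i'} x.1 y.1 then (f x - f y) ^ 2 else 0) :=
        sum_congr rfl fun x _ => sum_flip_pointwise hii f x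
    _ = 2 * energyIn {i, i'} f := by
        unfold energyIn
        rw [mul_sum]

end Johnson

end Vale.Agent.Lib.P335.Bip
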