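import Vale.Agent.Lib.P335.H8.Comm

/-!
# Module M5 (COMM): the averaging operators of disjoint row sets commute

Spec-shaped statement; the proof is in `Vale.Agent.Lib.P335.H8.Comm`.
-/

namespace Vale.Agent.Lib.P335.Bip

open Finset
open Classical

variable {R C : Type} [Fintype R] [DecidableEq R] [Fintype C] [DecidableEq C]
variable {r : R → ℕ} {c : C → ℕ}

/-- The conditional expectations given the rows outside two disjoint row sets commute. -/
theorem avg_comm (W W' : Finset R) (h : Disjoint W W') (f : Tab r c → ℝ) :
    avg W (avg W' f) = avg W' (avg W f) :=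
  Vale.Agent.Lib.P335.H8.avg_comm h f

end Vale.Agent.Lib.P335.Bip
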