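import Vale.Agent.Lib.P335.Bip.Defs

/-!
# P335, bipartite model, module M7: the cross-type step of the three-row lemma

Rows `a`, `b`, `e`; a switch in the rows `a`, `b` at the columns `p`, `q` for which the third
row `e` has different entries at `p` and `q`. The two `{b, e}`-classes of the two tables are
compared through an explicit coupling: the larger class splits into four parts; two of them
are in bijection with the smaller class (one cross-type switch), the other two are matched
through the inclusion graph of subsets (one cross-type and one same-type switch).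

Helper lemmas live in the namespace `Vale.Agent.Lib.P335.Bip.Cross`; the module theorem is
`Vale.Agent.Lib.P335.Bip.cross_type_step`.
-/

namespace Vale.Agent.Lib.P335.Bip.Cross

open Finset
open Classical
open Vale.Agent.Lib.P335.Bip

set_option linter.unusedSectionVars false
set_option linter.unnecessarySeqFocus false
set_option linter.unusedSimpArgs false
set_option linter.unusedVariables false
set_option linter.unreachableTactic false
set_option linter.unusedTactic false

section finsum

variable {α : Type} [DecidableEq α]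

/-- Double counting on the inclusion graph between the subsets of `D` of sizes `s` and `s + 1`. -/
theorem sum_powersetCard_erase (D : Finset α) (s : ℕ) (h : Finset α → α → ℝ) :
    ∑ T ∈ D.powersetCard (s + 1), ∑ z ∈ T, h (T.erase z) z
      = ∑ U ∈ D.powersetCard s, ∑ z ∈ D \ U, h U z := by
  rw [Finset.sum_sigma', Finset.sum_sigma']
  refine Finset.sum_bij' (fun p _ => ⟨p.1.erase p.2, p.2⟩) (fun p _ => ⟨insert p.2 p.1, p.2⟩)
    ?_ ?_ ?_ ?_ ?_
  · rintro ⟨T, z⟩ hp
    simp only [mem_sigma, mem_powersetCard, mem_sdiff, mem_erase] at hp ⊢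
    obtain ⟨⟨hTD, hTc⟩, hz⟩ := hp
    refine ⟨⟨(erase_subset _ _).trans hTD, ?_⟩, hTD hz, fun h => h.1 rfl⟩
    rw [card_erase_of_mem hz, hTc]; rfl
  · rintro ⟨U, z⟩ hp
    simp only [mem_sigma, mem_powersetCard, mem_sdiff] at hp ⊢
    obtain ⟨⟨hUD, hUc⟩, hzD, hzU⟩ := hp
    refine ⟨⟨?_, ?_⟩, mem_insert_self _ _⟩
    · intro w hw
      rcases mem_insert.mp hw with rfl | hw
      · exact hzD
      · exact hUD hw
    · rw [card_insert_of_notMem hzU, hUc]
  · rintro ⟨T, z⟩ hp
    simp only [mem_sigma, mem_powersetCard] at hp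
    simp [insert_erase hp.2]
  · rintro ⟨U, z⟩ hp
    simp only [mem_sigma, mem_powersetCard, mem_sdiff] at hp
    simp [erase_insert hp.2.2]
  · rintro ⟨T, z⟩ hp
    rfl

theorem sum_powersetCard_insert (D : Finset α) (a : α) (ha : a ∉ D) (n : ℕ)
    (g : Finset α → ℝ) :
    ∑ T ∈ (insert a D).powersetCard (n + 1), g T
      = ∑ T ∈ D.powersetCard (n + 1), g T + ∑ T ∈ D.powersetCard n, g (insert a T) := by
  rw [Finset.powersetCard_succ_insert ha, Finset.sum_union, Finset.sum_image]
  · intro T hT T' hT' hTT'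
    have h1 : a ∉ T := fun h => ha ((mem_powersetCard.mp hT).1 h)
    have h2 : a ∉ T' := fun h => ha ((mem_powersetCard.mp hT').1 h)
    have := congrArg (fun S => Finset.erase S a) hTT'
    simpa [erase_insert h1, erase_insert h2] using this
  · rw [Finset.disjoint_left]
    intro T hT hT'
    obtain ⟨U, _, rfl⟩ := mem_image.mp hT'
    exact ha ((mem_powersetCard.mp hT).1 (mem_insert_self a U))

/-- Part 4: the subsets of `D` of size `s + 1` through the inclusion graph. -/
theorem sum_powersetCard_succ_eq (D : Finset α) (s : ℕ) (g : Finset α → ℝ) :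
    ∑ V ∈ D.powersetCard (s + 1), g V
      = ∑ T ∈ D.powersetCard s, (1 / ((s : ℝ) + 1)) * ∑ z ∈ D \ T, g (insert z T) := by
  have h1 := sum_powersetCard_erase D s (fun U z => g (insert z U))
  have h2 : ∑ T ∈ D.powersetCard (s + 1), ∑ z ∈ T, g (insert z (T.erase z))
      = ((s : ℝ) + 1) * ∑ V ∈ D.powersetCard (s + 1), g V := by
    rw [Finset.mul_sum]
    refine Finset.sum_congr rfl (fun T hT => ?_)
    have hc : T.card = s + 1 := (mem_powersetCard.mp hT).2
    rw [Finset.sum_congr rfl (fun z hz => by rw [insert_erase hz])]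
    rw [Finset.sum_const, hc, nsmul_eq_mul]
    push_cast; ring
  rw [h2] at h1
  rw [← Finset.mul_sum, ← h1]
  have : ((s : ℝ) + 1) ≠ 0 := by positivity
  field_simp

/-- Part 3: `s`-subsets of `D` through the inclusion graph from above. -/
theorem sum_powersetCard_eq_succ (D : Finset α) (s : ℕ) (hs : s + 1 ≤ D.card)
    (g : Finset α → ℝ) :
    ∑ U ∈ D.powersetCard s, g U
      = ∑ T ∈ D.powersetCard (s + 1), (1 / ((D.card : ℝ) - s)) * ∑ z ∈ T, g (T.erase z) := by
  have h1 := sum_powersetCard_erase D s (fun U _ => g U)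
  have h2 : ∑ U ∈ D.powersetCard s, ∑ _z ∈ D \ U, g U
      = ((D.card : ℝ) - s) * ∑ U ∈ D.powersetCard s, g U := by
    rw [Finset.mul_sum]
    refine Finset.sum_congr rfl (fun U hU => ?_)
    obtain ⟨hUD, hc⟩ := mem_powersetCard.mp hU
    rw [Finset.sum_const, card_sdiff_of_subset hUD, hc, nsmul_eq_mul]
    have : s ≤ D.card := by omega
    push_cast [Nat.cast_sub this]; ring
  rw [h2] at h1
  rw [← Finset.mul_sum, h1]
  have : ((D.card : ℝ) - s) ≠ 0 := by
    have : ((s : ℝ) + 1) ≤ D.card := by exact_mod_cast hs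
    intro h0; linarith
  field_simp

/-- The four-part decomposition of the subsets of `D ∪ {p, q}` of size `s + 1`. -/
theorem sum_powersetCard_insert_insert (D : Finset α) (p q : α) (hp : p ∉ D) (hq : q ∉ D)
    (hpq : p ≠ q) (s : ℕ) (hs : s ≤ D.card) (g : Finset α → ℝ) :
    ∑ T' ∈ (insert p (insert q D)).powersetCard (s + 1), g T'
      = ∑ T ∈ D.powersetCard s,
          (g (insert q T) + g (insert p T)
            + (1 / ((D.card : ℝ) - s + 1)) * ∑ z ∈ T, g (insert p (insert q (T.erase z)))
            + (1 / ((s : ℝ) + 1)) * ∑ z ∈ D \ T, g (insert z T)) := by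
  have hp' : p ∉ insert q D := by
    simp [hpq, hp]
  rw [sum_powersetCard_insert _ p hp', sum_powersetCard_insert D q hq,
    sum_powersetCard_succ_eq D s g]
  simp only [Finset.sum_add_distrib]
  rcases Nat.eq_zero_or_pos s with rfl | hspos
  · simp
    ring
  · obtain ⟨s0, rfl⟩ : ∃ s0, s = s0 + 1 := ⟨s - 1, by omega⟩
    rw [sum_powersetCard_insert D q hq s0 (fun T => g (insert p T)),
      sum_powersetCard_eq_succ D s0 hs (fun U => g (insert p (insert q U)))]
    have e : ((D.card : ℝ) - ((s0 + 1 : ℕ) : ℝ) + 1) = (D.card : ℝ) - s0 := by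
      push_cast; ring
    rw [e]
    ring

/-- Comparison of the averages over the subsets of `D` of size `s` and the subsets of size `s + 1` of
`D ∪ {p, q}` along the four-part coupling. -/
theorem avg_cmp (D : Finset α) (p q : α) (hp : p ∉ D) (hq : q ∉ D) (hpq : p ≠ q) (s : ℕ)
    (hs : s ≤ D.card) (φ g : Finset α → ℝ) (cst : ℝ)
    (h1 : ∀ T ∈ D.powersetCard s, |g (insert q T) - φ T| ≤ cst)
    (h2 : ∀ T ∈ D.powersetCard s, |g (insert p T) - φ T| ≤ cst)
    (h3 : ∀ T ∈ D.powersetCard s, ∀ z ∈ T,
      |g (insert p (insert q (T.erase z))) - φ T| ≤ cst)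
    (h4 : ∀ T ∈ D.powersetCard s, ∀ z ∈ D \ T, |g (insert z T) - φ T| ≤ cst) :
    |(∑ T ∈ D.powersetCard s, φ T) / ((D.powersetCard s).card : ℝ)
      - (∑ T' ∈ (insert p (insert q D)).powersetCard (s + 1), g T')
          / (((insert p (insert q D)).powersetCard (s + 1)).card : ℝ)| ≤ cst := by
  set A := D.powersetCard s with hA
  set B := (insert p (insert q D)).powersetCard (s + 1) with hB
  set α₃ : ℝ := 1 / ((D.card : ℝ) - s + 1) with hα₃
  set α₄ : ℝ := 1 / ((s : ℝ) + 1) with hα₄
  set κ : ℝ := 2 + α₃ * s + α₄ * ((D.card : ℝ) - s) with hκ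
  have hsR : (s : ℝ) ≤ D.card := by exact_mod_cast hs
  have hα₃0 : 0 ≤ α₃ := by rw [hα₃]; apply div_nonneg zero_le_one; linarith
  have hα₄0 : 0 ≤ α₄ := by rw [hα₄]; positivity
  have hκ2 : 2 ≤ κ := by
    have h1 : 0 ≤ α₃ * s := mul_nonneg hα₃0 (Nat.cast_nonneg s)
    have h2 : 0 ≤ α₄ * ((D.card : ℝ) - s) := mul_nonneg hα₄0 (by linarith)
    rw [hκ]; linarith
  have hκ0 : 0 < κ := by linarith
  have hApos : 0 < (A.card : ℝ) := by
    rw [hA, card_powersetCard]
    exact_mod_cast Nat.choose_pos hs
  have cardT : ∀ T ∈ A, (T.card : ℝ) = s := by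
    intro T hT; rw [(mem_powersetCard.mp hT).2]
  have cardDT : ∀ T ∈ A, ((D \ T).card : ℝ) = (D.card : ℝ) - s := by
    intro T hT
    obtain ⟨hTD, hc⟩ := mem_powersetCard.mp hT
    rw [card_sdiff_of_subset hTD, hc, Nat.cast_sub hs]
  -- the size of `B`
  have hBcard : (B.card : ℝ) = κ * A.card := by
    have := sum_powersetCard_insert_insert D p q hp hq hpq s hs (fun _ => (1 : ℝ))
    rw [Finset.sum_const, nsmul_eq_mul, mul_one] at this
    rw [hB, this, Finset.sum_congr rfl (g := fun _ => κ)]
    · rw [Finset.sum_const, nsmul_eq_mul, mul_comm]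
    · intro T hT
      rw [Finset.sum_const, Finset.sum_const, nsmul_eq_mul, nsmul_eq_mul, cardT T hT,
        cardDT T hT, hκ]
      ring
  have hBpos : 0 < (B.card : ℝ) := by rw [hBcard]; positivity
  -- the sum over `B`
  have hBsum : ∑ T' ∈ B, g T' = ∑ T ∈ A, (g (insert q T) + g (insert p T)
            + α₃ * ∑ z ∈ T, g (insert p (insert q (T.erase z)))
            + α₄ * ∑ z ∈ D \ T, g (insert z T)) :=
    sum_powersetCard_insert_insert D p q hp hq hpq s hs g
  have key : ∀ T ∈ A,
      |(g (insert q T) + g (insert p T)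
            + α₃ * ∑ z ∈ T, g (insert p (insert q (T.erase z)))
            + α₄ * ∑ z ∈ D \ T, g (insert z T)) - κ * φ T| ≤ κ * cst := by
    intro T hT
    have e : (g (insert q T) + g (insert p T)
            + α₃ * ∑ z ∈ T, g (insert p (insert q (T.erase z)))
            + α₄ * ∑ z ∈ D \ T, g (insert z T)) - κ * φ T
        = (g (insert q T) - φ T) + (g (insert p T) - φ T)
            + α₃ * ∑ z ∈ T, (g (insert p (insert q (T.erase z))) - φ T)
            + α₄ * ∑ z ∈ D \ T, (g (insert z T) - φ T) := by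
      rw [Finset.sum_sub_distrib, Finset.sum_sub_distrib, Finset.sum_const, Finset.sum_const,
        nsmul_eq_mul, nsmul_eq_mul, cardT T hT, cardDT T hT, hκ]
      ring
    rw [e]
    have b3 : |∑ z ∈ T, (g (insert p (insert q (T.erase z))) - φ T)| ≤ s * cst := by
      refine (Finset.abs_sum_le_sum_abs _ _).trans ?_
      refine (Finset.sum_le_sum (fun z hz => h3 T hT z hz)).trans ?_
      rw [Finset.sum_const, nsmul_eq_mul, cardT T hT]
    have b4 : |∑ z ∈ D \ T, (g (insert z T) - φ T)| ≤ ((D.card : ℝ) - s) * cst := by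
      refine (Finset.abs_sum_le_sum_abs _ _).trans ?_
      refine (Finset.sum_le_sum (fun z hz => h4 T hT z hz)).trans ?_
      rw [Finset.sum_const, nsmul_eq_mul, cardDT T hT]
    have t3 : |α₃ * ∑ z ∈ T, (g (insert p (insert q (T.erase z))) - φ T)|
        ≤ α₃ * (s * cst) := by
      rw [abs_mul, abs_of_nonneg hα₃0]
      exact mul_le_mul_of_nonneg_left b3 hα₃0
    have t4 : |α₄ * ∑ z ∈ D \ T, (g (insert z T) - φ T)|
        ≤ α₄ * (((D.card : ℝ) - s) * cst) := by
      rw [abs_mul, abs_of_nonneg hα₄0]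
      exact mul_le_mul_of_nonneg_left b4 hα₄0
    have := h1 T hT
    have := h2 T hT
    calc |(g (insert q T) - φ T) + (g (insert p T) - φ T)
            + α₃ * ∑ z ∈ T, (g (insert p (insert q (T.erase z))) - φ T)
            + α₄ * ∑ z ∈ D \ T, (g (insert z T) - φ T)|
        ≤ |g (insert q T) - φ T| + |g (insert p T) - φ T|
            + |α₃ * ∑ z ∈ T, (g (insert p (insert q (T.erase z))) - φ T)|
            + |α₄ * ∑ z ∈ D \ T, (g (insert z T) - φ T)| := by
          refine (abs_add_le _ _).trans ?_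
          refine add_le_add_left ?_ _
          refine (abs_add_le _ _).trans ?_
          refine add_le_add_left ?_ _
          exact abs_add_le _ _
      _ ≤ cst + cst + α₃ * (s * cst) + α₄ * (((D.card : ℝ) - s) * cst) := by linarith
      _ = κ * cst := by rw [hκ]; ring
  have e2 : (∑ T ∈ A, φ T) / (A.card : ℝ) - (∑ T' ∈ B, g T') / (B.card : ℝ)
      = - (∑ T ∈ A, ((g (insert q T) + g (insert p T)
            + α₃ * ∑ z ∈ T, g (insert p (insert q (T.erase z)))
            + α₄ * ∑ z ∈ D \ T, g (insert z T)) - κ * φ T)) / (κ * A.card) := by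
    rw [Finset.sum_sub_distrib, ← Finset.mul_sum, hBcard, hBsum]
    have hA0 : (A.card : ℝ) ≠ 0 := ne_of_gt hApos
    have hκ0' : κ ≠ 0 := ne_of_gt hκ0
    field_simp
    ring
  rw [e2, abs_div, abs_neg, abs_of_pos (mul_pos hκ0 hApos), div_le_iff₀ (mul_pos hκ0 hApos)]
  refine (Finset.abs_sum_le_sum_abs _ _).trans ?_
  refine (Finset.sum_le_sum key).trans ?_
  rw [Finset.sum_const, nsmul_eq_mul]
  exact le_of_eq (by ring)

end finsum

variable {R C : Type} [Fintype R] [DecidableEq R] [Fintype C] [DecidableEq C]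
variable {r : R → ℕ} {c : C → ℕ}

theorem mem_swRow (x : R → Finset C) (i i' : R) (j j' : C) (k : R) (l : C) :
    l ∈ swRow x i i' j j' k ↔
      if k = i' then (l = j ∨ (l ≠ j' ∧ l ∈ x i'))
      else if k = i then (l = j' ∨ (l ≠ j ∧ l ∈ x i)) else l ∈ x k := by
  unfold swRow
  by_cases h1 : k = i'
  · subst h1; simp
  · by_cases h2 : k = i
    · subst h2; simp [h1]
    · simp [h1, h2]

/-- Column counts of two tables that agree outside the rows `j`, `k`. -/
theorem colCount_eq_iff (x y : R → Finset C) (j k : R) (hjk : j ≠ k)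
    (h : AgreeOff {j, k} x y) (l : C) :
    (univ.filter (fun i => l ∈ y i)).card = (univ.filter (fun i => l ∈ x i)).card ↔
      (if l ∈ y j then 1 else 0) + (if l ∈ y k then 1 else 0)
        = (if l ∈ x j then 1 else 0) + (if l ∈ x k then (1 : ℕ) else 0) := by
  have key : ∀ z : R → Finset C, (univ.filter (fun i => l ∈ z i)).card
      = ((univ \ {j, k}).filter (fun i => l ∈ z i)).card
        + ((if l ∈ z j then 1 else 0) + (if l ∈ z k then 1 else 0)) := by
    intro z
    rw [Finset.card_filter, Finset.card_filter, ← Finset.sum_sdiff (subset_univ {j, k}),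
      Finset.sum_pair hjk]
  have e : (univ \ {j, k}).filter (fun i => l ∈ y i) = (univ \ {j, k}).filter (fun i => l ∈ x i) := by
    refine Finset.filter_congr (fun i hi => ?_)
    rw [h i (by simpa using hi)]
  rw [key x, key y, e]
  omega

theorem isTable_swRow {x : R → Finset C} (hx : IsTable r c x) {i i' : R} {j j' : C}
    (h : SwOK x i i' j j') : IsTable r c (swRow x i i' j j') := by
  obtain ⟨hii, hjj, h1, h2, h3, h4⟩ := h
  refine ⟨fun k => ?_, fun l => ?_⟩
  · rw [← hx.1 k]
    unfold swRow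
    by_cases hk1 : k = i'
    · subst hk1
      rw [Function.update_self, card_insert_of_notMem (fun hh => h3 (mem_of_mem_erase hh)),
        card_erase_of_mem h4]
      have := card_pos.mpr ⟨j', h4⟩
      omega
    · by_cases hk2 : k = i
      · subst hk2
        rw [Function.update_of_ne hk1, Function.update_self,
          card_insert_of_notMem (fun hh => h2 (mem_of_mem_erase hh)), card_erase_of_mem h1]
        have := card_pos.mpr ⟨j, h1⟩
        omega
      · rw [Function.update_of_ne hk1, Function.update_of_ne hk2]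
  · rw [← hx.2 l]
    have hag : AgreeOff {i, i'} x (swRow x i i' j j') := by
      intro k hk
      simp only [mem_insert, mem_singleton, not_or] at hk
      ext l'
      simp [mem_swRow, hk.1, hk.2]
    rw [colCount_eq_iff x _ i i' hii hag l]
    simp only [mem_swRow, if_true, if_neg hii]
    by_cases hl1 : l = j
    · subst hl1; simp [h1, h3, hjj]
    · by_cases hl2 : l = j'
      · subst hl2; simp [h2, h4, hl1]
      · simp [hl1, hl2]

/-- The columns held by exactly one of the rows `j`, `k`. -/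
def dset (x : R → Finset C) (j k : R) : Finset C := (x j \ x k) ∪ (x k \ x j)

theorem mem_dset (x : R → Finset C) (j k : R) (l : C) :
    l ∈ dset x j k ↔ (l ∈ x j ∧ l ∉ x k) ∨ (l ∈ x k ∧ l ∉ x j) := by
  simp [dset]

/-- Re-split the rows `j`, `k`: the common columns stay, row `j` gets the part `T` of the
private columns and row `k` the rest. -/
def resplit (x : R → Finset C) (j k : R) (T : Finset C) : R → Finset C :=
  Function.update (Function.update x j ((x j ∩ x k) ∪ T)) k ((x j ∩ x k) ∪ (dset x j k \ T))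

theorem mem_resplit (x : R → Finset C) (j k : R) (T : Finset C) (i : R) (l : C) :
    l ∈ resplit x j k T i ↔
      if i = k then
        ((l ∈ x j ∧ l ∈ x k) ∨ (((l ∈ x j ∧ l ∉ x k) ∨ (l ∈ x k ∧ l ∉ x j)) ∧ l ∉ T))
      else if i = j then ((l ∈ x j ∧ l ∈ x k) ∨ l ∈ T) else l ∈ x i := by
  unfold resplit
  by_cases h1 : i = k
  · subst h1; simp [mem_dset]
  · by_cases h2 : i = j
    · subst h2; simp [h1]
    · simp [h1, h2]

theorem agreeOff_resplit (x : R → Finset C) (j k : R) (T : Finset C) :
    AgreeOff {j, k} x (resplit x j k T) := by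
  intro i hi
  simp only [mem_insert, mem_singleton, not_or] at hi
  ext l
  simp [mem_resplit, hi.1, hi.2]

theorem isTable_resplit {x : R → Finset C} (hx : IsTable r c x) {j k : R} (hjk : j ≠ k)
    {T : Finset C} (hT : T ⊆ dset x j k) (hTc : T.card = (x j \ x k).card) :
    IsTable r c (resplit x j k T) := by
  have hdis1 : Disjoint (x j ∩ x k) T := by
    rw [Finset.disjoint_left]
    intro l hl hlT
    have := (mem_dset x j k l).mp (hT hlT)
    simp only [mem_inter] at hl
    tauto
  have hdis2 : Disjoint (x j ∩ x k) (dset x j k \ T) := by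
    rw [Finset.disjoint_left]
    intro l hl hlT
    have := (mem_dset x j k l).mp (mem_sdiff.mp hlT).1
    simp only [mem_inter] at hl
    tauto
  have hdcard : (dset x j k).card = (x j \ x k).card + (x k \ x j).card := by
    unfold dset
    rw [card_union_of_disjoint]
    rw [Finset.disjoint_left]
    intro l hl hl'
    simp only [mem_sdiff] at hl hl'
    tauto
  refine ⟨fun i => ?_, fun l => ?_⟩
  · rw [← hx.1 i]
    unfold resplit
    by_cases h1 : i = k
    · subst h1
      rw [Function.update_self, card_union_of_disjoint hdis2, card_sdiff_of_subset hT, hdcard, hTc]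
      have e1 := card_sdiff_add_card_inter (x i) (x j)
      rw [inter_comm] at e1
      omega
    · by_cases h2 : i = j
      · subst h2
        rw [Function.update_of_ne h1, Function.update_self, card_union_of_disjoint hdis1, hTc]
        have e1 := card_sdiff_add_card_inter (x i) (x k)
        omega
      · rw [Function.update_of_ne h1, Function.update_of_ne h2]
  · rw [← hx.2 l, colCount_eq_iff x _ j k hjk (agreeOff_resplit x j k T) l]
    have hTl := fun h => (mem_dset x j k l).mp (hT h)
    simp only [mem_resplit, if_true, if_neg hjk]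
    by_cases h1 : l ∈ x j <;> by_cases h2 : l ∈ x k <;> by_cases h3 : l ∈ T <;>
      simp [h1, h2, h3] <;> tauto

/-- Two tables with the same margins that agree outside the rows `j`, `k`. -/
theorem pair_cond {x y : R → Finset C} (hx : IsTable r c x) (hy : IsTable r c y) {j k : R}
    (hjk : j ≠ k) (h : AgreeOff {j, k} x y) (l : C) :
    (if l ∈ y j then 1 else 0) + (if l ∈ y k then 1 else 0)
        = (if l ∈ x j then 1 else 0) + (if l ∈ x k then (1 : ℕ) else 0) := by
  rw [← colCount_eq_iff x y j k hjk h l, hx.2 l, hy.2 l]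

theorem eq_resplit {x y : R → Finset C} (hx : IsTable r c x) (hy : IsTable r c y) {j k : R}
    (hjk : j ≠ k) (h : AgreeOff {j, k} x y) : y = resplit x j k (y j \ y k) := by
  funext i
  ext l
  have hp := pair_cond hx hy hjk h l
  rw [mem_resplit]
  by_cases h1 : i = k
  · subst h1
    simp only [if_true, mem_sdiff]
    by_cases a1 : l ∈ x j <;> by_cases a2 : l ∈ x i <;> by_cases a3 : l ∈ y j <;>
      by_cases a4 : l ∈ y i <;> simp [a1, a2, a3, a4] at hp ⊢
  · by_cases h2 : i = j
    · subst h2
      simp only [if_neg h1, if_true, mem_sdiff]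
      by_cases a1 : l ∈ x i <;> by_cases a2 : l ∈ x k <;> by_cases a3 : l ∈ y i <;>
        by_cases a4 : l ∈ y k <;> simp [a1, a2, a3, a4] at hp ⊢
    · simp only [if_neg h1, if_neg h2]
      rw [h i (by simp [h1, h2])]

theorem sdiff_subset_dset {x y : R → Finset C} (hx : IsTable r c x) (hy : IsTable r c y)
    {j k : R} (hjk : j ≠ k) (h : AgreeOff {j, k} x y) : y j \ y k ⊆ dset x j k := by
  intro l hl
  have hp := pair_cond hx hy hjk h l
  rw [mem_dset]
  simp only [mem_sdiff] at hl
  by_cases a1 : l ∈ x j <;> by_cases a2 : l ∈ x k <;> simp [a1, a2, hl.1, hl.2] at hp ⊢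

theorem card_sdiff_eq {x y : R → Finset C} (hx : IsTable r c x) (hy : IsTable r c y)
    {j k : R} (hjk : j ≠ k) (h : AgreeOff {j, k} x y) :
    (y j \ y k).card = (x j \ x k).card := by
  have e : y j ∩ y k = x j ∩ x k := by
    ext l
    have hp := pair_cond hx hy hjk h l
    simp only [mem_inter]
    by_cases a1 : l ∈ x j <;> by_cases a2 : l ∈ x k <;> by_cases a3 : l ∈ y j <;>
      by_cases a4 : l ∈ y k <;> simp [a1, a2, a3, a4] at hp ⊢
  have e1 := card_sdiff_add_card_inter (y j) (y k)
  have e2 := card_sdiff_add_card_inter (x j) (x k)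
  rw [e, hy.1 j] at e1
  rw [hx.1 j] at e2
  omega

theorem resplit_sdiff (x : R → Finset C) {j k : R} (hjk : j ≠ k) {T : Finset C}
    (hT : T ⊆ dset x j k) : resplit x j k T j \ resplit x j k T k = T := by
  ext l
  have hTl := fun h => (mem_dset x j k l).mp (hT h)
  simp only [mem_sdiff, mem_resplit, if_true, if_neg hjk]
  by_cases h1 : l ∈ x j <;> by_cases h2 : l ∈ x k <;> by_cases h3 : l ∈ T <;>
    simp [h1, h2, h3] <;> tauto

/-- Parametrisation of a pair class by the subsets of the private columns. -/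
theorem cls_sum (x : Tab r c) {j k : R} (hjk : j ≠ k) (F : (R → Finset C) → ℝ) :
    ∑ y ∈ cls {j, k} x, F y.1
      = ∑ T ∈ (dset x.1 j k).powersetCard (x.1 j \ x.1 k).card, F (resplit x.1 j k T) := by
  refine Finset.sum_bij' (fun y _ => y.1 j \ y.1 k)
    (fun T hT => ⟨resplit x.1 j k T, isTable_resplit x.2 hjk (mem_powersetCard.mp hT).1
      (mem_powersetCard.mp hT).2⟩) ?_ ?_ ?_ ?_ ?_
  · intro y hy
    have hy' : AgreeOff {j, k} x.1 y.1 := by simpa [cls] using hy
    exact mem_powersetCard.mpr ⟨sdiff_subset_dset x.2 y.2 hjk hy', card_sdiff_eq x.2 y.2 hjk hy'⟩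
  · intro T hT
    simp only [cls, mem_filter, mem_univ, true_and]
    exact agreeOff_resplit x.1 j k T
  · intro y hy
    have hy' : AgreeOff {j, k} x.1 y.1 := by simpa [cls] using hy
    exact Subtype.ext (eq_resplit x.2 y.2 hjk hy').symm
  · intro T hT
    exact resplit_sdiff x.1 hjk (mem_powersetCard.mp hT).1
  · intro y hy
    have hy' : AgreeOff {j, k} x.1 y.1 := by simpa [cls] using hy
    rw [← eq_resplit x.2 y.2 hjk hy']



theorem route1_eq (x0 : R → Finset C) (a b e : R) (hab : a ≠ b) (hae : a ≠ e) (hbe : b ≠ e)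
    (p q : C) (hsw : SwOK x0 a b p q) (hpe : p ∉ x0 e) (hqe : q ∈ x0 e) (T : Finset C)
    (hT : T ⊆ dset x0 b e) :
    resplit (swRow x0 a b p q) b e (insert q T) = swRow (resplit x0 b e T) a e p q := by
  obtain ⟨_, hpq, hpa, hqa, hpb, hqb⟩ := hsw
  have hpT : p ∉ T := fun h => by have := (mem_dset x0 b e p).mp (hT h); tauto
  have hqT : q ∉ T := fun h => by have := (mem_dset x0 b e q).mp (hT h); tauto
  have hqp : q ≠ p := Ne.symm hpq
  funext i
  ext l
  have hTl := fun h => (mem_dset x0 b e l).mp (hT h)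
  simp only [mem_resplit, mem_swRow, mem_insert, mem_erase]
  by_cases hi1 : i = e
  · subst hi1
    simp [hae, hbe, hab, Ne.symm hae, Ne.symm hbe, Ne.symm hab]
    all_goals (
      by_cases hlp : l = p
      · subst hlp; simp_all <;> tauto
      · by_cases hlq : l = q
        · subst hlq; simp_all <;> tauto
        · simp [hlp, hlq] <;> tauto)
  · by_cases hi2 : i = b
    · subst hi2
      simp [hae, hbe, hab, Ne.symm hae, Ne.symm hbe, Ne.symm hab, hi1]
      all_goals (
        by_cases hlp : l = p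
        · subst hlp; simp_all <;> tauto
        · by_cases hlq : l = q
          · subst hlq; simp_all <;> tauto
          · simp [hlp, hlq] <;> tauto)
    · by_cases hi3 : i = a
      · subst hi3
        simp [hae, hbe, hab, Ne.symm hae, Ne.symm hbe, Ne.symm hab, hi1, hi2]
        all_goals (
          by_cases hlp : l = p
          · subst hlp; simp_all <;> tauto
          · by_cases hlq : l = q
            · subst hlq; simp_all <;> tauto
            · simp [hlp, hlq] <;> tauto)
      · simp [hi1, hi2, hi3]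

theorem route1_ok (x0 : R → Finset C) (a b e : R) (hab : a ≠ b) (hae : a ≠ e) (hbe : b ≠ e)
    (p q : C) (hsw : SwOK x0 a b p q) (hpe : p ∉ x0 e) (hqe : q ∈ x0 e) (T : Finset C)
    (hT : T ⊆ dset x0 b e) :
    SwOK (resplit x0 b e T) a e p q ∧ ¬ SameType (resplit x0 b e T) b p q := by
  obtain ⟨_, hpq, hpa, hqa, hpb, hqb⟩ := hsw
  have hpT : p ∉ T := fun h => by have := (mem_dset x0 b e p).mp (hT h); tauto
  have hqT : q ∉ T := fun h => by have := (mem_dset x0 b e q).mp (hT h); tauto
  have hqp : q ≠ p := Ne.symm hpq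
  unfold SwOK SameType
  simp only [mem_resplit, mem_swRow, mem_insert, mem_erase]
  simp [hae, hbe, hab, Ne.symm hae, Ne.symm hbe, Ne.symm hab]
  all_goals tauto

theorem route2_eq (x0 : R → Finset C) (a b e : R) (hab : a ≠ b) (hae : a ≠ e) (hbe : b ≠ e)
    (p q : C) (hsw : SwOK x0 a b p q) (hpe : p ∉ x0 e) (hqe : q ∈ x0 e) (T : Finset C)
    (hT : T ⊆ dset x0 b e) :
    resplit (swRow x0 a b p q) b e (insert p T) = swRow (resplit x0 b e T) a b p q := by
  obtain ⟨_, hpq, hpa, hqa, hpb, hqb⟩ := hsw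
  have hpT : p ∉ T := fun h => by have := (mem_dset x0 b e p).mp (hT h); tauto
  have hqT : q ∉ T := fun h => by have := (mem_dset x0 b e q).mp (hT h); tauto
  have hqp : q ≠ p := Ne.symm hpq
  funext i
  ext l
  have hTl := fun h => (mem_dset x0 b e l).mp (hT h)
  simp only [mem_resplit, mem_swRow, mem_insert, mem_erase]
  by_cases hi1 : i = e
  · subst hi1
    simp [hae, hbe, hab, Ne.symm hae, Ne.symm hbe, Ne.symm hab]
    all_goals (
      by_cases hlp : l = p
      · subst hlp; simp_all <;> tauto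
      · by_cases hlq : l = q
        · subst hlq; simp_all <;> tauto
        · simp [hlp, hlq] <;> tauto)
  · by_cases hi2 : i = b
    · subst hi2
      simp [hae, hbe, hab, Ne.symm hae, Ne.symm hbe, Ne.symm hab, hi1]
      all_goals (
        by_cases hlp : l = p
        · subst hlp; simp_all <;> tauto
        · by_cases hlq : l = q
          · subst hlq; simp_all <;> tauto
          · simp [hlp, hlq] <;> tauto)
    · by_cases hi3 : i = a
      · subst hi3
        simp [hae, hbe, hab, Ne.symm hae, Ne.symm hbe, Ne.symm hab, hi1, hi2]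
        all_goals (
          by_cases hlp : l = p
          · subst hlp; simp_all <;> tauto
          · by_cases hlq : l = q
            · subst hlq; simp_all <;> tauto
            · simp [hlp, hlq] <;> tauto)
      · simp [hi1, hi2, hi3]

theorem route2_ok (x0 : R → Finset C) (a b e : R) (hab : a ≠ b) (hae : a ≠ e) (hbe : b ≠ e)
    (p q : C) (hsw : SwOK x0 a b p q) (hpe : p ∉ x0 e) (hqe : q ∈ x0 e) (T : Finset C)
    (hT : T ⊆ dset x0 b e) :
    SwOK (resplit x0 b e T) a b p q ∧ ¬ SameType (resplit x0 b e T) e p q := by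
  obtain ⟨_, hpq, hpa, hqa, hpb, hqb⟩ := hsw
  have hpT : p ∉ T := fun h => by have := (mem_dset x0 b e p).mp (hT h); tauto
  have hqT : q ∉ T := fun h => by have := (mem_dset x0 b e q).mp (hT h); tauto
  have hqp : q ≠ p := Ne.symm hpq
  unfold SwOK SameType
  simp only [mem_resplit, mem_swRow, mem_insert, mem_erase]
  simp [hae, hbe, hab, Ne.symm hae, Ne.symm hbe, Ne.symm hab]
  all_goals tauto

theorem route3a_eq (x0 : R → Finset C) (a b e : R) (hab : a ≠ b) (hae : a ≠ e) (hbe : b ≠ e)
    (p q : C) (hsw : SwOK x0 a b p q) (hpe : p ∉ x0 e) (hqe : q ∈ x0 e) (T : Finset C)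
    (hT : T ⊆ dset x0 b e) (z : C) (hz : z ∈ T) (hza : z ∈ x0 a) :
    resplit (swRow x0 a b p q) b e (insert p (insert q (T.erase z)))
      = swRow (swRow (resplit x0 b e T) a b p q) b e z q := by
  obtain ⟨_, hpq, hpa, hqa, hpb, hqb⟩ := hsw
  have hpT : p ∉ T := fun h => by have := (mem_dset x0 b e p).mp (hT h); tauto
  have hqT : q ∉ T := fun h => by have := (mem_dset x0 b e q).mp (hT h); tauto
  have hqp : q ≠ p := Ne.symm hpq
  have hzD := (mem_dset x0 b e z).mp (hT hz)
  have hzp : z ≠ p := by rintro rfl; tauto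
  have hzq : z ≠ q := by rintro rfl; tauto
  have hpz : p ≠ z := Ne.symm hzp
  have hqz : q ≠ z := Ne.symm hzq
  funext i
  ext l
  have hTl := fun h => (mem_dset x0 b e l).mp (hT h)
  simp only [mem_resplit, mem_swRow, mem_insert, mem_erase]
  by_cases hi1 : i = e
  · subst hi1
    simp [hae, hbe, hab, Ne.symm hae, Ne.symm hbe, Ne.symm hab]
    all_goals (
      by_cases hlp : l = p
      · subst hlp; simp_all <;> tauto
      · by_cases hlq : l = q
        · subst hlq; simp_all <;> tauto
        · by_cases hlz : l = z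
          · subst hlz; simp_all <;> tauto
          · simp [hlp, hlq, hlz] <;> tauto)
  · by_cases hi2 : i = b
    · subst hi2
      simp [hae, hbe, hab, Ne.symm hae, Ne.symm hbe, Ne.symm hab, hi1]
      all_goals (
        by_cases hlp : l = p
        · subst hlp; simp_all <;> tauto
        · by_cases hlq : l = q
          · subst hlq; simp_all <;> tauto
          · by_cases hlz : l = z
            · subst hlz; simp_all <;> tauto
            · simp [hlp, hlq, hlz] <;> tauto)
    · by_cases hi3 : i = a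
      · subst hi3
        simp [hae, hbe, hab, Ne.symm hae, Ne.symm hbe, Ne.symm hab, hi1, hi2]
        all_goals (
          by_cases hlp : l = p
          · subst hlp; simp_all <;> tauto
          · by_cases hlq : l = q
            · subst hlq; simp_all <;> tauto
            · by_cases hlz : l = z
              · subst hlz; simp_all <;> tauto
              · simp [hlp, hlq, hlz] <;> tauto)
      · simp [hi1, hi2, hi3]

theorem route3a_ok (x0 : R → Finset C) (a b e : R) (hab : a ≠ b) (hae : a ≠ e) (hbe : b ≠ e)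
    (p q : C) (hsw : SwOK x0 a b p q) (hpe : p ∉ x0 e) (hqe : q ∈ x0 e) (T : Finset C)
    (hT : T ⊆ dset x0 b e) (z : C) (hz : z ∈ T) (hza : z ∈ x0 a) :
    SwOK (swRow (resplit x0 b e T) a b p q) b e z q ∧ SameType (swRow (resplit x0 b e T) a b p q) a z q := by
  obtain ⟨_, hpq, hpa, hqa, hpb, hqb⟩ := hsw
  have hpT : p ∉ T := fun h => by have := (mem_dset x0 b e p).mp (hT h); tauto
  have hqT : q ∉ T := fun h => by have := (mem_dset x0 b e q).mp (hT h); tauto
  have hqp : q ≠ p := Ne.symm hpq
  have hzD := (mem_dset x0 b e z).mp (hT hz)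
  have hzp : z ≠ p := by rintro rfl; tauto
  have hzq : z ≠ q := by rintro rfl; tauto
  have hpz : p ≠ z := Ne.symm hzp
  have hqz : q ≠ z := Ne.symm hzq
  unfold SwOK SameType
  simp only [mem_resplit, mem_swRow, mem_insert, mem_erase]
  simp [hae, hbe, hab, Ne.symm hae, Ne.symm hbe, Ne.symm hab]
  all_goals tauto

theorem route3b_eq (x0 : R → Finset C) (a b e : R) (hab : a ≠ b) (hae : a ≠ e) (hbe : b ≠ e)
    (p q : C) (hsw : SwOK x0 a b p q) (hpe : p ∉ x0 e) (hqe : q ∈ x0 e) (T : Finset C)
    (hT : T ⊆ dset x0 b e) (z : C) (hz : z ∈ T) (hza : z ∉ x0 a) :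
    resplit (swRow x0 a b p q) b e (insert p (insert q (T.erase z)))
      = swRow (swRow (resplit x0 b e T) a e p q) b e z p := by
  obtain ⟨_, hpq, hpa, hqa, hpb, hqb⟩ := hsw
  have hpT : p ∉ T := fun h => by have := (mem_dset x0 b e p).mp (hT h); tauto
  have hqT : q ∉ T := fun h => by have := (mem_dset x0 b e q).mp (hT h); tauto
  have hqp : q ≠ p := Ne.symm hpq
  have hzD := (mem_dset x0 b e z).mp (hT hz)
  have hzp : z ≠ p := by rintro rfl; tauto
  have hzq : z ≠ q := by rintro rfl; tauto
  have hpz : p ≠ z := Ne.symm hzp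
  have hqz : q ≠ z := Ne.symm hzq
  funext i
  ext l
  have hTl := fun h => (mem_dset x0 b e l).mp (hT h)
  simp only [mem_resplit, mem_swRow, mem_insert, mem_erase]
  by_cases hi1 : i = e
  · subst hi1
    simp [hae, hbe, hab, Ne.symm hae, Ne.symm hbe, Ne.symm hab]
    all_goals (
      by_cases hlp : l = p
      · subst hlp; simp_all <;> tauto
      · by_cases hlq : l = q
        · subst hlq; simp_all <;> tauto
        · by_cases hlz : l = z
          · subst hlz; simp_all <;> tauto
          · simp [hlp, hlq, hlz] <;> tauto)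
  · by_cases hi2 : i = b
    · subst hi2
      simp [hae, hbe, hab, Ne.symm hae, Ne.symm hbe, Ne.symm hab, hi1]
      all_goals (
        by_cases hlp : l = p
        · subst hlp; simp_all <;> tauto
        · by_cases hlq : l = q
          · subst hlq; simp_all <;> tauto
          · by_cases hlz : l = z
            · subst hlz; simp_all <;> tauto
            · simp [hlp, hlq, hlz] <;> tauto)
    · by_cases hi3 : i = a
      · subst hi3
        simp [hae, hbe, hab, Ne.symm hae, Ne.symm hbe, Ne.symm hab, hi1, hi2]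
        all_goals (
          by_cases hlp : l = p
          · subst hlp; simp_all <;> tauto
          · by_cases hlq : l = q
            · subst hlq; simp_all <;> tauto
            · by_cases hlz : l = z
              · subst hlz; simp_all <;> tauto
              · simp [hlp, hlq, hlz] <;> tauto)
      · simp [hi1, hi2, hi3]

theorem route3b_ok (x0 : R → Finset C) (a b e : R) (hab : a ≠ b) (hae : a ≠ e) (hbe : b ≠ e)
    (p q : C) (hsw : SwOK x0 a b p q) (hpe : p ∉ x0 e) (hqe : q ∈ x0 e) (T : Finset C)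
    (hT : T ⊆ dset x0 b e) (z : C) (hz : z ∈ T) (hza : z ∉ x0 a) :
    SwOK (swRow (resplit x0 b e T) a e p q) b e z p ∧ SameType (swRow (resplit x0 b e T) a e p q) a z p := by
  obtain ⟨_, hpq, hpa, hqa, hpb, hqb⟩ := hsw
  have hpT : p ∉ T := fun h => by have := (mem_dset x0 b e p).mp (hT h); tauto
  have hqT : q ∉ T := fun h => by have := (mem_dset x0 b e q).mp (hT h); tauto
  have hqp : q ≠ p := Ne.symm hpq
  have hzD := (mem_dset x0 b e z).mp (hT hz)
  have hzp : z ≠ p := by rintro rfl; tauto
  have hzq : z ≠ q := by rintro rfl; tauto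
  have hpz : p ≠ z := Ne.symm hzp
  have hqz : q ≠ z := Ne.symm hzq
  unfold SwOK SameType
  simp only [mem_resplit, mem_swRow, mem_insert, mem_erase]
  simp [hae, hbe, hab, Ne.symm hae, Ne.symm hbe, Ne.symm hab]
  all_goals tauto

theorem route4a_eq (x0 : R → Finset C) (a b e : R) (hab : a ≠ b) (hae : a ≠ e) (hbe : b ≠ e)
    (p q : C) (hsw : SwOK x0 a b p q) (hpe : p ∉ x0 e) (hqe : q ∈ x0 e) (T : Finset C)
    (hT : T ⊆ dset x0 b e) (z : C) (hzD' : z ∈ dset x0 b e) (hzT : z ∉ T) (hza : z ∉ x0 a) :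
    resplit (swRow x0 a b p q) b e (insert z T)
      = swRow (swRow (resplit x0 b e T) a b p q) b e p z := by
  obtain ⟨_, hpq, hpa, hqa, hpb, hqb⟩ := hsw
  have hpT : p ∉ T := fun h => by have := (mem_dset x0 b e p).mp (hT h); tauto
  have hqT : q ∉ T := fun h => by have := (mem_dset x0 b e q).mp (hT h); tauto
  have hqp : q ≠ p := Ne.symm hpq
  have hzD := (mem_dset x0 b e z).mp hzD'
  have hzp : z ≠ p := by rintro rfl; tauto
  have hzq : z ≠ q := by rintro rfl; tauto
  have hpz : p ≠ z := Ne.symm hzp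
  have hqz : q ≠ z := Ne.symm hzq
  funext i
  ext l
  have hTl := fun h => (mem_dset x0 b e l).mp (hT h)
  simp only [mem_resplit, mem_swRow, mem_insert, mem_erase]
  by_cases hi1 : i = e
  · subst hi1
    simp [hae, hbe, hab, Ne.symm hae, Ne.symm hbe, Ne.symm hab]
    all_goals (
      by_cases hlp : l = p
      · subst hlp; simp_all <;> tauto
      · by_cases hlq : l = q
        · subst hlq; simp_all <;> tauto
        · by_cases hlz : l = z
          · subst hlz; simp_all <;> tauto
          · simp [hlp, hlq, hlz] <;> tauto)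
  · by_cases hi2 : i = b
    · subst hi2
      simp [hae, hbe, hab, Ne.symm hae, Ne.symm hbe, Ne.symm hab, hi1]
      all_goals (
        by_cases hlp : l = p
        · subst hlp; simp_all <;> tauto
        · by_cases hlq : l = q
          · subst hlq; simp_all <;> tauto
          · by_cases hlz : l = z
            · subst hlz; simp_all <;> tauto
            · simp [hlp, hlq, hlz] <;> tauto)
    · by_cases hi3 : i = a
      · subst hi3
        simp [hae, hbe, hab, Ne.symm hae, Ne.symm hbe, Ne.symm hab, hi1, hi2]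
        all_goals (
          by_cases hlp : l = p
          · subst hlp; simp_all <;> tauto
          · by_cases hlq : l = q
            · subst hlq; simp_all <;> tauto
            · by_cases hlz : l = z
              · subst hlz; simp_all <;> tauto
              · simp [hlp, hlq, hlz] <;> tauto)
      · simp [hi1, hi2, hi3]

theorem route4a_ok (x0 : R → Finset C) (a b e : R) (hab : a ≠ b) (hae : a ≠ e) (hbe : b ≠ e)
    (p q : C) (hsw : SwOK x0 a b p q) (hpe : p ∉ x0 e) (hqe : q ∈ x0 e) (T : Finset C)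
    (hT : T ⊆ dset x0 b e) (z : C) (hzD' : z ∈ dset x0 b e) (hzT : z ∉ T) (hza : z ∉ x0 a) :
    SwOK (swRow (resplit x0 b e T) a b p q) b e p z ∧ SameType (swRow (resplit x0 b e T) a b p q) a p z := by
  obtain ⟨_, hpq, hpa, hqa, hpb, hqb⟩ := hsw
  have hpT : p ∉ T := fun h => by have := (mem_dset x0 b e p).mp (hT h); tauto
  have hqT : q ∉ T := fun h => by have := (mem_dset x0 b e q).mp (hT h); tauto
  have hqp : q ≠ p := Ne.symm hpq
  have hzD := (mem_dset x0 b e z).mp hzD'
  have hzp : z ≠ p := by rintro rfl; tauto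
  have hzq : z ≠ q := by rintro rfl; tauto
  have hpz : p ≠ z := Ne.symm hzp
  have hqz : q ≠ z := Ne.symm hzq
  unfold SwOK SameType
  simp only [mem_resplit, mem_swRow, mem_insert, mem_erase]
  simp [hae, hbe, hab, Ne.symm hae, Ne.symm hbe, Ne.symm hab]
  all_goals tauto

theorem route4b_eq (x0 : R → Finset C) (a b e : R) (hab : a ≠ b) (hae : a ≠ e) (hbe : b ≠ e)
    (p q : C) (hsw : SwOK x0 a b p q) (hpe : p ∉ x0 e) (hqe : q ∈ x0 e) (T : Finset C)
    (hT : T ⊆ dset x0 b e) (z : C) (hzD' : z ∈ dset x0 b e) (hzT : z ∉ T) (hza : z ∈ x0 a) :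
    resplit (swRow x0 a b p q) b e (insert z T)
      = swRow (swRow (resplit x0 b e T) a e p q) b e q z := by
  obtain ⟨_, hpq, hpa, hqa, hpb, hqb⟩ := hsw
  have hpT : p ∉ T := fun h => by have := (mem_dset x0 b e p).mp (hT h); tauto
  have hqT : q ∉ T := fun h => by have := (mem_dset x0 b e q).mp (hT h); tauto
  have hqp : q ≠ p := Ne.symm hpq
  have hzD := (mem_dset x0 b e z).mp hzD'
  have hzp : z ≠ p := by rintro rfl; tauto
  have hzq : z ≠ q := by rintro rfl; tauto
  have hpz : p ≠ z := Ne.symm hzp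
  have hqz : q ≠ z := Ne.symm hzq
  funext i
  ext l
  have hTl := fun h => (mem_dset x0 b e l).mp (hT h)
  simp only [mem_resplit, mem_swRow, mem_insert, mem_erase]
  by_cases hi1 : i = e
  · subst hi1
    simp [hae, hbe, hab, Ne.symm hae, Ne.symm hbe, Ne.symm hab]
    all_goals (
      by_cases hlp : l = p
      · subst hlp; simp_all <;> tauto
      · by_cases hlq : l = q
        · subst hlq; simp_all <;> tauto
        · by_cases hlz : l = z
          · subst hlz; simp_all <;> tauto
          · simp [hlp, hlq, hlz] <;> tauto)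
  · by_cases hi2 : i = b
    · subst hi2
      simp [hae, hbe, hab, Ne.symm hae, Ne.symm hbe, Ne.symm hab, hi1]
      all_goals (
        by_cases hlp : l = p
        · subst hlp; simp_all <;> tauto
        · by_cases hlq : l = q
          · subst hlq; simp_all <;> tauto
          · by_cases hlz : l = z
            · subst hlz; simp_all <;> tauto
            · simp [hlp, hlq, hlz] <;> tauto)
    · by_cases hi3 : i = a
      · subst hi3
        simp [hae, hbe, hab, Ne.symm hae, Ne.symm hbe, Ne.symm hab, hi1, hi2]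
        all_goals (
          by_cases hlp : l = p
          · subst hlp; simp_all <;> tauto
          · by_cases hlq : l = q
            · subst hlq; simp_all <;> tauto
            · by_cases hlz : l = z
              · subst hlz; simp_all <;> tauto
              · simp [hlp, hlq, hlz] <;> tauto)
      · simp [hi1, hi2, hi3]

theorem route4b_ok (x0 : R → Finset C) (a b e : R) (hab : a ≠ b) (hae : a ≠ e) (hbe : b ≠ e)
    (p q : C) (hsw : SwOK x0 a b p q) (hpe : p ∉ x0 e) (hqe : q ∈ x0 e) (T : Finset C)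
    (hT : T ⊆ dset x0 b e) (z : C) (hzD' : z ∈ dset x0 b e) (hzT : z ∉ T) (hza : z ∈ x0 a) :
    SwOK (swRow (resplit x0 b e T) a e p q) b e q z ∧ SameType (swRow (resplit x0 b e T) a e p q) a q z := by
  obtain ⟨_, hpq, hpa, hqa, hpb, hqb⟩ := hsw
  have hpT : p ∉ T := fun h => by have := (mem_dset x0 b e p).mp (hT h); tauto
  have hqT : q ∉ T := fun h => by have := (mem_dset x0 b e q).mp (hT h); tauto
  have hqp : q ≠ p := Ne.symm hpq
  have hzD := (mem_dset x0 b e z).mp hzD'
  have hzp : z ≠ p := by rintro rfl; tauto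
  have hzq : z ≠ q := by rintro rfl; tauto
  have hpz : p ≠ z := Ne.symm hzp
  have hqz : q ≠ z := Ne.symm hzq
  unfold SwOK SameType
  simp only [mem_resplit, mem_swRow, mem_insert, mem_erase]
  simp [hae, hbe, hab, Ne.symm hae, Ne.symm hbe, Ne.symm hab]
  all_goals tauto


theorem dset_swRow (x0 : R → Finset C) (a b e : R) (hab : a ≠ b) (hae : a ≠ e) (hbe : b ≠ e)
    (p q : C) (hsw : SwOK x0 a b p q) (hpe : p ∉ x0 e) (hqe : q ∈ x0 e) :
    dset (swRow x0 a b p q) b e = insert p (insert q (dset x0 b e)) := by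
  obtain ⟨_, hpq, hpa, hqa, hpb, hqb⟩ := hsw
  have hqp : q ≠ p := Ne.symm hpq
  ext l
  simp only [mem_dset, mem_swRow, mem_insert]
  simp [hae, hbe, hab, Ne.symm hae, Ne.symm hbe, Ne.symm hab]
  all_goals (
    by_cases hlp : l = p
    · subst hlp; simp_all <;> tauto
    · by_cases hlq : l = q
      · subst hlq; simp_all <;> tauto
      · simp [hlp, hlq] <;> tauto)

theorem card_swRow_sdiff (x0 : R → Finset C) (a b e : R) (hab : a ≠ b) (hae : a ≠ e)
    (hbe : b ≠ e) (p q : C) (hsw : SwOK x0 a b p q) (hpe : p ∉ x0 e) (hqe : q ∈ x0 e) :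
    (swRow x0 a b p q b \ swRow x0 a b p q e).card = (x0 b \ x0 e).card + 1 := by
  obtain ⟨_, hpq, hpa, hqa, hpb, hqb⟩ := hsw
  have hqp : q ≠ p := Ne.symm hpq
  have e1 : swRow x0 a b p q b \ swRow x0 a b p q e = insert p (x0 b \ x0 e) := by
    ext l
    simp only [mem_sdiff, mem_swRow, mem_insert]
    simp [hae, hbe, hab, Ne.symm hae, Ne.symm hbe, Ne.symm hab]
    all_goals (
      by_cases hlp : l = p
      · subst hlp; simp_all <;> tauto
      · by_cases hlq : l = q
        · subst hlq; simp_all <;> tauto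
        · simp [hlp, hlq] <;> tauto)
  rw [e1, card_insert_of_notMem]
  simp [hpb]

theorem not_mem_dset_p (x0 : R → Finset C) (a b e : R) (p q : C) (hsw : SwOK x0 a b p q)
    (hpe : p ∉ x0 e) : p ∉ dset x0 b e := by
  obtain ⟨_, hpq, hpa, hqa, hpb, hqb⟩ := hsw
  rw [mem_dset]; tauto

theorem not_mem_dset_q (x0 : R → Finset C) (a b e : R) (p q : C) (hsw : SwOK x0 a b p q)
    (hqe : q ∈ x0 e) : q ∉ dset x0 b e := by
  obtain ⟨_, hpq, hpa, hqa, hpb, hqb⟩ := hsw
  rw [mem_dset]; tauto

/-- A pair average as an average over the subsets of the private columns. -/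
theorem avg_pair (x : Tab r c) {j k : R} (hjk : j ≠ k) (f : Tab r c → ℝ)
    (F : (R → Finset C) → ℝ) (hFf : ∀ u : Tab r c, F u.1 = f u) :
    avg {j, k} f x
      = (∑ T ∈ (dset x.1 j k).powersetCard (x.1 j \ x.1 k).card, F (resplit x.1 j k T))
        / (((dset x.1 j k).powersetCard (x.1 j \ x.1 k).card).card : ℝ) := by
  unfold avg
  have h1 := cls_sum x hjk F
  have h2 := cls_sum x hjk (fun _ => (1 : ℝ))
  simp only [Finset.sum_const, nsmul_eq_mul, mul_one] at h2
  rw [← h1, ← h2]
  congr 1
  exact Finset.sum_congr rfl (fun u _ => (hFf u).symm)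

/-- The cross-type step in the orientation `p ∉ x e`, `q ∈ x e`. -/
theorem cross_core (a b e : R) (hab : a ≠ b) (hae : a ≠ e) (hbe : b ≠ e) (p q : C)
    (x y : Tab r c) (hsw : SwOK x.1 a b p q) (hy : y.1 = swRow x.1 a b p q)
    (hpe : p ∉ x.1 e) (hqe : q ∈ x.1 e) (f : Tab r c → ℝ) (Ls Lc : ℝ) (hLs0 : 0 ≤ Ls)
    (hLs : ∀ u v : Tab r c, STAdj {a, b, e} u.1 v.1 → |f u - f v| ≤ Ls)
    (hLc : ∀ u v : Tab r c, CTAdj {a, b, e} u.1 v.1 → |f u - f v| ≤ Lc) :
    |avg {b, e} f x - avg {b, e} f y| ≤ Lc + Ls := by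
  set F : (R → Finset C) → ℝ := fun z => if h : IsTable r c z then f ⟨z, h⟩ else 0 with hF
  have hFf : ∀ u : Tab r c, F u.1 = f u := fun u => by simp [hF, u.2]
  have hLs' : ∀ u v : R → Finset C, IsTable r c u → IsTable r c v → STAdj {a, b, e} u v →
      |F u - F v| ≤ Ls := by
    intro u v hu hv h
    have := hLs ⟨u, hu⟩ ⟨v, hv⟩ h
    simpa [hF, hu, hv] using this
  have hLc' : ∀ u v : R → Finset C, IsTable r c u → IsTable r c v → CTAdj {a, b, e} u v →
      |F u - F v| ≤ Lc := by
    intro u v hu hv h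
    have := hLc ⟨u, hu⟩ ⟨v, hv⟩ h
    simpa [hF, hu, hv] using this
  have hpq : p ≠ q := hsw.2.1
  have ha3 : a ∈ ({a, b, e} : Finset R) := by simp
  have hb3 : b ∈ ({a, b, e} : Finset R) := by simp
  have he3 : e ∈ ({a, b, e} : Finset R) := by simp
  rw [avg_pair x hbe f F hFf, avg_pair y hbe f F hFf, hy,
    dset_swRow x.1 a b e hab hae hbe p q hsw hpe hqe,
    card_swRow_sdiff x.1 a b e hab hae hbe p q hsw hpe hqe]
  have hs : (x.1 b \ x.1 e).card ≤ (dset x.1 b e).card :=
    card_le_card (by unfold dset; exact subset_union_left)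
  refine avg_cmp (dset x.1 b e) p q (not_mem_dset_p x.1 a b e p q hsw hpe)
    (not_mem_dset_q x.1 a b e p q hsw hqe) hpq _ hs
    (fun T => F (resplit x.1 b e T)) (fun T' => F (resplit (swRow x.1 a b p q) b e T'))
    (Lc + Ls) ?_ ?_ ?_ ?_
  · intro T hT
    obtain ⟨hTD, hTc⟩ := mem_powersetCard.mp hT
    have hu : IsTable r c (resplit x.1 b e T) := isTable_resplit x.2 hbe hTD hTc
    obtain ⟨hok, hct⟩ := route1_ok x.1 a b e hab hae hbe p q hsw hpe hqe T hTD
    have hv := isTable_swRow hu hok
    have c1 := hLc' _ _ hu hv ⟨a, e, b, p, q, ha3, he3, hb3, hab, Ne.symm hbe, hok, hct, rfl⟩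
    beta_reduce
    rw [route1_eq x.1 a b e hab hae hbe p q hsw hpe hqe T hTD, abs_sub_comm]
    linarith
  · intro T hT
    obtain ⟨hTD, hTc⟩ := mem_powersetCard.mp hT
    have hu : IsTable r c (resplit x.1 b e T) := isTable_resplit x.2 hbe hTD hTc
    obtain ⟨hok, hct⟩ := route2_ok x.1 a b e hab hae hbe p q hsw hpe hqe T hTD
    have hv := isTable_swRow hu hok
    have c1 := hLc' _ _ hu hv ⟨a, b, e, p, q, ha3, hb3, he3, hae, hbe, hok, hct, rfl⟩
    beta_reduce
    rw [route2_eq x.1 a b e hab hae hbe p q hsw hpe hqe T hTD, abs_sub_comm]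
    linarith
  · intro T hT z hz
    obtain ⟨hTD, hTc⟩ := mem_powersetCard.mp hT
    have hu : IsTable r c (resplit x.1 b e T) := isTable_resplit x.2 hbe hTD hTc
    beta_reduce
    by_cases hza : z ∈ x.1 a
    · obtain ⟨hok, hct⟩ := route2_ok x.1 a b e hab hae hbe p q hsw hpe hqe T hTD
      have hv := isTable_swRow hu hok
      have c1 := hLc' _ _ hu hv ⟨a, b, e, p, q, ha3, hb3, he3, hae, hbe, hok, hct, rfl⟩
      obtain ⟨hok2, hst⟩ := route3a_ok x.1 a b e hab hae hbe p q hsw hpe hqe T hTD z hz hza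
      have hw := isTable_swRow hv hok2
      have c2 := hLs' _ _ hv hw
        ⟨b, e, a, z, q, hb3, he3, ha3, Ne.symm hab, Ne.symm hae, hok2, hst, rfl⟩
      rw [route3a_eq x.1 a b e hab hae hbe p q hsw hpe hqe T hTD z hz hza]
      rw [abs_le] at c1 c2 ⊢
      constructor <;> linarith [c1.1, c1.2, c2.1, c2.2]
    · obtain ⟨hok, hct⟩ := route1_ok x.1 a b e hab hae hbe p q hsw hpe hqe T hTD
      have hv := isTable_swRow hu hok
      have c1 := hLc' _ _ hu hv ⟨a, e, b, p, q, ha3, he3, hb3, hab, Ne.symm hbe, hok, hct, rfl⟩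
      obtain ⟨hok2, hst⟩ := route3b_ok x.1 a b e hab hae hbe p q hsw hpe hqe T hTD z hz hza
      have hw := isTable_swRow hv hok2
      have c2 := hLs' _ _ hv hw
        ⟨b, e, a, z, p, hb3, he3, ha3, Ne.symm hab, Ne.symm hae, hok2, hst, rfl⟩
      rw [route3b_eq x.1 a b e hab hae hbe p q hsw hpe hqe T hTD z hz hza]
      rw [abs_le] at c1 c2 ⊢
      constructor <;> linarith [c1.1, c1.2, c2.1, c2.2]
  · intro T hT z hz
    obtain ⟨hTD, hTc⟩ := mem_powersetCard.mp hT
    obtain ⟨hzD, hzT⟩ := mem_sdiff.mp hz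
    have hu : IsTable r c (resplit x.1 b e T) := isTable_resplit x.2 hbe hTD hTc
    beta_reduce
    by_cases hza : z ∈ x.1 a
    · obtain ⟨hok, hct⟩ := route1_ok x.1 a b e hab hae hbe p q hsw hpe hqe T hTD
      have hv := isTable_swRow hu hok
      have c1 := hLc' _ _ hu hv ⟨a, e, b, p, q, ha3, he3, hb3, hab, Ne.symm hbe, hok, hct, rfl⟩
      obtain ⟨hok2, hst⟩ :=
        route4b_ok x.1 a b e hab hae hbe p q hsw hpe hqe T hTD z hzD hzT hza
      have hw := isTable_swRow hv hok2
      have c2 := hLs' _ _ hv hw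
        ⟨b, e, a, q, z, hb3, he3, ha3, Ne.symm hab, Ne.symm hae, hok2, hst, rfl⟩
      rw [route4b_eq x.1 a b e hab hae hbe p q hsw hpe hqe T hTD z hzD hzT hza]
      rw [abs_le] at c1 c2 ⊢
      constructor <;> linarith [c1.1, c1.2, c2.1, c2.2]
    · obtain ⟨hok, hct⟩ := route2_ok x.1 a b e hab hae hbe p q hsw hpe hqe T hTD
      have hv := isTable_swRow hu hok
      have c1 := hLc' _ _ hu hv ⟨a, b, e, p, q, ha3, hb3, he3, hae, hbe, hok, hct, rfl⟩
      obtain ⟨hok2, hst⟩ :=
        route4a_ok x.1 a b e hab hae hbe p q hsw hpe hqe T hTD z hzD hzT hza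
      have hw := isTable_swRow hv hok2
      have c2 := hLs' _ _ hv hw
        ⟨b, e, a, p, z, hb3, he3, ha3, Ne.symm hab, Ne.symm hae, hok2, hst, rfl⟩
      rw [route4a_eq x.1 a b e hab hae hbe p q hsw hpe hqe T hTD z hzD hzT hza]
      rw [abs_le] at c1 c2 ⊢
      constructor <;> linarith [c1.1, c1.2, c2.1, c2.2]


theorem swRow_other (x : R → Finset C) (i i' : R) (j j' : C) (k : R) (h1 : k ≠ i)
    (h2 : k ≠ i') : swRow x i i' j j' k = x k := by
  ext l
  simp [mem_swRow, h1, h2]

theorem swOK_back {x : R → Finset C} {i i' : R} {j j' : C} (h : SwOK x i i' j j') :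
    SwOK (swRow x i i' j j') i i' j' j := by
  obtain ⟨hii, hjj, h1, h2, h3, h4⟩ := h
  unfold SwOK
  simp only [mem_swRow]
  simp [hii, hjj, Ne.symm hjj, h1, h2, h3, h4]

theorem swRow_back {x : R → Finset C} {i i' : R} {j j' : C} (h : SwOK x i i' j j') :
    swRow (swRow x i i' j j') i i' j' j = x := by
  obtain ⟨hii, hjj, h1, h2, h3, h4⟩ := h
  have hjj' : j' ≠ j := Ne.symm hjj
  funext k
  ext l
  simp only [mem_swRow]
  by_cases hk1 : k = i'
  · subst hk1
    simp [hii]
    all_goals (
      by_cases hl1 : l = j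
      · subst hl1; simp_all <;> tauto
      · by_cases hl2 : l = j'
        · subst hl2; simp_all <;> tauto
        · simp [hl1, hl2] <;> tauto)
  · by_cases hk2 : k = i
    · subst hk2
      simp [hk1]
      all_goals (
        by_cases hl1 : l = j
        · subst hl1; simp_all <;> tauto
        · by_cases hl2 : l = j'
          · subst hl2; simp_all <;> tauto
          · simp [hl1, hl2] <;> tauto)
    · simp [hk1, hk2]

end Vale.Agent.Lib.P335.Bip.Cross

namespace Vale.Agent.Lib.P335.Bip

open Finset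
open Classical

variable {R C : Type} [Fintype R] [DecidableEq R] [Fintype C] [DecidableEq C]
variable {r : R → ℕ} {c : C → ℕ}

/-- Module M7: the cross-type step of the three-row lemma. -/
theorem cross_type_step (a b e : R) (hab : a ≠ b) (hae : a ≠ e) (hbe : b ≠ e) (p q : C)
    (x y : Tab r c) (hsw : SwOK x.1 a b p q) (hy : y.1 = swRow x.1 a b p q)
    (hct : ¬ SameType x.1 e p q) (f : Tab r c → ℝ) (Ls Lc : ℝ) (hLs0 : 0 ≤ Ls)
    (hLs : ∀ u v : Tab r c, STAdj {a, b, e} u.1 v.1 → |f u - f v| ≤ Ls)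
    (hLc : ∀ u v : Tab r c, CTAdj {a, b, e} u.1 v.1 → |f u - f v| ≤ Lc) :
    |avg {b, e} f x - avg {b, e} f y| ≤ Lc + Ls := by
  unfold SameType at hct
  by_cases hpe : p ∈ x.1 e
  · have hqe : q ∉ x.1 e := fun h => hct ⟨fun _ => h, fun _ => hpe⟩
    have hye : y.1 e = x.1 e := by
      rw [hy]; exact Cross.swRow_other _ _ _ _ _ _ (Ne.symm hae) (Ne.symm hbe)
    have hsw' : SwOK y.1 a b q p := by rw [hy]; exact Cross.swOK_back hsw
    have hx : x.1 = swRow y.1 a b q p := by rw [hy]; exact (Cross.swRow_back hsw).symm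
    have key := Cross.cross_core a b e hab hae hbe q p y x hsw' hx (by rw [hye]; exact hqe)
      (by rw [hye]; exact hpe) f Ls Lc hLs0 hLs hLc
    rw [abs_sub_comm]
    exact key
  · have hqe : q ∈ x.1 e := by
      by_contra h
      exact hct ⟨fun h' => absurd h' hpe, fun h' => absurd h' h⟩
    exact Cross.cross_core a b e hab hae hbe p q x y hsw hy hpe hqe f Ls Lc hLs0 hLs hLc

end Vale.Agent.Lib.P335.Bip
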