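import Mathlib

/-!
# Tables: the bipartite model behind split degree sequences (problem P335)

Rows `R`, columns `C`. A state assigns to every row a finite set of columns; the row sizes
`r` and the column counts `c` are prescribed. A switch exchanges one column between two rows.
-/

namespace Vale.Agent.Lib.P335.Bip

open Finset
open Classical

variable {R C : Type} [Fintype R] [DecidableEq R] [Fintype C] [DecidableEq C]

/-- `x` has row sizes `r` and column counts `c`. -/
def IsTable (r : R → ℕ) (c : C → ℕ) (x : R → Finset C) : Prop :=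
  (∀ i, (x i).card = r i) ∧ ∀ j, (univ.filter (fun i => j ∈ x i)).card = c j

/-- The state space: all tables with margins `r`, `c`. -/
abbrev Tab (r : R → ℕ) (c : C → ℕ) : Type := {x : R → Finset C // IsTable r c x}

/-- Rows `i`, `i'` and columns `j`, `j'` form a switchable rectangle of `x`:
row `i` has `j` and not `j'`, row `i'` has `j'` and not `j`. -/
def SwOK (x : R → Finset C) (i i' : R) (j j' : C) : Prop :=
  i ≠ i' ∧ j ≠ j' ∧ j ∈ x i ∧ j' ∉ x i ∧ j ∉ x i' ∧ j' ∈ x i'

/-- The result of the switch: row `i` trades `j` for `j'`, row `i'` trades `j'` for `j`. -/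
def swRow (x : R → Finset C) (i i' : R) (j j' : C) : R → Finset C :=
  Function.update (Function.update x i (insert j' ((x i).erase j))) i'
    (insert j ((x i').erase j'))

/-- `y` arises from `x` by one switch whose two rows lie in `W`. -/
def AdjIn (W : Finset R) (x y : R → Finset C) : Prop :=
  ∃ i i' j j', i ∈ W ∧ i' ∈ W ∧ SwOK x i i' j j' ∧ y = swRow x i i' j j'

/-- `y` arises from `x` by one switch. -/
def Adj (x y : R → Finset C) : Prop := AdjIn univ x y

/-- `x` and `y` agree on every row outside `W`. -/
def AgreeOff (W : Finset R) (x y : R → Finset C) : Prop := ∀ i, i ∉ W → x i = y i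

/-- The class of `x`: all tables that agree with `x` outside the rows of `W`. -/
noncomputable def cls {r : R → ℕ} {c : C → ℕ} (W : Finset R) (x : Tab r c) : Finset (Tab r c) :=
  univ.filter (fun y : Tab r c => AgreeOff W x.1 y.1)

/-- Averaging over classes: the conditional expectation given all rows outside `W`. -/
noncomputable def avg {r : R → ℕ} {c : C → ℕ} (W : Finset R) (f : Tab r c → ℝ) : Tab r c → ℝ :=
  fun x => (∑ y ∈ cls W x, f y) / ((cls W x).card : ℝ)

/-- The counting inner product. -/
noncomputable def ip {α : Type} [Fintype α] (f g : α → ℝ) : ℝ := ∑ x, f x * g x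

/-- The switch energy of `f` over ordered pairs joined by a switch with rows in `W`. -/
noncomputable def energyIn {r : R → ℕ} {c : C → ℕ} (W : Finset R) (f : Tab r c → ℝ) : ℝ :=
  ∑ x : Tab r c, ∑ y : Tab r c, if AdjIn W x.1 y.1 then (f x - f y) ^ 2 else 0

/-- The third row `e` has equal entries at the columns `p`, `q`. -/
def SameType (x : R → Finset C) (e : R) (p q : C) : Prop := (p ∈ x e ↔ q ∈ x e)

/-- A switch inside `T` whose third row `e` in `T` has equal entries at the two columns. -/
def STAdj (T : Finset R) (x y : R → Finset C) : Prop :=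
  ∃ a b e p q, a ∈ T ∧ b ∈ T ∧ e ∈ T ∧ a ≠ e ∧ b ≠ e ∧ SwOK x a b p q ∧ SameType x e p q ∧
    y = swRow x a b p q

/-- A switch inside `T` whose third row `e` in `T` has different entries at the two columns. -/
def CTAdj (T : Finset R) (x y : R → Finset C) : Prop :=
  ∃ a b e p q, a ∈ T ∧ b ∈ T ∧ e ∈ T ∧ a ≠ e ∧ b ≠ e ∧ SwOK x a b p q ∧ ¬ SameType x e p q ∧
    y = swRow x a b p q

/-- The sum of the three pair averages of a triple of rows. -/
noncomputable def S3 {r : R → ℕ} {c : C → ℕ} (i j k : R) (f : Tab r c → ℝ) : Tab r c → ℝ :=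
  fun x => avg {j, k} f x + avg {i, k} f x + avg {i, j} f x

end Vale.Agent.Lib.P335.Bip
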