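import Vale.Agent.Lib.P335.H15.ThreeRow

/-!
# Module M8: the three-row inequality, the pair gap and the Poincare inequality for tables

Statements in the shapes of the development plan; the proofs are in
`Vale.Agent.Lib.P335.H15.ThreeRow` and `Vale.Agent.Lib.P335.H15.RowGap`.
-/

namespace Vale.Agent.Lib.P335.Bip

open Finset
open Classical

variable {R C : Type} [Fintype R] [DecidableEq R] [Fintype C] [DecidableEq C]
variable {r : R → ℕ} {c : C → ℕ}

/-- The three-row inequality. -/
theorem three_row (i j k : R) (hij : i ≠ j) (hik : i ≠ k) (hjk : j ≠ k) (f : Tab r c → ℝ)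
    (hf : avg {i, j, k} f = 0) : ip f (S3 i j k f) ≤ 2 * ip f f :=
  H15.three_row i j k hij hik hjk f hf

/-- The pair gap: the sum over all row pairs of the pair-averaging defects dominates the
squared norm of a function with zero sum. -/
theorem pair_gap (f : Tab r c → ℝ) (hf : ∑ x, f x = 0) :
    ip f f ≤ ∑ b ∈ (univ : Finset R).powersetCard 2, (ip f f - ip f (avg b f)) :=
  H15.pair_gap_of (fun W W' h g => avg_comm W W' h g)
    (fun i j k hij hik hjk g hg => three_row i j k hij hik hjk g hg)
    (fun x y => conn univ x y (fun i hi => absurd (Finset.mem_univ i) hi)) f hf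

/-- The Poincare inequality of the switch graph of tables: spectral gap at least `2` for the
unit-weight switch Laplacian (the energy counts ordered pairs). -/
theorem bip_poincare (f : Tab r c → ℝ) (hf : ∑ x, f x = 0) :
    4 * ip f f ≤ energyIn univ f :=
  H15.bip_poincare f hf

end Vale.Agent.Lib.P335.Bip
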