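import Vale.Agent.Lib.P335.Bip.ColSwapFacts
import Vale.Agent.Lib.P335.H14.Avg

/-!
# The pair-level inequality (J2) in the table model, by a maximum principle

For two rows `i ≠ k` let `W = {i, k}` and let `τ a b = Johnson.colSwapTab W a b` be the
exchange of the columns `a`, `b` in these rows.  For an ordered pair of distinct columns
`a, b` let `mavg W a b g` be zero at the tables fixed by `τ a b` and, at a moved table `x`,
the mean of `g` over the moved tables of the class of `x`.  The inequality (J2) says that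
for every `g` whose class means vanish
`ip g g + (1/2) * ∑ a, ∑ b, [a ≠ b] ∑ x, (mavg W a b g x)^2 ≤ (1/4) * energyIn W g`.
It is proved through the spectral principle: for an eigenfunction of
half the Laplacian minus half the sum of all `mavg W a b` the extremal adjacent pair gives
eigenvalue at least `1`.
-/

namespace Vale.Agent.Lib.P335.Bip

open Finset
open Classical

set_option linter.unusedSectionVars false

variable {R C : Type} [Fintype R] [DecidableEq R] [Fintype C] [DecidableEq C]
variable {r : R → ℕ} {c : C → ℕ}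

namespace J2

open Johnson

/-- The table `x` is moved by the exchange of the columns `a`, `b` in the rows of `W`. -/
def Mv (W : Finset R) (a b : C) (x : Tab r c) : Prop := colSwapTab W a b x ≠ x

/-- Same class and same moved-status. -/
def mrel (W : Finset R) (a b : C) (x y : Tab r c) : Prop :=
  AgreeOff W x.1 y.1 ∧ (Mv W a b x ↔ Mv W a b y)

theorem mrel_equiv (W : Finset R) (a b : C) : Equivalence (mrel (r := r) (c := c) W a b) :=
  ⟨fun x => ⟨AgreeOff.refl W x.1, Iff.rfl⟩, fun h => ⟨h.1.symm, h.2.symm⟩,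
    fun h1 h2 => ⟨h1.1.trans h2.1, h1.2.trans h2.2⟩⟩

/-- The mean of `g` over the moved tables of the class of `x` if `x` is moved, else `0`. -/
noncomputable def mavg (W : Finset R) (a b : C) (g : Tab r c → ℝ) (x : Tab r c) : ℝ :=
  if Mv W a b x then H14.avg (mrel W a b) g x else 0

theorem Mv_comm (W : Finset R) (a b : C) (x : Tab r c) : Mv W a b x ↔ Mv W b a x := by
  unfold Mv
  rw [colSwapTab_comm]

/-- The explicit form of `mavg` at a moved table. -/
theorem mavg_eq (W : Finset R) (a b : C) (g : Tab r c → ℝ) {x : Tab r c} (hx : Mv W a b x) :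
    mavg W a b g x = (∑ y ∈ (cls W x).filter (fun y => Mv W a b y), g y)
      / (((cls W x).filter (fun y => Mv W a b y)).card : ℝ) := by
  have h : H14.cls (mrel W a b) x = (cls W x).filter (fun y => Mv W a b y) := by
    ext y
    rw [H14.mem_cls, mem_filter, mem_cls]
    unfold mrel
    constructor
    · rintro ⟨h1, h2⟩
      exact ⟨h1, h2.1 hx⟩
    · rintro ⟨h1, h2⟩
      exact ⟨h1, fun _ => h2, fun _ => hx⟩
  unfold mavg
  rw [if_pos hx, H14.avg_apply, h]

theorem mavg_of_not {W : Finset R} {a b : C} (g : Tab r c → ℝ) {x : Tab r c}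
    (hx : ¬ Mv W a b x) : mavg W a b g x = 0 := by
  unfold mavg
  rw [if_neg hx]

theorem mavg_comm (W : Finset R) (a b : C) (g : Tab r c → ℝ) (x : Tab r c) :
    mavg W a b g x = mavg W b a g x := by
  by_cases hx : Mv W a b x
  · have hx' : Mv W b a x := (Mv_comm W a b x).1 hx
    rw [mavg_eq W a b g hx, mavg_eq W b a g hx']
    have : (cls W x).filter (fun y => Mv W a b y) = (cls W x).filter (fun y => Mv W b a y) :=
      filter_congr fun y _ => Mv_comm W a b y
    rw [this]
  · have hx' : ¬ Mv W b a x := fun h => hx ((Mv_comm W a b x).2 h)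
    rw [mavg_of_not g hx, mavg_of_not g hx']

/-- `mavg` takes the same value at two tables of one class with the same moved-status. -/
theorem mavg_congr {W : Finset R} {a b : C} (g : Tab r c → ℝ) {x y : Tab r c}
    (h1 : AgreeOff W x.1 y.1) (h2 : Mv W a b x ↔ Mv W a b y) :
    mavg W a b g x = mavg W a b g y := by
  by_cases hx : Mv W a b x
  · unfold mavg
    rw [if_pos hx, if_pos (h2.1 hx)]
    exact H14.avg_rel (mrel_equiv W a b) g ⟨h1, h2⟩
  · rw [mavg_of_not g hx, mavg_of_not g (fun h => hx (h2.2 h))]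

theorem mavg_add (W : Finset R) (a b : C) (f g : Tab r c → ℝ) (x : Tab r c) :
    mavg W a b (f + g) x = mavg W a b f x + mavg W a b g x := by
  unfold mavg
  split_ifs
  · rw [H14.avg_add]; rfl
  · simp

theorem mavg_smul (W : Finset R) (a b : C) (t : ℝ) (g : Tab r c → ℝ) (x : Tab r c) :
    mavg W a b (t • g) x = t * mavg W a b g x := by
  unfold mavg
  split_ifs
  · rw [H14.avg_smul]; rfl
  · simp

/-- The indicator of the moved tables. -/
noncomputable def ind (W : Finset R) (a b : C) (x : Tab r c) : ℝ := if Mv W a b x then 1 else 0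

theorem ind_inv (W : Finset R) (a b : C) (x y : Tab r c) (h : mrel W a b x y) :
    ind W a b x = ind W a b y := by
  unfold ind
  by_cases hx : Mv W a b x
  · rw [if_pos hx, if_pos (h.2.1 hx)]
  · rw [if_neg hx, if_neg (fun hy => hx (h.2.2 hy))]

theorem mavg_eq_ind (W : Finset R) (a b : C) (g : Tab r c → ℝ) (x : Tab r c) :
    mavg W a b g x = ind W a b x * H14.avg (mrel W a b) g x := by
  unfold mavg ind
  split_ifs <;> simp

/-- `mavg` is symmetric for the counting inner product. -/
theorem mavg_symm (W : Finset R) (a b : C) (h g : Tab r c → ℝ) :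
    ∑ x, h x * mavg W a b g x = ∑ x, mavg W a b h x * g x := by
  have e1 : ∑ x, h x * mavg W a b g x
      = ∑ x, (fun x => ind W a b x * h x) x * H14.avg (mrel W a b) g x :=
    sum_congr rfl fun x _ => by rw [mavg_eq_ind]; ring
  rw [e1, H14.avg_symm (mrel_equiv W a b) g (fun x => ind W a b x * h x),
    H14.avg_mul_of_invariant (ind_inv W a b)]
  exact sum_congr rfl fun x _ => by rw [mavg_eq_ind]

/-- `mavg` is a projection: `⟨g, mavg g⟩ = ‖mavg g‖²`. -/
theorem mavg_sq (W : Finset R) (a b : C) (g : Tab r c → ℝ) :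
    ∑ x, g x * mavg W a b g x = ∑ x, mavg W a b g x ^ 2 := by
  have hr := mrel_equiv (r := r) (c := c) W a b
  have e1 : ∑ x, g x * mavg W a b g x
      = ∑ x, (fun x => ind W a b x * g x) x * H14.avg (mrel W a b) (H14.avg (mrel W a b) g) x :=
    sum_congr rfl fun x _ => by rw [mavg_eq_ind, H14.avg_idem hr]; ring
  rw [e1, H14.avg_symm hr (H14.avg (mrel W a b) g) (fun x => ind W a b x * g x),
    H14.avg_mul_of_invariant (ind_inv W a b)]
  refine sum_congr rfl fun x _ => ?_
  rw [mavg_eq_ind]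
  beta_reduce
  by_cases hx : Mv W a b x
  · have h1 : ind W a b x = 1 := if_pos hx
    rw [h1]
    ring
  · have h0 : ind W a b x = 0 := if_neg hx
    rw [h0]
    ring

/-! ### coordinates on a pair class -/

theorem agree_colSwapTab (W : Finset R) (a b : C) (z : Tab r c) :
    AgreeOff W z.1 (colSwapTab W a b z).1 := by
  by_cases h : wcount W z.1 a = wcount W z.1 b
  · rw [colSwapTab_pos h]
    exact agreeOff_colSwap W a b z.1
  · rw [colSwapTab_neg h]
    exact AgreeOff.refl W z.1

/-- A private column of the class lies in exactly one of the two rows. -/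
theorem row_k_iff {i k : R} (hik : i ≠ k) {x z : Tab r c} (hz : AgreeOff {i, k} x.1 z.1)
    {a : C} (ha : a ∈ pairDiff x.1 i k) : a ∈ z.1 k ↔ a ∉ z.1 i := by
  rw [← pairDiff_eq_of_agree x z hik hz, mem_pairDiff] at ha
  tauto

theorem colSwapTab_val_cls {i k : R} (hik : i ≠ k) {x z : Tab r c}
    (hz : AgreeOff {i, k} x.1 z.1) {a b : C} (ha : a ∈ pairDiff x.1 i k)
    (hb : b ∈ pairDiff x.1 i k) :
    (colSwapTab {i, k} a b z).1 = colSwap {i, k} a b z.1 := by
  apply colSwapTab_pos
  rw [wcount_pair hik, wcount_pair hik]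
  have h1 := row_k_iff hik hz ha
  have h2 := row_k_iff hik hz hb
  by_cases e1 : a ∈ z.1 i <;> by_cases e2 : b ∈ z.1 i <;> simp [e1, e2, h1, h2]

/-- Membership in row `i` after an exchange of two private columns. -/
theorem mem_row_i_swap {i k : R} (hik : i ≠ k) {x z : Tab r c}
    (hz : AgreeOff {i, k} x.1 z.1) {a b : C} (ha : a ∈ pairDiff x.1 i k)
    (hb : b ∈ pairDiff x.1 i k) (m : C) :
    m ∈ (colSwapTab {i, k} a b z).1 i ↔ Equiv.swap a b m ∈ z.1 i := by
  rw [colSwapTab_val_cls hik hz ha hb, mem_colSwap, if_pos (by simp)]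

/-- Two private columns are exchanged non-trivially iff they lie in different rows. -/
theorem Mv_iff {i k : R} (hik : i ≠ k) {x z : Tab r c} (hz : AgreeOff {i, k} x.1 z.1)
    {a b : C} (ha : a ∈ pairDiff x.1 i k) (hb : b ∈ pairDiff x.1 i k) (hab : a ≠ b) :
    Mv {i, k} a b z ↔ ¬ (a ∈ z.1 i ↔ b ∈ z.1 i) := by
  unfold Mv
  rw [colSwapTab_ne_iff hik]
  unfold SwOK
  have h1 := row_k_iff hik hz ha
  have h2 := row_k_iff hik hz hb
  constructor
  · rintro (⟨-, -, h3, h4, -, -⟩ | ⟨-, -, h3, h4, -, -⟩)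
    · tauto
    · tauto
  · intro h
    by_cases e1 : a ∈ z.1 i
    · left
      refine ⟨hik, hab, e1, ?_, ?_, ?_⟩ <;> tauto
    · right
      refine ⟨hik, hab.symm, ?_, e1, ?_, ?_⟩ <;> tauto

/-- A column which is not private is never moved. -/
theorem not_Mv_of_not_mem {i k : R} (hik : i ≠ k) {x z : Tab r c}
    (hz : AgreeOff {i, k} x.1 z.1) (a : C) {b : C} (hb : b ∉ pairDiff x.1 i k) :
    ¬ Mv {i, k} a b z := by
  unfold Mv
  rw [not_not]
  apply colSwapTab_eq_self_of_not_swOK hik
  · intro h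
    apply hb
    rw [← pairDiff_eq_of_agree x z hik hz, mem_pairDiff]
    right
    exact ⟨h.2.2.2.2.2, h.2.2.2.1⟩
  · intro h
    apply hb
    rw [← pairDiff_eq_of_agree x z hik hz, mem_pairDiff]
    left
    exact ⟨h.2.2.1, h.2.2.2.2.1⟩

theorem adj_of_Mv {i k : R} (hik : i ≠ k) {a b : C} {z : Tab r c} (h : Mv {i, k} a b z) :
    AdjIn {i, k} z.1 (colSwapTab {i, k} a b z).1 := by
  rcases (colSwapTab_ne_iff hik z a b).1 h with h1 | h1
  · exact ⟨i, k, a, b, by simp, by simp, h1, colSwapTab_val_of_swOK h1⟩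
  · exact ⟨i, k, b, a, by simp, by simp, h1, colSwapTab_val_of_swOK' h1⟩

/-! ### the key estimate -/

/-- A sum over a set carrying an involution, bounded through the pairs of the involution. -/
theorem sum_invol_le {α : Type} (S : Finset α) (σ : α → α) (hσ : ∀ z ∈ S, σ z ∈ S)
    (hinv : ∀ z, σ (σ z) = z) (h : α → ℝ) (M : ℝ) (hβ : ∀ z ∈ S, h z + h (σ z) ≤ M) :
    ∑ z ∈ S, h z ≤ (S.card : ℝ) * M / 2 := by
  have hre : ∑ z ∈ S, h (σ z) = ∑ z ∈ S, h z :=
    sum_nbij' σ σ hσ hσ (fun z _ => hinv z) (fun z _ => hinv z) (fun z _ => rfl)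
  have h2 : ∑ z ∈ S, h z + ∑ z ∈ S, h (σ z) ≤ (S.card : ℝ) * M := by
    rw [← sum_add_distrib]
    calc ∑ z ∈ S, (h z + h (σ z)) ≤ ∑ _z ∈ S, M := sum_le_sum hβ
      _ = (S.card : ℝ) * M := by rw [sum_const, nsmul_eq_mul]
  rw [hre] at h2
  linarith

theorem Mv_invol (W : Finset R) (a b : C) (x : Tab r c) :
    Mv W a b (colSwapTab W a b x) ↔ Mv W a b x := by
  unfold Mv
  rw [colSwapTab_invol]
  exact ⟨fun h e => h e.symm, fun h e => h e.symm⟩

/-- The exchange of `p`, `q` carries the tables moved by `p, b` to those moved by `q, b`. -/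
theorem Mv_swap {i k : R} (hik : i ≠ k) {x z : Tab r c} (hz : AgreeOff {i, k} x.1 z.1)
    {p q b : C} (hp : p ∈ pairDiff x.1 i k) (hq : q ∈ pairDiff x.1 i k)
    (hb : b ∈ pairDiff x.1 i k) (hpb : p ≠ b) (hqb : q ≠ b)
    (h : Mv {i, k} p b z) : Mv {i, k} q b (colSwapTab {i, k} p q z) := by
  have hz' : AgreeOff {i, k} x.1 (colSwapTab {i, k} p q z).1 :=
    hz.trans (agree_colSwapTab {i, k} p q z)
  rw [Mv_iff hik hz' hq hb hqb, mem_row_i_swap hik hz hp hq, mem_row_i_swap hik hz hp hq,
    Equiv.swap_apply_right, Equiv.swap_apply_of_ne_of_ne hpb.symm hqb.symm]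
  exact (Mv_iff hik hz hp hb hpb).1 h

/-- Of a table moved by `p, b` and its image under that exchange, at most one is moved by
`p, q`. -/
theorem Mv_excl {i k : R} (hik : i ≠ k) {x z : Tab r c} (hz : AgreeOff {i, k} x.1 z.1)
    {p q b : C} (hp : p ∈ pairDiff x.1 i k) (hq : q ∈ pairDiff x.1 i k)
    (hb : b ∈ pairDiff x.1 i k) (hpq : p ≠ q) (hpb : p ≠ b) (hqb : q ≠ b)
    (h1 : Mv {i, k} p b z) (h2 : Mv {i, k} p q z) :
    ¬ Mv {i, k} p q (colSwapTab {i, k} p b z) := by
  have hz' : AgreeOff {i, k} x.1 (colSwapTab {i, k} p b z).1 :=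
    hz.trans (agree_colSwapTab {i, k} p b z)
  rw [Mv_iff hik hz hp hb hpb] at h1
  rw [Mv_iff hik hz hp hq hpq] at h2
  rw [Mv_iff hik hz' hp hq hpq, mem_row_i_swap hik hz hp hb, mem_row_i_swap hik hz hp hb,
    Equiv.swap_apply_left, Equiv.swap_apply_of_ne_of_ne hpq.symm hqb]
  by_cases e1 : p ∈ z.1 i <;> by_cases e2 : q ∈ z.1 i <;> by_cases e3 : b ∈ z.1 i <;>
    simp [e1, e2, e3] at h1 h2 ⊢

/-- For three distinct private columns `p`, `q`, `b` and a table `x` moved by `p, b`: the
moved-class means for `p, b` at `x` and for `q, b` at the image of `x` under the exchange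
of `p`, `q` differ by at most half of the largest difference along a switch. -/
theorem half_bound {i k : R} (hik : i ≠ k) {p q b : C} {x : Tab r c}
    (hp : p ∈ pairDiff x.1 i k) (hq : q ∈ pairDiff x.1 i k) (hb : b ∈ pairDiff x.1 i k)
    (hpq : p ≠ q) (hpb : p ≠ b) (hqb : q ≠ b) (hx : Mv {i, k} p b x)
    (v : Tab r c → ℝ) (M : ℝ) (hM : 0 ≤ M)
    (hmax : ∀ z u : Tab r c, AdjIn {i, k} z.1 u.1 → v z - v u ≤ M) :
    mavg {i, k} p b v x - mavg {i, k} q b v (colSwapTab {i, k} p q x) ≤ M / 2 := by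
  have hxx : AgreeOff {i, k} x.1 x.1 := AgreeOff.refl {i, k} x.1
  have hxy : AgreeOff {i, k} x.1 (colSwapTab {i, k} p q x).1 := agree_colSwapTab {i, k} p q x
  have hy' : Mv {i, k} q b (colSwapTab {i, k} p q x) := Mv_swap hik hxx hp hq hb hpb hqb hx
  rw [mavg_eq {i, k} p b v hx, mavg_eq {i, k} q b v hy']
  set S1 := (cls {i, k} x).filter (fun z => Mv {i, k} p b z) with hS1
  set S2 := (cls {i, k} (colSwapTab {i, k} p q x)).filter (fun z => Mv {i, k} q b z) with hS2
  have hτ12 : ∀ z ∈ S1, colSwapTab {i, k} p q z ∈ S2 := by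
    intro z hz
    obtain ⟨hz1, hz2⟩ := mem_filter.1 hz
    have hzc : AgreeOff {i, k} x.1 z.1 := (mem_cls {i, k} x z).1 hz1
    exact mem_filter.2 ⟨(mem_cls {i, k} _ _).2
      (hxy.symm.trans (hzc.trans (agree_colSwapTab {i, k} p q z))),
      Mv_swap hik hzc hp hq hb hpb hqb hz2⟩
  have hτ21 : ∀ z ∈ S2, colSwapTab {i, k} p q z ∈ S1 := by
    intro z hz
    obtain ⟨hz1, hz2⟩ := mem_filter.1 hz
    have hzc : AgreeOff {i, k} x.1 z.1 := hxy.trans ((mem_cls {i, k} _ z).1 hz1)
    have h3 := Mv_swap hik hzc hq hp hb hqb hpb hz2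
    rw [colSwapTab_comm] at h3
    exact mem_filter.2 ⟨(mem_cls {i, k} x _).2 (hzc.trans (agree_colSwapTab {i, k} p q z)), h3⟩
  have hsum2 : ∑ z ∈ S2, v z = ∑ z ∈ S1, v (colSwapTab {i, k} p q z) := by
    symm
    exact sum_nbij' (fun z => colSwapTab {i, k} p q z) (fun z => colSwapTab {i, k} p q z)
      hτ12 hτ21 (fun z _ => colSwapTab_invol {i, k} p q z)
      (fun z _ => colSwapTab_invol {i, k} p q z) (fun z _ => rfl)
  have hcard : S2.card = S1.card := by
    symm
    exact card_nbij' (fun z => colSwapTab {i, k} p q z) (fun z => colSwapTab {i, k} p q z)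
      hτ12 hτ21 (fun z _ => colSwapTab_invol {i, k} p q z)
      (fun z _ => colSwapTab_invol {i, k} p q z)
  have hN : 0 < (S1.card : ℝ) := by
    have : x ∈ S1 := mem_filter.2 ⟨self_mem_cls {i, k} x, hx⟩
    exact_mod_cast card_pos.2 ⟨x, this⟩
  rw [hsum2, hcard, ← sub_div, ← sum_sub_distrib, div_le_iff₀ hN]
  have hσ : ∀ z ∈ S1, colSwapTab {i, k} p b z ∈ S1 := by
    intro z hz
    obtain ⟨hz1, hz2⟩ := mem_filter.1 hz
    have hzc : AgreeOff {i, k} x.1 z.1 := (mem_cls {i, k} x z).1 hz1
    exact mem_filter.2 ⟨(mem_cls {i, k} x _).2 (hzc.trans (agree_colSwapTab {i, k} p b z)),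
      (Mv_invol {i, k} p b z).2 hz2⟩
  have hβ : ∀ z ∈ S1, (v z - v (colSwapTab {i, k} p q z))
      + (v (colSwapTab {i, k} p b z) - v (colSwapTab {i, k} p q (colSwapTab {i, k} p b z)))
      ≤ M := by
    intro z hz
    obtain ⟨hz1, hz2⟩ := mem_filter.1 hz
    have hzc : AgreeOff {i, k} x.1 z.1 := (mem_cls {i, k} x z).1 hz1
    by_cases m1 : Mv {i, k} p q z
    · have m2 := Mv_excl hik hzc hp hq hb hpq hpb hqb hz2 m1
      have e : colSwapTab {i, k} p q (colSwapTab {i, k} p b z) = colSwapTab {i, k} p b z :=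
        not_not.1 m2
      rw [e]
      have := hmax z _ (adj_of_Mv hik m1)
      linarith
    · have e : colSwapTab {i, k} p q z = z := not_not.1 m1
      rw [e]
      by_cases m2 : Mv {i, k} p q (colSwapTab {i, k} p b z)
      · have := hmax _ _ (adj_of_Mv hik m2)
        linarith
      · have e2 : colSwapTab {i, k} p q (colSwapTab {i, k} p b z) = colSwapTab {i, k} p b z :=
          not_not.1 m2
        rw [e2]
        linarith
  have key := sum_invol_le S1 (colSwapTab {i, k} p b) hσ (colSwapTab_invol {i, k} p b)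
    (fun z => v z - v (colSwapTab {i, k} p q z)) M hβ
  linarith

/-- The moved-status of a third private column at the two ends of a switch. -/
theorem status {i k : R} (hik : i ≠ k) {x : Tab r c} {p q b : C}
    (hp : p ∈ pairDiff x.1 i k) (hq : q ∈ pairDiff x.1 i k) (hb : b ∈ pairDiff x.1 i k)
    (hpq : p ≠ q) (hpb : p ≠ b) (hqb : q ≠ b) (hx : Mv {i, k} p q x) :
    (Mv {i, k} q b x ↔ ¬ Mv {i, k} p b x)
      ∧ (Mv {i, k} p b (colSwapTab {i, k} p q x) ↔ ¬ Mv {i, k} p b x)
      ∧ (Mv {i, k} q b (colSwapTab {i, k} p q x) ↔ Mv {i, k} p b x) := by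
  have hxx : AgreeOff {i, k} x.1 x.1 := AgreeOff.refl {i, k} x.1
  have hxy : AgreeOff {i, k} x.1 (colSwapTab {i, k} p q x).1 := agree_colSwapTab {i, k} p q x
  rw [Mv_iff hik hxx hp hq hpq] at hx
  rw [Mv_iff hik hxx hq hb hqb, Mv_iff hik hxx hp hb hpb, Mv_iff hik hxy hp hb hpb,
    Mv_iff hik hxy hq hb hqb]
  simp only [mem_row_i_swap hik hxx hp hq, Equiv.swap_apply_left, Equiv.swap_apply_right,
    Equiv.swap_apply_of_ne_of_ne hpb.symm hqb.symm]
  by_cases e1 : p ∈ x.1 i <;> by_cases e2 : q ∈ x.1 i <;> by_cases e3 : b ∈ x.1 i <;>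
    simp [e1, e2, e3] at hx ⊢

/-- Columns other than `p`, `q` have the same moved-status before and after the exchange of
`p`, `q`. -/
theorem Mv_iff_of_ne {i k : R} (hik : i ≠ k) (x : Tab r c) {p q a b : C} (hap : a ≠ p)
    (haq : a ≠ q) (hbp : b ≠ p) (hbq : b ≠ q) :
    Mv {i, k} a b (colSwapTab {i, k} p q x) ↔ Mv {i, k} a b x := by
  by_cases hw : wcount {i, k} x.1 p = wcount {i, k} x.1 q
  · unfold Mv
    rw [colSwapTab_ne_iff hik, colSwapTab_ne_iff hik, colSwapTab_pos hw]
    unfold SwOK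
    simp only [mem_colSwap, mem_insert, mem_singleton, true_or, or_true, if_true,
      Equiv.swap_apply_of_ne_of_ne hap haq, Equiv.swap_apply_of_ne_of_ne hbp hbq]
  · rw [colSwapTab_neg hw]

/-- The two pairs through a third column `b`: their moved-class means change by at most
`M / 2` in total along the switch, and not at all if `b` is not private. -/
theorem pair_bound {i k : R} (hik : i ≠ k) {x : Tab r c} {p q : C}
    (hp : p ∈ pairDiff x.1 i k) (hq : q ∈ pairDiff x.1 i k) (hpq : p ≠ q)
    (hx : Mv {i, k} p q x) (v : Tab r c → ℝ) (M : ℝ) (hM : 0 ≤ M)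
    (hmax : ∀ z u : Tab r c, AdjIn {i, k} z.1 u.1 → v z - v u ≤ M)
    (b : C) (hbp : b ≠ p) (hbq : b ≠ q) :
    (mavg {i, k} p b v x - mavg {i, k} p b v (colSwapTab {i, k} p q x))
      + (mavg {i, k} q b v x - mavg {i, k} q b v (colSwapTab {i, k} p q x))
      ≤ if b ∈ pairDiff x.1 i k then M / 2 else 0 := by
  have hxx : AgreeOff {i, k} x.1 x.1 := AgreeOff.refl {i, k} x.1
  have hxy : AgreeOff {i, k} x.1 (colSwapTab {i, k} p q x).1 := agree_colSwapTab {i, k} p q x
  by_cases hb : b ∈ pairDiff x.1 i k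
  · rw [if_pos hb]
    obtain ⟨s1, s2, s3⟩ := status hik hp hq hb hpq (Ne.symm hbp) (Ne.symm hbq) hx
    by_cases h1 : Mv {i, k} p b x
    · rw [mavg_of_not v (fun h => (s2.1 h) h1), mavg_of_not v (fun h => (s1.1 h) h1)]
      have := half_bound hik hp hq hb hpq (Ne.symm hbp) (Ne.symm hbq) h1 v M hM hmax
      linarith
    · have h2 : Mv {i, k} q b x := s1.2 h1
      rw [mavg_of_not v h1, mavg_of_not v (fun h => h1 (s3.1 h))]
      have := half_bound hik hq hp hb hpq.symm (Ne.symm hbq) (Ne.symm hbp) h2 v M hM hmax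
      rw [colSwapTab_comm] at this
      linarith
  · rw [if_neg hb, mavg_of_not v (not_Mv_of_not_mem hik hxx p hb),
      mavg_of_not v (not_Mv_of_not_mem hik hxy p hb),
      mavg_of_not v (not_Mv_of_not_mem hik hxx q hb),
      mavg_of_not v (not_Mv_of_not_mem hik hxy q hb)]
    simp

/-- A symmetric array vanishing on the diagonal, at the pair `p, q` and away from `p`, `q`. -/
theorem sum_sym_split (F : C → C → ℝ) (p q : C) (hpq : p ≠ q)
    (hsym : ∀ a b, F a b = F b a) (hdiag : ∀ a, F a a = 0) (hpq0 : F p q = 0)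
    (hrest : ∀ a b, a ≠ p → a ≠ q → b ≠ p → b ≠ q → F a b = 0) :
    ∑ a, ∑ b, F a b = 2 * ∑ b ∈ (univ.erase p).erase q, (F p b + F q b) := by
  have hsplit : ∀ G : C → ℝ, ∑ a, G a = G p + (G q + ∑ a ∈ (univ.erase p).erase q, G a) := by
    intro G
    rw [add_sum_erase _ _ (mem_erase.2 ⟨hpq.symm, mem_univ q⟩), add_sum_erase _ _ (mem_univ p)]
  have h1 : ∑ a ∈ (univ.erase p).erase q, ∑ b, F a b
      = ∑ a ∈ (univ.erase p).erase q, (F p a + F q a) := by
    refine sum_congr rfl fun a ha => ?_
    have haq : a ≠ q := (mem_erase.1 ha).1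
    have hap : a ≠ p := (mem_erase.1 (mem_erase.1 ha).2).1
    rw [hsplit (fun b => F a b)]
    have h0 : ∑ b ∈ (univ.erase p).erase q, F a b = 0 :=
      sum_eq_zero fun b hb => hrest a b hap haq (mem_erase.1 (mem_erase.1 hb).2).1
        (mem_erase.1 hb).1
    rw [h0, hsym a p, hsym a q]
    ring
  rw [hsplit (fun a => ∑ b, F a b), hsplit (fun b => F p b), hsplit (fun b => F q b), h1,
    hdiag p, hdiag q, hpq0, hsym q p, hpq0, sum_add_distrib]
  ring

/-- The sum over all ordered pairs of distinct columns of the moved-class means changes by at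
most `m - 2` times `M` along an extremal switch. -/
theorem sdiff_bound {i k : R} (hik : i ≠ k) {x : Tab r c} {p q : C}
    (hp : p ∈ pairDiff x.1 i k) (hq : q ∈ pairDiff x.1 i k) (hpq : p ≠ q)
    (hx : Mv {i, k} p q x) (v : Tab r c → ℝ) (M : ℝ) (hM : 0 ≤ M)
    (hmax : ∀ z u : Tab r c, AdjIn {i, k} z.1 u.1 → v z - v u ≤ M) :
    ∑ a : C, ∑ b : C, (if a = b then 0
        else mavg {i, k} a b v x - mavg {i, k} a b v (colSwapTab {i, k} p q x))
      ≤ (((pairDiff x.1 i k).card : ℝ) - 2) * M := by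
  set F : C → C → ℝ := fun a b => if a = b then 0
    else mavg {i, k} a b v x - mavg {i, k} a b v (colSwapTab {i, k} p q x) with hF
  have hsym : ∀ a b, F a b = F b a := by
    intro a b
    simp only [hF]
    by_cases h : a = b
    · rw [if_pos h, if_pos h.symm]
    · rw [if_neg h, if_neg (fun e => h e.symm), mavg_comm {i, k} a b v x,
        mavg_comm {i, k} a b v (colSwapTab {i, k} p q x)]
  have hdiag : ∀ a, F a a = 0 := fun a => if_pos rfl
  have hpq0 : F p q = 0 := by
    simp only [hF]
    rw [if_neg hpq, mavg_congr v (agree_colSwapTab {i, k} p q x) (Mv_invol {i, k} p q x).symm,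
      sub_self]
  have hrest : ∀ a b, a ≠ p → a ≠ q → b ≠ p → b ≠ q → F a b = 0 := by
    intro a b h1 h2 h3 h4
    simp only [hF]
    by_cases h : a = b
    · rw [if_pos h]
    · rw [if_neg h, mavg_congr v (agree_colSwapTab {i, k} p q x)
        (Mv_iff_of_ne hik x h1 h2 h3 h4).symm, sub_self]
  have hFle : ∑ a : C, ∑ b : C, F a b ≤ (((pairDiff x.1 i k).card : ℝ) - 2) * M := by
    rw [sum_sym_split F p q hpq hsym hdiag hpq0 hrest]
    have hb : ∀ b ∈ (univ.erase p).erase q,
        F p b + F q b ≤ if b ∈ pairDiff x.1 i k then M / 2 else 0 := by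
      intro b hb
      have hbq : b ≠ q := (mem_erase.1 hb).1
      have hbp : b ≠ p := (mem_erase.1 (mem_erase.1 hb).2).1
      simp only [hF]
      rw [if_neg (Ne.symm hbp), if_neg (Ne.symm hbq)]
      exact pair_bound hik hp hq hpq hx v M hM hmax b hbp hbq
    have hcount : ∑ b ∈ (univ.erase p).erase q, (if b ∈ pairDiff x.1 i k then M / 2 else 0)
        = (((pairDiff x.1 i k).card : ℝ) - 2) * (M / 2) := by
      rw [sum_ite_mem, sum_const, nsmul_eq_mul]
      have e : ((univ.erase p).erase q) ∩ pairDiff x.1 i k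
          = ((pairDiff x.1 i k).erase p).erase q := by
        ext b
        simp only [mem_inter, mem_erase, mem_univ]
        tauto
      rw [e]
      have c1 := card_erase_add_one (mem_erase.2 ⟨hpq.symm, hq⟩ : q ∈ (pairDiff x.1 i k).erase p)
      have c2 := card_erase_add_one hp
      have c3 : ((((pairDiff x.1 i k).erase p).erase q).card : ℝ)
          = ((pairDiff x.1 i k).card : ℝ) - 2 := by
        have : (((pairDiff x.1 i k).erase p).erase q).card + 2 = (pairDiff x.1 i k).card := by
          omega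
        rw [← this]
        push_cast
        ring
      rw [c3]
    have h3 := sum_le_sum hb
    rw [hcount] at h3
    linarith
  exact hFle

/-! ### the operator -/

/-- The sum of the moved-class means over all ordered pairs of distinct columns. -/
noncomputable def msum (W : Finset R) (g : Tab r c → ℝ) : Tab r c → ℝ :=
  fun x => ∑ a : C, ∑ b : C, if a = b then 0 else mavg W a b g x

/-- `msum` as a linear map. -/
noncomputable def msumL (W : Finset R) : (Tab r c → ℝ) →ₗ[ℝ] (Tab r c → ℝ) where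
  toFun := msum W
  map_add' := by
    intro f g
    funext x
    show msum W (f + g) x = msum W f x + msum W g x
    unfold msum
    rw [← sum_add_distrib]
    refine sum_congr rfl fun a _ => ?_
    rw [← sum_add_distrib]
    refine sum_congr rfl fun b _ => ?_
    by_cases h : a = b
    · rw [if_pos h, if_pos h, if_pos h, add_zero]
    · rw [if_neg h, if_neg h, if_neg h, mavg_add]
  map_smul' := by
    intro t g
    funext x
    show msum W (t • g) x = t * msum W g x
    unfold msum
    rw [mul_sum]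
    refine sum_congr rfl fun a _ => ?_
    rw [mul_sum]
    refine sum_congr rfl fun b _ => ?_
    by_cases h : a = b
    · rw [if_pos h, if_pos h, mul_zero]
    · rw [if_neg h, if_neg h, mavg_smul]

theorem msumL_apply (W : Finset R) (g : Tab r c → ℝ) : msumL W g = msum W g := rfl

theorem sum_mul_msum (W : Finset R) (f g : Tab r c → ℝ) :
    ∑ x, f x * msum W g x
      = ∑ a : C, ∑ b : C, if a = b then 0 else ∑ x, f x * mavg W a b g x := by
  unfold msum
  simp only [mul_sum]
  rw [sum_comm]
  refine sum_congr rfl fun a _ => ?_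
  rw [sum_comm]
  refine sum_congr rfl fun b _ => ?_
  by_cases h : a = b
  · simp [h]
  · simp [h]

theorem msum_symm (W : Finset R) (f g : Tab r c → ℝ) :
    ∑ x, f x * msum W g x = ∑ x, msum W f x * g x := by
  have e2 : ∑ x, msum W f x * g x = ∑ x, g x * msum W f x :=
    sum_congr rfl fun x _ => mul_comm _ _
  rw [e2, sum_mul_msum, sum_mul_msum]
  refine sum_congr rfl fun a _ => sum_congr rfl fun b _ => ?_
  by_cases h : a = b
  · rw [if_pos h, if_pos h]
  · rw [if_neg h, if_neg h, mavg_symm W a b f g]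
    exact sum_congr rfl fun x _ => mul_comm _ _

theorem msum_quad (W : Finset R) (g : Tab r c → ℝ) :
    ∑ x, g x * msum W g x
      = ∑ a : C, ∑ b : C, if a = b then 0 else ∑ x, mavg W a b g x ^ 2 := by
  rw [sum_mul_msum]
  refine sum_congr rfl fun a _ => sum_congr rfl fun b _ => ?_
  by_cases h : a = b
  · rw [if_pos h, if_pos h]
  · rw [if_neg h, if_neg h, mavg_sq]

/-- An eigenfunction of half of `msum - lap` with eigenvalue above `-1` is constant
along the switches inside the two rows. -/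
theorem eigen_invariant (i k : R) (hik : i ≠ k) (v : Tab r c → ℝ) (μ : ℝ) (hμ : -1 < μ)
    (hv : ∀ x, (1 / 2) * msum {i, k} v x - (1 / 2) * lap {i, k} v x = μ * v x) :
    ∀ x u : Tab r c, AdjIn {i, k} x.1 u.1 → v x = v u := by
  by_contra hcon
  obtain ⟨x0, hcon⟩ := not_forall.1 hcon
  obtain ⟨u0, hcon⟩ := not_forall.1 hcon
  obtain ⟨hadj0, hne0⟩ := Classical.not_imp.1 hcon
  set P : Finset (Tab r c × Tab r c) := univ.filter (fun z => AdjIn {i, k} z.1.1 z.2.1) with hP
  have hPne : P.Nonempty := ⟨(x0, u0), by simp [hP, hadj0]⟩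
  obtain ⟨z, hz, hmax⟩ := P.exists_max_image (fun z => v z.1 - v z.2) hPne
  have hzadj : AdjIn {i, k} z.1.1 z.2.1 := by simpa [hP] using hz
  have hmax' : ∀ x u : Tab r c, AdjIn {i, k} x.1 u.1 → v x - v u ≤ v z.1 - v z.2 :=
    fun x u h => hmax (x, u) (by simp [hP, h])
  have hpos : 0 < v z.1 - v z.2 := by
    rcases lt_or_gt_of_ne hne0 with h | h
    · have := hmax' u0 x0 (adjIn_symm hadj0)
      linarith
    · have := hmax' x0 u0 hadj0
      linarith
  have hv1 := hv z.1
  have hv2 := hv z.2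
  obtain ⟨a', b', p, q, ha', hb', hsw, hy⟩ := hzadj
  have hab' : a' ≠ b' := hsw.1
  have hW : ({i, k} : Finset R) = {a', b'} := by
    simp only [mem_insert, mem_singleton] at ha' hb'
    rcases ha' with rfl | rfl <;> rcases hb' with rfl | rfl
    · exact absurd rfl hab'
    · rfl
    · exact pair_comm _ _
    · exact absurd rfl hab'
  rw [hW] at hmax' hv1 hv2
  obtain ⟨-, hpq, hp1, hq1, hp2, hq2⟩ := id hsw
  have hpD : p ∈ pairDiff z.1.1 a' b' := (mem_pairDiff _ _ _ _).2 (Or.inl ⟨hp1, hp2⟩)
  have hqD : q ∈ pairDiff z.1.1 a' b' := (mem_pairDiff _ _ _ _).2 (Or.inr ⟨hq2, hq1⟩)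
  have hτ : colSwapTab {a', b'} p q z.1 = z.2 := colSwapTab_eq_of_swOK hsw hy
  have hMv : Mv {a', b'} p q z.1 := by
    unfold Mv
    rw [hτ]
    intro e
    rw [e] at hpos
    linarith
  have key1 := lap_diff_ge_full hsw hy v hmax' hpos.le
  have key2 := sdiff_bound hab' hpD hqD hpq hMv v (v z.1 - v z.2) hpos.le hmax'
  rw [hτ] at key2
  have e : msum {a', b'} v z.1 - msum {a', b'} v z.2
      = ∑ a : C, ∑ b : C, (if a = b then 0
          else mavg {a', b'} a b v z.1 - mavg {a', b'} a b v z.2) := by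
    unfold msum
    rw [← sum_sub_distrib]
    refine sum_congr rfl fun a _ => ?_
    rw [← sum_sub_distrib]
    refine sum_congr rfl fun b _ => ?_
    by_cases h : a = b
    · rw [if_pos h, if_pos h, if_pos h, sub_zero]
    · rw [if_neg h, if_neg h, if_neg h]
  rw [← e] at key2
  have h3 : μ * v z.1 - μ * v z.2 + (v z.1 - v z.2) ≤ 0 := by linarith
  have h4 : (μ + 1) * (v z.1 - v z.2) = μ * v z.1 - μ * v z.2 + (v z.1 - v z.2) := by ring
  have h5 : 0 < (μ + 1) * (v z.1 - v z.2) := mul_pos (by linarith) hpos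
  linarith

end J2

open Johnson in
/-- **(J2) in the table model, mean-zero form.** If the class means of `g` over the pair
`{i, k}` vanish, then `‖g‖² + (1/2) ∑_{a ≠ b} ‖mavg a b g‖² ≤ (1/4) energyIn {i, k} g`. -/
theorem j2_core (i k : R) (hik : i ≠ k) (g : Tab r c → ℝ) (hg : avg {i, k} g = 0) :
    ∑ x, g x ^ 2
      + (1 / 2) * ∑ a : C, ∑ b : C, (if a = b then 0 else ∑ x, J2.mavg {i, k} a b g x ^ 2)
      ≤ (1 / 4) * energyIn {i, k} g := by
  set W : Finset R := {i, k} with hW
  let Mop : (Tab r c → ℝ) →ₗ[ℝ] (Tab r c → ℝ) :=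
    (1 / 2 : ℝ) • J2.msumL W - (1 / 2 : ℝ) • Johnson.lapL W
  have hMop : ∀ (f : Tab r c → ℝ) (x : Tab r c),
      Mop f x = (1 / 2) * J2.msum W f x - (1 / 2) * Johnson.lap W f x := fun _ _ => rfl
  have hM : ∀ f g : Tab r c → ℝ, ∑ x, f x * Mop g x = ∑ x, Mop f x * g x := by
    intro f g
    have e1 : ∑ x, f x * Mop g x
        = (1 / 2) * ∑ x, f x * J2.msum W g x - (1 / 2) * ∑ x, f x * Johnson.lap W g x := by
      rw [mul_sum, mul_sum, ← sum_sub_distrib]
      refine sum_congr rfl fun x _ => ?_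
      rw [hMop]
      ring
    have e2 : ∑ x, Mop f x * g x
        = (1 / 2) * ∑ x, J2.msum W f x * g x - (1 / 2) * ∑ x, Johnson.lap W f x * g x := by
      rw [mul_sum, mul_sum, ← sum_sub_distrib]
      refine sum_congr rfl fun x _ => ?_
      rw [hMop]
      ring
    rw [e1, e2, J2.msum_symm, Johnson.lap_symm]
  have hK : ∀ (μ : ℝ) (v : Tab r c → ℝ), v ≠ 0 → Mop v = μ • v → -1 < μ →
      v ∈ Johnson.invSub (r := r) (c := c) W := by
    intro μ v _ hv hμ
    show avg W v = v
    rw [avg_eq_self_iff]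
    intro x y hxy
    have hv' : ∀ x, (1 / 2) * J2.msum W v x - (1 / 2) * Johnson.lap W v x = μ * v x := by
      intro x
      have := congrFun hv x
      rw [hMop] at this
      simpa only [Pi.smul_apply, smul_eq_mul] using this
    have hadj : ∀ x u : Tab r c, AdjIn W x.1 u.1 → v x = v u :=
      J2.eigen_invariant i k hik v μ hμ hv'
    have hreach : ∀ y : Tab r c,
        Relation.ReflTransGen (fun u v : Tab r c => AdjIn W u.1 v.1) x y → v x = v y := by
      intro y hc
      induction hc with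
      | refl => rfl
      | tail _ h ih => rw [ih]; exact hadj _ _ h
    exact hreach y (conn W x y hxy)
  have hgK : ∀ v ∈ Johnson.invSub (r := r) (c := c) W, ∑ x, v x * g x = 0 := by
    intro v hv
    have hv' : avg W v = v := hv
    have h1 := avg_symm W v g
    rw [hv', hg] at h1
    unfold ip at h1
    rw [h1]
    simp
  have hspec := spectral_le Mop hM (-1) (Johnson.invSub W) hK g hgK
  have e1 : ∑ x, g x * Mop g x
      = (1 / 2) * ∑ a : C, ∑ b : C, (if a = b then 0 else ∑ x, J2.mavg W a b g x ^ 2)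
        - (1 / 4) * energyIn W g := by
    have : ∑ x, g x * Mop g x
        = (1 / 2) * ∑ x, g x * J2.msum W g x - (1 / 2) * ∑ x, g x * Johnson.lap W g x := by
      rw [mul_sum, mul_sum, ← sum_sub_distrib]
      refine sum_congr rfl fun x _ => ?_
      rw [hMop]
      ring
    rw [this, J2.msum_quad, Johnson.lap_energy]
    ring
  rw [e1] at hspec
  linarith

open Johnson in
/-- **(J2) in the table model.** For two rows `i ≠ k`, with `τ a b` the exchange of the
columns `a`, `b` in these rows: the squared distance of `f` to its class means, plus half the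
sum over ordered pairs of distinct columns of the squared means of `f - avg f` over the moved
tables of each class, is at most one eighth of the total exchange energy. -/
theorem j2_direct (i k : R) (hik : i ≠ k) (f : Tab r c → ℝ) :
    ∑ x, (f x - avg {i, k} f x) ^ 2
      + (1 / 2) * ∑ a : C, ∑ b : C, (if a = b then 0 else
          ∑ x ∈ univ.filter (fun x : Tab r c => colSwapTab {i, k} a b x ≠ x),
            ((∑ y ∈ (cls {i, k} x).filter (fun y => colSwapTab {i, k} a b y ≠ y),
                (f y - avg {i, k} f y))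
              / (((cls {i, k} x).filter (fun y => colSwapTab {i, k} a b y ≠ y)).card : ℝ)) ^ 2)
      ≤ (1 / 8) * ∑ a : C, ∑ b : C,
          (if a = b then 0 else ∑ x, (f x - f (colSwapTab {i, k} a b x)) ^ 2) := by
  set W : Finset R := {i, k} with hW
  set g : Tab r c → ℝ := f - avg W f with hg
  have hg0 : avg W g = 0 := by
    have h1 : g = f + (-1 : ℝ) • avg W f := by
      funext x
      simp only [hg, Pi.sub_apply, Pi.add_apply, Pi.smul_apply, smul_eq_mul]
      ring
    rw [h1, avg_add, avg_smul, avg_idem]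
    funext x
    simp only [Pi.add_apply, Pi.smul_apply, smul_eq_mul, Pi.zero_apply]
    ring
  have hcore := j2_core i k hik g hg0
  have e2 : energyIn W g = energyIn W f := by
    unfold energyIn
    refine sum_congr rfl fun x _ => sum_congr rfl fun y _ => ?_
    split_ifs with h
    · have := avg_apply_of_agree W f x y (Johnson.agreeOff_of_adjIn h)
      simp only [hg, Pi.sub_apply, this]
      ring
    · rfl
  have e3 : ∀ a b : C, ∑ x, J2.mavg W a b g x ^ 2
      = ∑ x ∈ univ.filter (fun x : Tab r c => colSwapTab W a b x ≠ x),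
          ((∑ y ∈ (cls W x).filter (fun y => colSwapTab W a b y ≠ y), (f y - avg W f y))
            / (((cls W x).filter (fun y => colSwapTab W a b y ≠ y)).card : ℝ)) ^ 2 := by
    intro a b
    rw [sum_filter]
    refine sum_congr rfl fun x _ => ?_
    by_cases hx : colSwapTab W a b x ≠ x
    · have e : (cls W x).filter (fun y => J2.Mv W a b y)
          = (cls W x).filter (fun y => colSwapTab W a b y ≠ y) := by
        ext y
        simp only [mem_filter]
        exact Iff.rfl
      rw [if_pos hx, J2.mavg_eq W a b g hx, e]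
      rfl
    · rw [if_neg hx, J2.mavg_of_not g hx]
      simp
  have e4 : ∑ a : C, ∑ b : C, (if a = b then 0 else ∑ x, J2.mavg W a b g x ^ 2)
      = ∑ a : C, ∑ b : C, (if a = b then 0 else
          ∑ x ∈ univ.filter (fun x : Tab r c => colSwapTab W a b x ≠ x),
            ((∑ y ∈ (cls W x).filter (fun y => colSwapTab W a b y ≠ y), (f y - avg W f y))
              / (((cls W x).filter (fun y => colSwapTab W a b y ≠ y)).card : ℝ)) ^ 2) := by
    refine sum_congr rfl fun a _ => sum_congr rfl fun b _ => ?_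
    rw [e3 a b]
  have e5 : ∑ x, g x ^ 2 = ∑ x, (f x - avg W f x) ^ 2 := rfl
  rw [e2, e4, e5] at hcore
  rw [Johnson.sum_fen hik f]
  linarith

end Vale.Agent.Lib.P335.Bip
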