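import Vale.Agent.Lib.P335.Bip.SepGram
import Vale.Agent.Lib.P335.Bip.ColSwapFacts

/-!
# The pair-level inequality (J2) in the table model

For two rows `i ≠ k` of a table class, `g = f - avg {i, k} f`:
the squared norm of `g` plus the separated-mean terms of all column pairs is at most a
quarter of the switch energy of the two rows, which is an eighth of the sum of the flip
energies over ordered pairs of distinct columns.
-/

namespace Vale.Agent.Lib.P335.Bip

open Finset
open Classical

variable {R C : Type} [Fintype R] [DecidableEq R] [Fintype C] [DecidableEq C]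
variable {r : R → ℕ} {c : C → ℕ}

/-- (J2) for two rows, energy form. -/
theorem j2_table_energy (i k : R) (hik : i ≠ k) (f : Tab r c → ℝ) :
    ∑ x : Tab r c, (f x - avg {i, k} f x) ^ 2
        + (1 / 2) * ∑ p : C, ∑ q : C,
            (if p = q then 0 else SepGram.kap i k p q (f - avg {i, k} f))
      ≤ (1 / 4) * energyIn {i, k} f := by
  have hg : avg {i, k} (f - avg {i, k} f) = 0 := by
    rw [avg_sub, avg_idem, sub_self]
  have h1 := sep_gram_table i k hik (f - avg {i, k} f) hg
  have h2 := johnson_full i k hik f
  have h3 : ∑ x : Tab r c, ((((pairDiff x.1 i k).card : ℝ) - 2) / 2) * (f - avg {i, k} f) x ^ 2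
      = (1 / 2) * ∑ x : Tab r c, ((pairDiff x.1 i k).card : ℝ) * (f x - avg {i, k} f x) ^ 2
        - ∑ x : Tab r c, (f x - avg {i, k} f x) ^ 2 := by
    rw [Finset.mul_sum, ← Finset.sum_sub_distrib]
    refine Finset.sum_congr rfl fun x _ => ?_
    simp only [Pi.sub_apply]
    ring
  rw [h3] at h1
  linarith

/-- (J2) for two rows, flip form: the right side is an eighth of the sum over ordered pairs of
distinct columns of the flip energies of the column exchange. -/
theorem j2_table (i k : R) (hik : i ≠ k) (f : Tab r c → ℝ) :
    ∑ x : Tab r c, (f x - avg {i, k} f x) ^ 2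
        + (1 / 2) * ∑ p : C, ∑ q : C,
            (if p = q then 0 else SepGram.kap i k p q (f - avg {i, k} f))
      ≤ (1 / 8) * ∑ p : C, ∑ q : C,
          (if p = q then 0
            else ∑ x : Tab r c, (f x - f (Johnson.colSwapTab {i, k} p q x)) ^ 2) := by
  rw [Johnson.sum_fen hik f]
  have h := j2_table_energy i k hik f
  linarith

/-- The separated-mean term written with the moved points of the column exchange. -/
theorem kap_eq_tau (i k : R) (hik : i ≠ k) (p q : C) (g : Tab r c → ℝ) :
    SepGram.kap i k p q g
      = ∑ x ∈ univ.filter (fun x : Tab r c => Johnson.colSwapTab {i, k} p q x ≠ x),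
          ((∑ y ∈ (cls {i, k} x).filter
                (fun y : Tab r c => Johnson.colSwapTab {i, k} p q y ≠ y), g y)
            / (((cls {i, k} x).filter
                (fun y : Tab r c => Johnson.colSwapTab {i, k} p q y ≠ y)).card : ℝ)) ^ 2 := by
  have e1 : univ.filter (fun x : Tab r c => SepGram.Sep i k p q x.1)
      = univ.filter (fun x : Tab r c => Johnson.colSwapTab {i, k} p q x ≠ x) := by
    refine Finset.filter_congr fun x _ => ?_
    rw [Johnson.colSwapTab_ne_iff hik]
    rfl
  have e2 : ∀ x : Tab r c, (cls {i, k} x).filter (fun y : Tab r c => SepGram.Sep i k p q y.1)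
      = (cls {i, k} x).filter (fun y : Tab r c => Johnson.colSwapTab {i, k} p q y ≠ y) := by
    intro x
    refine Finset.filter_congr fun y _ => ?_
    rw [Johnson.colSwapTab_ne_iff hik]
    rfl
  unfold SepGram.kap
  rw [e1]
  refine Finset.sum_congr rfl fun x _ => ?_
  rw [e2 x]

/-- (J2) for two rows with every term written through the column exchange
`tau a b = Johnson.colSwapTab {i, k} a b`. -/
theorem j2_table_tau (i k : R) (hik : i ≠ k) (f : Tab r c → ℝ) :
    ∑ x : Tab r c, (f x - avg {i, k} f x) ^ 2
        + (1 / 2) * ∑ a : C, ∑ b : C, (if a = b then 0 else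
            ∑ x ∈ univ.filter (fun x : Tab r c => Johnson.colSwapTab {i, k} a b x ≠ x),
              ((∑ y ∈ (cls {i, k} x).filter
                    (fun y : Tab r c => Johnson.colSwapTab {i, k} a b y ≠ y),
                  (f y - avg {i, k} f y))
                / (((cls {i, k} x).filter
                    (fun y : Tab r c => Johnson.colSwapTab {i, k} a b y ≠ y)).card : ℝ)) ^ 2)
      ≤ (1 / 8) * ∑ a : C, ∑ b : C,
          (if a = b then 0
            else ∑ x : Tab r c, (f x - f (Johnson.colSwapTab {i, k} a b x)) ^ 2) := by
  have h := j2_table i k hik f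
  have e : ∀ a b : C, (if a = b then (0 : ℝ) else SepGram.kap i k a b (f - avg {i, k} f))
      = (if a = b then 0 else
            ∑ x ∈ univ.filter (fun x : Tab r c => Johnson.colSwapTab {i, k} a b x ≠ x),
              ((∑ y ∈ (cls {i, k} x).filter
                    (fun y : Tab r c => Johnson.colSwapTab {i, k} a b y ≠ y),
                  (f y - avg {i, k} f y))
                / (((cls {i, k} x).filter
                    (fun y : Tab r c => Johnson.colSwapTab {i, k} a b y ≠ y)).card : ℝ)) ^ 2) := by
    intro a b
    split_ifs
    · rfl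
    · rw [kap_eq_tau i k hik a b]
      rfl
  simp only [e] at h
  exact h

end Vale.Agent.Lib.P335.Bip
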