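import Vale.Agent.Lib.P335.Bip.Avg
import Vale.Agent.Lib.P335.Bip.Conn
import Vale.Agent.Lib.P335.Bip.Spectral

/-!
# M4 JOHNSON: the pair level of the bipartite switch chain

For two rows `i ≠ i'` the switches inside the rows `i, i'` form, on every class of tables
agreeing outside these rows, a Johnson graph.  We prove the Poincaré inequality with
constant `2` (ordered pairs: `4`) for it by a maximum principle: exchanging the two
columns of a switch is an automorphism of the pair-switch graph which moves every table
by at most one switch.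
-/

namespace Vale.Agent.Lib.P335.Bip

open Finset
open Classical

set_option linter.unusedSectionVars false

variable {R C : Type} [Fintype R] [DecidableEq R] [Fintype C] [DecidableEq C]
variable {r : R → ℕ} {c : C → ℕ}

namespace Johnson

/-! ### raw lemmas on switches -/

theorem mem_swRow (x : R → Finset C) (a b : R) (j j' : C) (k : R) (m : C) :
    m ∈ swRow x a b j j' k ↔
      if k = b then (m = j ∨ (m ≠ j' ∧ m ∈ x b))
      else if k = a then (m = j' ∨ (m ≠ j ∧ m ∈ x a)) else m ∈ x k := by
  unfold swRow
  by_cases hb : k = b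
  · subst hb
    simp
  · by_cases ha : k = a
    · subst ha
      simp [hb]
    · simp [hb, ha]

theorem swRow_of_ne (x : R → Finset C) (a b : R) (j j' : C) (k : R) (ha : k ≠ a) (hb : k ≠ b) :
    swRow x a b j j' k = x k := by
  unfold swRow
  simp [ha, hb]

theorem agreeOff_swRow (W : Finset R) (x : R → Finset C) (a b : R) (j j' : C)
    (ha : a ∈ W) (hb : b ∈ W) : AgreeOff W x (swRow x a b j j') := by
  intro k hk
  rw [swRow_of_ne]
  · rintro rfl; exact hk ha
  · rintro rfl; exact hk hb

theorem agreeOff_of_adjIn {W : Finset R} {x y : R → Finset C} (h : AdjIn W x y) :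
    AgreeOff W x y := by
  obtain ⟨a, b, j, j', ha, hb, -, rfl⟩ := h
  exact agreeOff_swRow W x a b j j' ha hb

/-- The reverse of a switch is a switch. -/
theorem swOK_swRow {x : R → Finset C} {a b : R} {j j' : C} (h : SwOK x a b j j') :
    SwOK (swRow x a b j j') a b j' j ∧ swRow (swRow x a b j j') a b j' j = x := by
  obtain ⟨hab, hjj, h1, h2, h3, h4⟩ := h
  refine ⟨⟨hab, hjj.symm, ?_, ?_, ?_, ?_⟩, ?_⟩
  · rw [mem_swRow]; simp [hab]
  · rw [mem_swRow]; simp [hab, hjj]
  · rw [mem_swRow]; simp [hjj.symm]
  · rw [mem_swRow]; simp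
  · funext k
    ext m
    rw [mem_swRow]
    by_cases hb : k = b
    · subst hb
      rw [if_pos rfl, mem_swRow, if_pos rfl]
      constructor
      · rintro (rfl | ⟨hm, rfl | ⟨-, hm'⟩⟩)
        · exact h4
        · exact absurd rfl hm
        · exact hm'
      · intro hm
        by_cases hmj : m = j'
        · exact Or.inl hmj
        · refine Or.inr ⟨?_, Or.inr ⟨hmj, hm⟩⟩
          rintro rfl
          exact h3 hm
    · rw [if_neg hb]
      by_cases ha : k = a
      · subst ha
        rw [if_pos rfl, mem_swRow, if_neg hb, if_pos rfl]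
        constructor
        · rintro (rfl | ⟨hm, rfl | ⟨-, hm'⟩⟩)
          · exact h1
          · exact absurd rfl hm
          · exact hm'
        · intro hm
          by_cases hmj : m = j
          · exact Or.inl hmj
          · refine Or.inr ⟨?_, Or.inr ⟨hmj, hm⟩⟩
            rintro rfl
            exact h2 hm
      · rw [if_neg ha, swRow_of_ne _ _ _ _ _ _ ha hb]

theorem adjIn_symm {W : Finset R} {x y : R → Finset C} (h : AdjIn W x y) : AdjIn W y x := by
  obtain ⟨a, b, j, j', ha, hb, hsw, rfl⟩ := h
  exact ⟨a, b, j', j, ha, hb, (swOK_swRow hsw).1, (swOK_swRow hsw).2.symm⟩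

/-! ### exchanging two columns in the rows of `W` -/

/-- Exchange the columns `p`, `q` in all rows of `W`. -/
def colSwap (W : Finset R) (p q : C) (x : R → Finset C) : R → Finset C :=
  fun k => if k ∈ W then (x k).image (Equiv.swap p q) else x k

theorem mem_colSwap (W : Finset R) (p q : C) (x : R → Finset C) (k : R) (m : C) :
    m ∈ colSwap W p q x k ↔ if k ∈ W then Equiv.swap p q m ∈ x k else m ∈ x k := by
  unfold colSwap
  split_ifs with h
  · constructor
    · intro hm
      obtain ⟨a, ha, rfl⟩ := mem_image.1 hm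
      simpa using ha
    · intro hm
      exact mem_image.2 ⟨_, hm, by simp⟩
  · rfl

theorem colSwap_colSwap (W : Finset R) (p q : C) (x : R → Finset C) :
    colSwap W p q (colSwap W p q x) = x := by
  funext k
  ext m
  rw [mem_colSwap]
  split_ifs with h
  · rw [mem_colSwap, if_pos h]
    simp
  · rw [mem_colSwap, if_neg h]

theorem colSwap_of_not_mem (W : Finset R) (p q : C) (x : R → Finset C) (k : R) (h : k ∉ W) :
    colSwap W p q x k = x k := by
  unfold colSwap
  rw [if_neg h]

theorem agreeOff_colSwap (W : Finset R) (p q : C) (x : R → Finset C) :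
    AgreeOff W x (colSwap W p q x) := fun k hk => (colSwap_of_not_mem W p q x k hk).symm

theorem swOK_colSwap {W : Finset R} (p q : C) {x : R → Finset C} {a b : R} {j j' : C}
    (ha : a ∈ W) (hb : b ∈ W) (h : SwOK x a b j j') :
    SwOK (colSwap W p q x) a b (Equiv.swap p q j) (Equiv.swap p q j') := by
  obtain ⟨hab, hjj, h1, h2, h3, h4⟩ := h
  refine ⟨hab, fun h => hjj ((Equiv.swap p q).injective h), ?_, ?_, ?_, ?_⟩
  · rw [mem_colSwap, if_pos ha]; simpa using h1
  · rw [mem_colSwap, if_pos ha]; simpa using h2
  · rw [mem_colSwap, if_pos hb]; simpa using h3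
  · rw [mem_colSwap, if_pos hb]; simpa using h4

theorem colSwap_swRow {W : Finset R} (p q : C) (x : R → Finset C) {a b : R} (j j' : C)
    (ha : a ∈ W) (hb : b ∈ W) :
    colSwap W p q (swRow x a b j j')
      = swRow (colSwap W p q x) a b (Equiv.swap p q j) (Equiv.swap p q j') := by
  funext k
  ext m
  rw [mem_colSwap, mem_swRow]
  by_cases hkb : k = b
  · subst hkb
    rw [if_pos hb, if_pos rfl, mem_swRow, if_pos rfl, mem_colSwap, if_pos hb]
    simp only [Equiv.swap_apply_eq_iff, ne_eq]
  · rw [if_neg hkb]
    by_cases hka : k = a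
    · subst hka
      rw [if_pos ha, if_pos rfl, mem_swRow, if_neg hkb, if_pos rfl, mem_colSwap, if_pos ha]
      simp only [Equiv.swap_apply_eq_iff, ne_eq]
    · rw [if_neg hka]
      by_cases hk : k ∈ W
      · rw [if_pos hk, mem_swRow, if_neg hkb, if_neg hka, mem_colSwap, if_pos hk]
      · rw [if_neg hk, mem_swRow, if_neg hkb, if_neg hka, mem_swRow, if_neg hkb, if_neg hka,
          mem_colSwap, if_neg hk]

theorem adjIn_colSwap {W : Finset R} (p q : C) {x y : R → Finset C} (h : AdjIn W x y) :
    AdjIn W (colSwap W p q x) (colSwap W p q y) := by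
  obtain ⟨a, b, j, j', ha, hb, hsw, rfl⟩ := h
  exact ⟨a, b, _, _, ha, hb, swOK_colSwap p q ha hb hsw, colSwap_swRow p q x j j' ha hb⟩

/-- A switch on the columns `p`, `q` in the rows `a`, `b` is the exchange of these columns. -/
theorem colSwap_eq_swRow {x : R → Finset C} {a b : R} {p q : C} (h : SwOK x a b p q) :
    colSwap {a, b} p q x = swRow x a b p q := by
  obtain ⟨hab, hpq, h1, h2, h3, h4⟩ := h
  funext k
  ext m
  rw [mem_colSwap, mem_swRow]
  by_cases hkb : k = b
  · subst hkb
    rw [if_pos (by simp), if_pos rfl]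
    by_cases hmp : m = p
    · subst hmp; simpa using h4
    · by_cases hmq : m = q
      · subst hmq; simpa [hmp] using h3
      · rw [Equiv.swap_apply_of_ne_of_ne hmp hmq]; simp [hmp, hmq]
  · rw [if_neg hkb]
    by_cases hka : k = a
    · subst hka
      rw [if_pos (by simp), if_pos rfl]
      by_cases hmp : m = p
      · subst hmp; simpa [hpq] using h2
      · by_cases hmq : m = q
        · subst hmq; simpa using h1
        · rw [Equiv.swap_apply_of_ne_of_ne hmp hmq]; simp [hmp, hmq]
    · rw [if_neg hka, if_neg (by simp [hka, hkb])]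

/-- If `p` and `q` lie in the same rows of `W`, exchanging them changes nothing. -/
theorem colSwap_eq_self {W : Finset R} {p q : C} {x : R → Finset C}
    (h : ∀ k ∈ W, (p ∈ x k ↔ q ∈ x k)) : colSwap W p q x = x := by
  funext k
  ext m
  rw [mem_colSwap]
  split_ifs with hk
  · by_cases hmp : m = p
    · subst hmp; simpa using (h k hk).symm
    · by_cases hmq : m = q
      · subst hmq; simpa using (h k hk)
      · rw [Equiv.swap_apply_of_ne_of_ne hmp hmq]
  · rfl

/-! ### column counts inside `W` -/

/-- The number of rows of `W` containing the column `j`. -/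
def wcount (W : Finset R) (x : R → Finset C) (j : C) : ℕ := (W.filter (fun k => j ∈ x k)).card

theorem card_filter_split (W : Finset R) (P : R → Prop) [DecidablePred P] :
    (univ.filter P).card = (W.filter P).card + (univ.filter (fun k => k ∉ W ∧ P k)).card := by
  rw [← card_union_of_disjoint]
  · congr 1
    ext k
    simp only [mem_filter, mem_univ, true_and, mem_union]
    by_cases hk : k ∈ W <;> simp [hk]
  · rw [disjoint_left]
    intro k hk hk'
    simp only [mem_filter, mem_univ, true_and] at hk hk'
    exact hk'.1 hk.1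

theorem wcount_eq_of_agreeOff {W : Finset R} {x u : R → Finset C} (hx : IsTable r c x)
    (hu : IsTable r c u) (h : AgreeOff W x u) (j : C) : wcount W x j = wcount W u j := by
  have h1 := hx.2 j
  have h2 := hu.2 j
  rw [card_filter_split W] at h1 h2
  have e : (univ.filter (fun k => k ∉ W ∧ j ∈ x k)) = univ.filter (fun k => k ∉ W ∧ j ∈ u k) := by
    ext k
    simp only [mem_filter, mem_univ, true_and]
    constructor
    · rintro ⟨hk, hj⟩
      exact ⟨hk, by rw [← h k hk]; exact hj⟩
    · rintro ⟨hk, hj⟩
      exact ⟨hk, by rw [h k hk]; exact hj⟩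
  rw [e] at h1
  unfold wcount
  omega

theorem wcount_colSwap (W : Finset R) (p q : C) (x : R → Finset C) (j : C) :
    wcount W (colSwap W p q x) j = wcount W x (Equiv.swap p q j) := by
  unfold wcount
  congr 1
  apply filter_congr
  intro k hk
  rw [mem_colSwap, if_pos hk]

theorem wcount_pair {a b : R} (hab : a ≠ b) (x : R → Finset C) (j : C) :
    wcount {a, b} x j = (if j ∈ x a then 1 else 0) + (if j ∈ x b then 1 else 0) := by
  unfold wcount
  rw [filter_insert, filter_singleton]
  by_cases h1 : j ∈ x a <;> by_cases h2 : j ∈ x b <;> simp [h1, h2, hab]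

theorem isTable_colSwap {W : Finset R} {p q : C} {x : R → Finset C} (hx : IsTable r c x)
    (h : wcount W x p = wcount W x q) : IsTable r c (colSwap W p q x) := by
  refine ⟨?_, ?_⟩
  · intro k
    unfold colSwap
    split_ifs
    · rw [card_image_of_injective _ (Equiv.swap p q).injective]
      exact hx.1 k
    · exact hx.1 k
  · intro j
    have h1 := hx.2 j
    rw [card_filter_split W] at h1 ⊢
    have e1 : (W.filter (fun k => j ∈ colSwap W p q x k)).card = wcount W x (Equiv.swap p q j) :=
      wcount_colSwap W p q x j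
    have e2 : (univ.filter (fun k => k ∉ W ∧ j ∈ colSwap W p q x k))
        = univ.filter (fun k => k ∉ W ∧ j ∈ x k) := by
      ext k
      simp only [mem_filter, mem_univ, true_and]
      constructor
      · rintro ⟨hk, hj⟩
        exact ⟨hk, by rw [← colSwap_of_not_mem W p q x k hk]; exact hj⟩
      · rintro ⟨hk, hj⟩
        exact ⟨hk, by rw [colSwap_of_not_mem W p q x k hk]; exact hj⟩
    have e3 : wcount W x (Equiv.swap p q j) = wcount W x j := by
      by_cases hjp : j = p
      · subst hjp; rw [Equiv.swap_apply_left]; exact h.symm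
      · by_cases hjq : j = q
        · subst hjq; rw [Equiv.swap_apply_right]; exact h
        · rw [Equiv.swap_apply_of_ne_of_ne hjp hjq]
    rw [e1, e2, e3]
    unfold wcount
    exact h1

/-! ### the column exchange as an involution of the tables -/

/-- The column exchange as a map of tables (the identity when the exchange is not a table). -/
noncomputable def colSwapTab (W : Finset R) (p q : C) (x : Tab r c) : Tab r c :=
  if h : wcount W x.1 p = wcount W x.1 q then ⟨colSwap W p q x.1, isTable_colSwap x.2 h⟩ else x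

theorem colSwapTab_pos {W : Finset R} {p q : C} {x : Tab r c}
    (h : wcount W x.1 p = wcount W x.1 q) : (colSwapTab W p q x).1 = colSwap W p q x.1 := by
  unfold colSwapTab
  rw [dif_pos h]

theorem colSwapTab_neg {W : Finset R} {p q : C} {x : Tab r c}
    (h : ¬ wcount W x.1 p = wcount W x.1 q) : colSwapTab W p q x = x := by
  unfold colSwapTab
  rw [dif_neg h]

theorem colSwapTab_invol (W : Finset R) (p q : C) (x : Tab r c) :
    colSwapTab W p q (colSwapTab W p q x) = x := by
  by_cases h : wcount W x.1 p = wcount W x.1 q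
  · have h' : wcount W (colSwapTab W p q x).1 p = wcount W (colSwapTab W p q x).1 q := by
      rw [colSwapTab_pos h, wcount_colSwap, wcount_colSwap, Equiv.swap_apply_left,
        Equiv.swap_apply_right]
      exact h.symm
    apply Subtype.ext
    rw [colSwapTab_pos h', colSwapTab_pos h, colSwap_colSwap]
  · rw [colSwapTab_neg h, colSwapTab_neg h]

theorem adjIn_colSwapTab {W : Finset R} (p q : C) {x u : Tab r c} (h : AdjIn W x.1 u.1) :
    AdjIn W (colSwapTab W p q x).1 (colSwapTab W p q u).1 := by
  have hc : ∀ j, wcount W x.1 j = wcount W u.1 j :=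
    wcount_eq_of_agreeOff x.2 u.2 (agreeOff_of_adjIn h)
  by_cases hx : wcount W x.1 p = wcount W x.1 q
  · have hu : wcount W u.1 p = wcount W u.1 q := by rw [← hc, ← hc]; exact hx
    rw [colSwapTab_pos hx, colSwapTab_pos hu]
    exact adjIn_colSwap p q h
  · have hu : ¬ wcount W u.1 p = wcount W u.1 q := by rw [← hc, ← hc]; exact hx
    rw [colSwapTab_neg hx, colSwapTab_neg hu]
    exact h

theorem colSwapTab_eq_of_swOK {a b : R} {p q : C} {x y : Tab r c} (hsw : SwOK x.1 a b p q)
    (hy : y.1 = swRow x.1 a b p q) : colSwapTab {a, b} p q x = y := by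
  obtain ⟨hab, hpq, h1, h2, h3, h4⟩ := id hsw
  have h : wcount {a, b} x.1 p = wcount {a, b} x.1 q := by
    rw [wcount_pair hab, wcount_pair hab]
    simp [h1, h2, h3, h4]
  apply Subtype.ext
  rw [colSwapTab_pos h, hy, colSwap_eq_swRow hsw]

/-- The column exchange moves every table of the class by at most one switch. -/
theorem colSwapTab_self_or_adj {a b : R} {p q : C} {x u : Tab r c} (hsw : SwOK x.1 a b p q)
    (hag : AgreeOff {a, b} x.1 u.1) :
    colSwapTab {a, b} p q u = u ∨ AdjIn {a, b} u.1 (colSwapTab {a, b} p q u).1 := by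
  obtain ⟨hab, hpq, h1, h2, h3, h4⟩ := id hsw
  have hc : ∀ j, wcount {a, b} x.1 j = wcount {a, b} u.1 j :=
    wcount_eq_of_agreeOff x.2 u.2 hag
  have hp : wcount {a, b} u.1 p = 1 := by
    rw [← hc, wcount_pair hab]; simp [h1, h3]
  have hq : wcount {a, b} u.1 q = 1 := by
    rw [← hc, wcount_pair hab]; simp [h2, h4]
  have h : wcount {a, b} u.1 p = wcount {a, b} u.1 q := by rw [hp, hq]
  rw [wcount_pair hab] at hp hq
  by_cases hpa : p ∈ u.1 a <;> by_cases hqa : q ∈ u.1 a
  · -- both in row `a`
    have hpb : p ∉ u.1 b := by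
      intro hpb; simp [hpa, hpb] at hp
    have hqb : q ∉ u.1 b := by
      intro hqb; simp [hqa, hqb] at hq
    left
    apply Subtype.ext
    rw [colSwapTab_pos h]
    apply colSwap_eq_self
    intro k hk
    simp only [mem_insert, mem_singleton] at hk
    rcases hk with rfl | rfl
    · simp [hpa, hqa]
    · simp [hpb, hqb]
  · -- `p` in row `a`, `q` in row `b`
    have hpb : p ∉ u.1 b := by
      intro hpb; simp [hpa, hpb] at hp
    have hqb : q ∈ u.1 b := by
      by_contra hqb; simp [hqa, hqb] at hq
    right
    have hsw' : SwOK u.1 a b p q := ⟨hab, hpq, hpa, hqa, hpb, hqb⟩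
    exact ⟨a, b, p, q, by simp, by simp, hsw', by rw [colSwapTab_pos h, colSwap_eq_swRow hsw']⟩
  · -- `q` in row `a`, `p` in row `b`
    have hpb : p ∈ u.1 b := by
      by_contra hpb; simp [hpa, hpb] at hp
    have hqb : q ∉ u.1 b := by
      intro hqb; simp [hqa, hqb] at hq
    right
    have hsw' : SwOK u.1 a b q p := ⟨hab, hpq.symm, hqa, hpa, hqb, hpb⟩
    refine ⟨a, b, q, p, by simp, by simp, hsw', ?_⟩
    rw [colSwapTab_pos h, ← colSwap_eq_swRow hsw']
    unfold colSwap
    rw [Equiv.swap_comm]
  · -- both in row `b`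
    have hpb : p ∈ u.1 b := by
      by_contra hpb; simp [hpa, hpb] at hp
    have hqb : q ∈ u.1 b := by
      by_contra hqb; simp [hqa, hqb] at hq
    left
    apply Subtype.ext
    rw [colSwapTab_pos h]
    apply colSwap_eq_self
    intro k hk
    simp only [mem_insert, mem_singleton] at hk
    rcases hk with rfl | rfl
    · simp [hpa, hqa]
    · simp [hpb, hqb]

/-! ### the pair Laplacian -/

/-- The Laplacian of the switches with rows in `W`. -/
noncomputable def lap (W : Finset R) (f : Tab r c → ℝ) : Tab r c → ℝ :=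
  fun x => ∑ u : Tab r c, if AdjIn W x.1 u.1 then f x - f u else 0

/-- The Laplacian as a linear map. -/
noncomputable def lapL (W : Finset R) : (Tab r c → ℝ) →ₗ[ℝ] (Tab r c → ℝ) where
  toFun := lap W
  map_add' := by
    intro f g
    funext x
    simp only [lap, Pi.add_apply]
    rw [← sum_add_distrib]
    refine sum_congr rfl fun u _ => ?_
    split_ifs <;> ring
  map_smul' := by
    intro a f
    funext x
    simp only [lap, Pi.smul_apply, smul_eq_mul, RingHom.id_apply]
    rw [mul_sum]
    refine sum_congr rfl fun u _ => ?_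
    split_ifs <;> ring

theorem lapL_apply (W : Finset R) (f : Tab r c → ℝ) : lapL W f = lap W f := rfl

theorem sum_adj_swap (W : Finset R) (F : Tab r c → Tab r c → ℝ) :
    ∑ x : Tab r c, ∑ u : Tab r c, (if AdjIn W x.1 u.1 then F x u else 0)
      = ∑ x : Tab r c, ∑ u : Tab r c, (if AdjIn W x.1 u.1 then F u x else 0) := by
  rw [sum_comm]
  refine sum_congr rfl fun x _ => sum_congr rfl fun u _ => ?_
  by_cases h : AdjIn W x.1 u.1
  · rw [if_pos h, if_pos (adjIn_symm h)]
  · rw [if_neg h, if_neg (fun h' => h (adjIn_symm h'))]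

theorem sum_mul_lap (W : Finset R) (f g : Tab r c → ℝ) :
    ∑ x, f x * lap W g x
      = ∑ x : Tab r c, ∑ u : Tab r c, (if AdjIn W x.1 u.1 then f x * g x else 0)
        - ∑ x : Tab r c, ∑ u : Tab r c, (if AdjIn W x.1 u.1 then f x * g u else 0) := by
  rw [← sum_sub_distrib]
  refine sum_congr rfl fun x _ => ?_
  unfold lap
  rw [mul_sum, ← sum_sub_distrib]
  refine sum_congr rfl fun u _ => ?_
  split_ifs <;> ring

theorem lap_symm (W : Finset R) (f g : Tab r c → ℝ) :
    ∑ x, f x * lap W g x = ∑ x, lap W f x * g x := by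
  have hR : ∑ x, lap W f x * g x
      = ∑ x : Tab r c, ∑ u : Tab r c, (if AdjIn W x.1 u.1 then f x * g x else 0)
        - ∑ x : Tab r c, ∑ u : Tab r c, (if AdjIn W x.1 u.1 then f u * g x else 0) := by
    rw [← sum_sub_distrib]
    refine sum_congr rfl fun x _ => ?_
    unfold lap
    rw [sum_mul, ← sum_sub_distrib]
    refine sum_congr rfl fun u _ => ?_
    split_ifs <;> ring
  rw [sum_mul_lap, hR, sum_adj_swap W (fun x u => f x * g u)]

theorem lap_energy (W : Finset R) (f : Tab r c → ℝ) :
    ∑ x, f x * lap W f x = energyIn W f / 2 := by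
  have hE : energyIn W f
      = ∑ x : Tab r c, ∑ u : Tab r c, (if AdjIn W x.1 u.1 then f x * f x else 0)
        - 2 * ∑ x : Tab r c, ∑ u : Tab r c, (if AdjIn W x.1 u.1 then f x * f u else 0)
        + ∑ x : Tab r c, ∑ u : Tab r c, (if AdjIn W x.1 u.1 then f u * f u else 0) := by
    unfold energyIn
    rw [mul_sum, ← sum_sub_distrib, ← sum_add_distrib]
    refine sum_congr rfl fun x _ => ?_
    rw [mul_sum, ← sum_sub_distrib, ← sum_add_distrib]
    refine sum_congr rfl fun u _ => ?_
    split_ifs <;> ring
  rw [sum_mul_lap, hE, ← sum_adj_swap W (fun x u => f x * f x)]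
  ring

/-! ### the maximum principle -/

theorem lap_diff_ge {a b : R} {p q : C} {x y : Tab r c} (hsw : SwOK x.1 a b p q)
    (hy : y.1 = swRow x.1 a b p q) (v : Tab r c → ℝ)
    (hmax : ∀ z u : Tab r c, AdjIn {a, b} z.1 u.1 → v z - v u ≤ v x - v y)
    (hM : 0 ≤ v x - v y) :
    2 * (v x - v y) ≤ lap {a, b} v x - lap {a, b} v y := by
  have hinv : Function.Involutive (colSwapTab (r := r) (c := c) {a, b} p q) :=
    colSwapTab_invol {a, b} p q
  have hΦx : colSwapTab {a, b} p q x = y := colSwapTab_eq_of_swOK hsw hy
  have hΦy : colSwapTab {a, b} p q y = x := by rw [← hΦx, hinv x]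
  have hadjxy : AdjIn {a, b} x.1 y.1 := ⟨a, b, p, q, by simp, by simp, hsw, hy⟩
  have hiff : ∀ u : Tab r c,
      AdjIn {a, b} y.1 (colSwapTab {a, b} p q u).1 ↔ AdjIn {a, b} x.1 u.1 := by
    intro u
    constructor
    · intro h
      have h' := adjIn_colSwapTab p q h
      rw [hΦy, hinv u] at h'
      exact h'
    · intro h
      have h' := adjIn_colSwapTab p q h
      rw [hΦx] at h'
      exact h'
  have h1 : lap {a, b} v y
      = ∑ u : Tab r c, if AdjIn {a, b} x.1 u.1 then v y - v (colSwapTab {a, b} p q u) else 0 := by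
    unfold lap
    rw [← Equiv.sum_comp (hinv.toPerm _)]
    refine sum_congr rfl fun u _ => ?_
    show (if AdjIn {a, b} y.1 (colSwapTab {a, b} p q u).1
        then v y - v (colSwapTab {a, b} p q u) else 0) = _
    by_cases h : AdjIn {a, b} x.1 u.1
    · rw [if_pos h, if_pos ((hiff u).2 h)]
    · rw [if_neg h, if_neg (fun h' => h ((hiff u).1 h'))]
  have h2 : lap {a, b} v x - lap {a, b} v y
      = ∑ u : Tab r c, if AdjIn {a, b} x.1 u.1
          then (v x - v y) - (v u - v (colSwapTab {a, b} p q u)) else 0 := by
    rw [h1]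
    unfold lap
    rw [← sum_sub_distrib]
    refine sum_congr rfl fun u _ => ?_
    split_ifs <;> ring
  rw [h2]
  have hnn : ∀ u ∈ (univ : Finset (Tab r c)),
      0 ≤ (if AdjIn {a, b} x.1 u.1
          then (v x - v y) - (v u - v (colSwapTab {a, b} p q u)) else 0) := by
    intro u _
    split_ifs with h
    · rcases colSwapTab_self_or_adj (p := p) (q := q) hsw (agreeOff_of_adjIn h) with h' | h'
      · rw [h']
        linarith
      · have := hmax u _ h'
        linarith
    · exact le_refl 0
  have hy' := single_le_sum hnn (mem_univ y)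
  rw [if_pos hadjxy, hΦy] at hy'
  linarith

/-- An eigenfunction of the pair Laplacian with eigenvalue `< 2` is constant along switches. -/
theorem lap_eigen_invariant (a b : R) (hab : a ≠ b) (v : Tab r c → ℝ) (μ : ℝ) (hμ : μ < 2)
    (hv : ∀ x, lap {a, b} v x = μ * v x) :
    ∀ x u : Tab r c, AdjIn {a, b} x.1 u.1 → v x = v u := by
  by_contra hcon
  obtain ⟨x0, hcon⟩ := not_forall.1 hcon
  obtain ⟨u0, hcon⟩ := not_forall.1 hcon
  obtain ⟨hadj0, hne0⟩ := Classical.not_imp.1 hcon
  set P : Finset (Tab r c × Tab r c) := univ.filter (fun z => AdjIn {a, b} z.1.1 z.2.1) with hP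
  have hPne : P.Nonempty := ⟨(x0, u0), by simp [hP, hadj0]⟩
  obtain ⟨z, hz, hmax⟩ := P.exists_max_image (fun z => v z.1 - v z.2) hPne
  have hzadj : AdjIn {a, b} z.1.1 z.2.1 := by simpa [hP] using hz
  have hmax' : ∀ x u : Tab r c, AdjIn {a, b} x.1 u.1 → v x - v u ≤ v z.1 - v z.2 :=
    fun x u h => hmax (x, u) (by simp [hP, h])
  have hpos : 0 < v z.1 - v z.2 := by
    rcases lt_or_gt_of_ne hne0 with h | h
    · have := hmax' u0 x0 (adjIn_symm hadj0)
      linarith
    · have := hmax' x0 u0 hadj0
      linarith
  obtain ⟨a', b', p, q, ha', hb', hsw, hy⟩ := hzadj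
  have hab' : a' ≠ b' := hsw.1
  have hW : ({a, b} : Finset R) = {a', b'} := by
    simp only [mem_insert, mem_singleton] at ha' hb'
    rcases ha' with rfl | rfl <;> rcases hb' with rfl | rfl
    · exact absurd rfl hab'
    · rfl
    · exact pair_comm _ _
    · exact absurd rfl hab'
  rw [hW] at hmax' hv
  have key := lap_diff_ge hsw hy v hmax' hpos.le
  rw [hv, hv] at key
  nlinarith

/-! ### the Johnson level -/

/-- The functions invariant under re-sampling the rows of `W`. -/
noncomputable def invSub (W : Finset R) : Submodule ℝ (Tab r c → ℝ) where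
  carrier := {v | avg W v = v}
  add_mem' := by
    intro f g hf hg
    have hf' : avg W f = f := hf
    have hg' : avg W g = g := hg
    show avg W (f + g) = f + g
    rw [avg_add, hf', hg']
  zero_mem' := by
    show avg W (0 : Tab r c → ℝ) = 0
    have := avg_smul (r := r) (c := c) W 0 0
    simpa using this
  smul_mem' := by
    intro a f hf
    have hf' : avg W f = f := hf
    show avg W (a • f) = a • f
    rw [avg_smul, hf']

end Johnson

/-- **M4 JOHNSON.** The pair level: the switches inside two rows have Poincaré constant `2`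
on every class of the pair (the energy counts ordered pairs, hence the factor `4`). -/
theorem johnson (i i' : R) (hii : i ≠ i') (f : Tab r c → ℝ) :
    4 * (ip f f - ip f (avg {i, i'} f)) ≤ energyIn {i, i'} f := by
  set W : Finset R := {i, i'} with hW
  set g : Tab r c → ℝ := f - avg W f with hg
  have hM : ∀ f g : Tab r c → ℝ,
      ∑ x, f x * (-Johnson.lapL W) g x = ∑ x, (-Johnson.lapL W) f x * g x := by
    intro f g
    simp only [LinearMap.neg_apply, Johnson.lapL_apply, Pi.neg_apply, mul_neg, neg_mul, sum_neg_distrib]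
    rw [Johnson.lap_symm]
  have hK : ∀ (μ : ℝ) (v : Tab r c → ℝ), v ≠ 0 → (-Johnson.lapL W) v = μ • v → -2 < μ →
      v ∈ Johnson.invSub (r := r) (c := c) W := by
    intro μ v _ hv hμ
    show avg W v = v
    rw [avg_eq_self_iff]
    intro x y hxy
    have hv' : ∀ x, Johnson.lap W v x = (-μ) * v x := by
      intro x
      have := congrFun hv x
      simp only [LinearMap.neg_apply, Johnson.lapL_apply, Pi.neg_apply, Pi.smul_apply, smul_eq_mul]
        at this
      linarith
    have hadj : ∀ x u : Tab r c, AdjIn W x.1 u.1 → v x = v u :=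
      Johnson.lap_eigen_invariant i i' hii v (-μ) (by linarith) hv'
    have hreach : ∀ y : Tab r c,
        Relation.ReflTransGen (fun u v : Tab r c => AdjIn W u.1 v.1) x y → v x = v y := by
      intro y hc
      induction hc with
      | refl => rfl
      | tail _ h ih => rw [ih]; exact hadj _ _ h
    exact hreach y (conn W x y hxy)
  have hgK : ∀ v ∈ Johnson.invSub (r := r) (c := c) W, ∑ x, v x * g x = 0 := by
    intro v hv
    have hv' : avg W v = v := hv
    have h1 := avg_symm W v f
    rw [hv'] at h1
    unfold ip at h1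
    simp only [hg, Pi.sub_apply, mul_sub, sum_sub_distrib]
    linarith
  have hspec := spectral_le (-Johnson.lapL W) hM (-2) (Johnson.invSub W) hK g hgK
  have e1 : ∑ x, g x * (-Johnson.lapL W) g x = -(energyIn W g / 2) := by
    simp only [LinearMap.neg_apply, Johnson.lapL_apply, Pi.neg_apply, mul_neg, sum_neg_distrib]
    rw [Johnson.lap_energy]
  have e2 : energyIn W g = energyIn W f := by
    unfold energyIn
    refine sum_congr rfl fun x _ => sum_congr rfl fun y _ => ?_
    split_ifs with h
    · have := avg_apply_of_agree W f x y (Johnson.agreeOff_of_adjIn h)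
      simp only [hg, Pi.sub_apply, this]
      ring
    · rfl
  have e3 : ∑ x, g x ^ 2 = ip f f - ip f (avg W f) := by
    have h1 := avg_symm W f (avg W f)
    rw [avg_idem] at h1
    unfold ip at h1 ⊢
    have : ∀ x ∈ (univ : Finset (Tab r c)), g x ^ 2
        = f x * f x - 2 * (f x * avg W f x) + avg W f x * avg W f x := by
      intro x _
      simp only [hg, Pi.sub_apply]
      ring
    rw [sum_congr rfl this, sum_add_distrib, sum_sub_distrib, ← mul_sum, h1]
    ring
  rw [e1, e2, e3] at hspec
  linarith

end Vale.Agent.Lib.P335.Bip
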