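import Vale.Agent.Lib.P335.Bip.Conn

/-!
# Parametrisation of a pair class (problem P335, bipartite model)

For two rows `j ≠ k` of a table `x`, the tables that agree with `x` outside the rows `j`, `k`
are exactly the tables `resplit x j k T`: the columns lying in both rows stay in both rows, and
the columns lying in exactly one of the two rows (`pairDiff x j k`) are split again, the part
`T` (of the size of `x j \ x k`) going to row `j` and the rest to row `k`.

Main statements: `isTable_resplit`, `eq_resplit_of_agree`, `sum_cls_pair`, `card_cls_pair`.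
-/

namespace Vale.Agent.Lib.P335.Bip

open Finset
open Classical

variable {R C : Type} [Fintype R] [DecidableEq R] [Fintype C] [DecidableEq C]
variable {r : R → ℕ} {c : C → ℕ}

/-- The columns lying in exactly one of the rows `j`, `k` of `x`. -/
def pairDiff (x : R → Finset C) (j k : R) : Finset C := (x j \ x k) ∪ (x k \ x j)

/-- Split the columns of `pairDiff x j k` again: `T` goes to row `j`, the rest to row `k`. -/
def resplit (x : R → Finset C) (j k : R) (T : Finset C) : R → Finset C :=
  Function.update (Function.update x j ((x j ∩ x k) ∪ T)) k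
    ((x j ∩ x k) ∪ (pairDiff x j k \ T))

omit [Fintype R] [DecidableEq R] [Fintype C] in
theorem mem_pairDiff (x : R → Finset C) (j k : R) (t : C) :
    t ∈ pairDiff x j k ↔ (t ∈ x j ∧ t ∉ x k) ∨ (t ∈ x k ∧ t ∉ x j) := by
  simp [pairDiff]

omit [Fintype R] [Fintype C] in
theorem resplit_apply_left (x : R → Finset C) {j k : R} (hjk : j ≠ k) (T : Finset C) :
    resplit x j k T j = (x j ∩ x k) ∪ T := by
  unfold resplit
  rw [Function.update_of_ne hjk, Function.update_self]

omit [Fintype R] [Fintype C] in
theorem resplit_apply_right (x : R → Finset C) (j k : R) (T : Finset C) :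
    resplit x j k T k = (x j ∩ x k) ∪ (pairDiff x j k \ T) := by
  unfold resplit
  rw [Function.update_self]

omit [Fintype R] [Fintype C] in
theorem resplit_apply_of_ne (x : R → Finset C) {i j k : R} (hi : i ≠ j) (hi' : i ≠ k)
    (T : Finset C) : resplit x j k T i = x i := by
  unfold resplit
  rw [Function.update_of_ne hi', Function.update_of_ne hi]

omit [Fintype R] [Fintype C] in
theorem agreeOff_resplit (x : R → Finset C) (j k : R) (T : Finset C) :
    AgreeOff {j, k} x (resplit x j k T) := by
  intro i hi
  have hij : i ≠ j := by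
    rintro rfl
    exact hi (by simp)
  have hik : i ≠ k := by
    rintro rfl
    exact hi (by simp)
  rw [resplit_apply_of_ne x hij hik]

omit [Fintype R] [DecidableEq R] [Fintype C] in
theorem card_pairDiff (x : R → Finset C) (j k : R) :
    (pairDiff x j k).card = (x j \ x k).card + (x k \ x j).card := by
  unfold pairDiff
  apply Finset.card_union_of_disjoint
  rw [Finset.disjoint_left]
  intro t h1 h2
  exact (Finset.mem_sdiff.1 h1).2 (Finset.mem_sdiff.1 h2).1

omit [Fintype R] [DecidableEq R] [Fintype C] in
theorem disjoint_inter_of_subset_pairDiff (x : R → Finset C) (j k : R) {T : Finset C}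
    (hT : T ⊆ pairDiff x j k) : Disjoint (x j ∩ x k) T := by
  rw [Finset.disjoint_left]
  intro t h1 h2
  have h3 := (mem_pairDiff x j k t).1 (hT h2)
  obtain ⟨h4, h5⟩ := Finset.mem_inter.1 h1
  rcases h3 with ⟨_, h6⟩ | ⟨_, h6⟩
  · exact h6 h5
  · exact h6 h4

omit [Fintype R] [DecidableEq R] [Fintype C] in
theorem resplit_count (x : R → Finset C) (j k : R) {T : Finset C} (hT : T ⊆ pairDiff x j k)
    (t : C) :
    (if t ∈ (x j ∩ x k) ∪ (pairDiff x j k \ T) then 1 else 0)
        + (if t ∈ (x j ∩ x k) ∪ T then 1 else 0)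
      = (if t ∈ x k then 1 else 0) + (if t ∈ x j then (1 : ℕ) else 0) := by
  have hD : t ∈ T → (t ∈ x j ∧ t ∉ x k) ∨ (t ∈ x k ∧ t ∉ x j) :=
    fun h => (mem_pairDiff x j k t).1 (hT h)
  by_cases hj : t ∈ x j <;> by_cases hk : t ∈ x k <;> by_cases hTt : t ∈ T <;>
    simp_all [mem_pairDiff]

omit [Fintype C] in
/-- Re-splitting a table gives a table. -/
theorem isTable_resplit {x : R → Finset C} (hx : IsTable r c x) {j k : R} (hjk : j ≠ k)
    {T : Finset C} (hT : T ∈ powersetCard (x j \ x k).card (pairDiff x j k)) :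
    IsTable r c (resplit x j k T) := by
  obtain ⟨hsub, hcard⟩ := Finset.mem_powersetCard.1 hT
  constructor
  · intro i
    by_cases hik : i = k
    · subst hik
      rw [resplit_apply_right, ← hx.1 i]
      have hdisj : Disjoint (x j ∩ x i) (pairDiff x j i \ T) :=
        disjoint_inter_of_subset_pairDiff x j i Finset.sdiff_subset
      rw [Finset.card_union_of_disjoint hdisj, Finset.card_sdiff_of_subset hsub, hcard,
        card_pairDiff]
      have h1 := Finset.card_inter_add_card_sdiff (x i) (x j)
      rw [Finset.inter_comm] at h1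
      omega
    · by_cases hij : i = j
      · subst hij
        rw [resplit_apply_left x hjk, ← hx.1 i,
          Finset.card_union_of_disjoint (disjoint_inter_of_subset_pairDiff x i k hsub), hcard]
        exact Finset.card_inter_add_card_sdiff (x i) (x k)
      · rw [resplit_apply_of_ne x hij hik]; exact hx.1 i
  · intro t
    rw [← hx.2 t, Finset.card_filter, Finset.card_filter]
    have h2 : k ∈ (Finset.univ : Finset R) := Finset.mem_univ k
    have h1 : j ∈ (Finset.univ : Finset R).erase k :=
      Finset.mem_erase.2 ⟨hjk, Finset.mem_univ j⟩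
    rw [← Finset.add_sum_erase _ _ h2, ← Finset.add_sum_erase _ _ h1,
      ← Finset.add_sum_erase (Finset.univ : Finset R) (fun i => if t ∈ x i then 1 else 0) h2,
      ← Finset.add_sum_erase ((Finset.univ : Finset R).erase k)
        (fun i => if t ∈ x i then 1 else 0) h1]
    have hrest : ∑ i ∈ ((Finset.univ : Finset R).erase k).erase j,
        (if t ∈ resplit x j k T i then 1 else 0)
        = ∑ i ∈ ((Finset.univ : Finset R).erase k).erase j, (if t ∈ x i then 1 else 0) := by
      apply Finset.sum_congr rfl
      intro i hi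
      have hij : i ≠ j := (Finset.mem_erase.1 hi).1
      have hik : i ≠ k := (Finset.mem_erase.1 (Finset.mem_erase.1 hi).2).1
      rw [resplit_apply_of_ne x hij hik]
    rw [hrest, resplit_apply_right, resplit_apply_left x hjk]
    have e := resplit_count x j k hsub t
    omega

omit [Fintype C] in
/-- For a table `y` agreeing with `x` outside the rows `j`, `k`, every column lies in as many
of the rows `j`, `k` of `y` as of `x`. -/
theorem pair_count_of_agree (x y : Tab r c) {j k : R} (hjk : j ≠ k)
    (h : AgreeOff {j, k} x.1 y.1) (t : C) :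
    (if t ∈ x.1 j then 1 else 0) + (if t ∈ x.1 k then 1 else 0)
      = (if t ∈ y.1 j then 1 else 0) + (if t ∈ y.1 k then (1 : ℕ) else 0) := by
  have h1 := colCountOn_eq {j, k} x y h t
  rw [Finset.card_filter, Finset.card_filter, Finset.sum_pair hjk, Finset.sum_pair hjk] at h1
  exact h1

omit [Fintype C] in
/-- Every table of the pair class of `x` is a re-split of `x`. -/
theorem eq_resplit_of_agree (x y : Tab r c) {j k : R} (hjk : j ≠ k)
    (h : AgreeOff {j, k} x.1 y.1) :
    y.1 j \ y.1 k ∈ powersetCard (x.1 j \ x.1 k).card (pairDiff x.1 j k) ∧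
      y.1 = resplit x.1 j k (y.1 j \ y.1 k) := by
  have key : ∀ t, (t ∈ y.1 j ∧ t ∈ y.1 k ↔ t ∈ x.1 j ∧ t ∈ x.1 k) ∧
      (t ∈ y.1 j ∨ t ∈ y.1 k ↔ t ∈ x.1 j ∨ t ∈ x.1 k) := by
    intro t
    have hcount := pair_count_of_agree x y hjk h t
    by_cases h1 : t ∈ x.1 j <;> by_cases h2 : t ∈ x.1 k <;> by_cases h3 : t ∈ y.1 j <;>
      by_cases h4 : t ∈ y.1 k <;> simp [h1, h2, h3, h4] at hcount ⊢
  have hinter : y.1 j ∩ y.1 k = x.1 j ∩ x.1 k := by
    ext t
    simp only [Finset.mem_inter]
    exact (key t).1
  have hsub : y.1 j \ y.1 k ⊆ pairDiff x.1 j k := by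
    intro t ht
    obtain ⟨h3, h4⟩ := Finset.mem_sdiff.1 ht
    rw [mem_pairDiff]
    have k1 := (key t).1
    have k2 := (key t).2
    tauto
  have hcard : (y.1 j \ y.1 k).card = (x.1 j \ x.1 k).card := by
    have e1 := Finset.card_inter_add_card_sdiff (y.1 j) (y.1 k)
    have e2 := Finset.card_inter_add_card_sdiff (x.1 j) (x.1 k)
    rw [hinter] at e1
    have e3 : (y.1 j).card = (x.1 j).card := by rw [x.2.1 j, y.2.1 j]
    omega
  refine ⟨Finset.mem_powersetCard.2 ⟨hsub, hcard⟩, ?_⟩
  funext i
  by_cases hik : i = k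
  · subst hik
    rw [resplit_apply_right]
    ext t
    simp only [Finset.mem_union, Finset.mem_inter, Finset.mem_sdiff, mem_pairDiff]
    have k1 := (key t).1
    have k2 := (key t).2
    tauto
  · by_cases hij : i = j
    · subst hij
      rw [resplit_apply_left x.1 hjk]
      ext t
      simp only [Finset.mem_union, Finset.mem_inter, Finset.mem_sdiff]
      have k1 := (key t).1
      have k2 := (key t).2
      tauto
    · rw [resplit_apply_of_ne x.1 hij hik]
      exact (h i (by simp [hij, hik])).symm

omit [Fintype R] [Fintype C] in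
/-- The part `T` is recovered from the re-split table. -/
theorem resplit_sdiff (x : R → Finset C) {j k : R} (hjk : j ≠ k) {T : Finset C}
    (hT : T ⊆ pairDiff x j k) : resplit x j k T j \ resplit x j k T k = T := by
  rw [resplit_apply_left x hjk, resplit_apply_right]
  ext t
  simp only [Finset.mem_union, Finset.mem_inter, Finset.mem_sdiff, mem_pairDiff]
  have hD : t ∈ T → (t ∈ x j ∧ t ∉ x k) ∨ (t ∈ x k ∧ t ∉ x j) :=
    fun h => (mem_pairDiff x j k t).1 (hT h)
  tauto

/-- Sums over a pair class are sums over the re-splits. -/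
theorem sum_cls_pair (x : Tab r c) {j k : R} (hjk : j ≠ k) (G : (R → Finset C) → ℝ) :
    ∑ y ∈ cls {j, k} x, G y.1
      = ∑ T ∈ powersetCard (x.1 j \ x.1 k).card (pairDiff x.1 j k), G (resplit x.1 j k T) := by
  refine Finset.sum_bij' (fun y _ => y.1 j \ y.1 k)
    (fun T hT => (⟨resplit x.1 j k T, isTable_resplit x.2 hjk hT⟩ : Tab r c)) ?_ ?_ ?_ ?_ ?_
  · intro y hy
    have hag : AgreeOff {j, k} x.1 y.1 := (Finset.mem_filter.1 hy).2
    exact (eq_resplit_of_agree x y hjk hag).1
  · intro T hT
    exact Finset.mem_filter.2 ⟨Finset.mem_univ _, agreeOff_resplit x.1 j k T⟩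
  · intro y hy
    have hag : AgreeOff {j, k} x.1 y.1 := (Finset.mem_filter.1 hy).2
    exact Subtype.ext (eq_resplit_of_agree x y hjk hag).2.symm
  · intro T hT
    exact resplit_sdiff x.1 hjk (Finset.mem_powersetCard.1 hT).1
  · intro y hy
    have hag : AgreeOff {j, k} x.1 y.1 := (Finset.mem_filter.1 hy).2
    rw [← (eq_resplit_of_agree x y hjk hag).2]

/-- The size of a pair class. -/
theorem card_cls_pair (x : Tab r c) {j k : R} (hjk : j ≠ k) :
    (cls {j, k} x).card = Nat.choose (pairDiff x.1 j k).card (x.1 j \ x.1 k).card := by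
  have h := sum_cls_pair x hjk (fun _ => (1 : ℝ))
  simp only [Finset.sum_const, nsmul_eq_mul, mul_one, Finset.card_powersetCard] at h
  exact_mod_cast h

end Vale.Agent.Lib.P335.Bip
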