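import Vale.Agent.Lib.P335.Bip.Johnson
import Vale.Agent.Lib.P335.Bip.Resplit

/-!
# The full Johnson gap at the pair level

For two rows `i ≠ i'` the switches inside these rows form, on the class of a table `x`, a
Johnson graph on `m = |pairDiff x i i'|` points (the columns lying in exactly one of the two
rows).  Its spectral gap is `m`:
`2 * ∑ x, m(x) * (f x - avg {i,i'} f x)^2 ≤ energyIn {i,i'} f` (ordered pairs).
The proof refines the maximum principle of `Johnson.lean`: the exchange of the two columns
of a switch fixes exactly `m - 2` neighbours.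
-/

namespace Vale.Agent.Lib.P335.Bip

open Finset
open Classical

set_option linter.unusedSectionVars false

variable {R C : Type} [Fintype R] [DecidableEq R] [Fintype C] [DecidableEq C]
variable {r : R → ℕ} {c : C → ℕ}

namespace Johnson

/-- `pairDiff` is constant on the classes of the pair. -/
theorem pairDiff_eq_of_agree (x y : Tab r c) {j k : R} (hjk : j ≠ k)
    (h : AgreeOff {j, k} x.1 y.1) : pairDiff y.1 j k = pairDiff x.1 j k := by
  ext t
  have h1 := pair_count_of_agree x y hjk h t
  rw [mem_pairDiff, mem_pairDiff]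
  by_cases a1 : t ∈ x.1 j <;> by_cases a2 : t ∈ x.1 k <;> by_cases a3 : t ∈ y.1 j <;>
    by_cases a4 : t ∈ y.1 k <;> simp [a1, a2, a3, a4] at h1 ⊢

theorem pairDiff_comm (x : R → Finset C) (j k : R) : pairDiff x j k = pairDiff x k j := by
  unfold pairDiff
  rw [union_comm]

/-- A table fixed by the column exchange. -/
theorem colSwapTab_fix {W : Finset R} {p q : C} {u : Tab r c}
    (h : ∀ k ∈ W, (p ∈ u.1 k ↔ q ∈ u.1 k)) : colSwapTab W p q u = u := by
  by_cases hw : wcount W u.1 p = wcount W u.1 q
  · apply Subtype.ext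
    rw [colSwapTab_pos hw, colSwap_eq_self h]
  · exact colSwapTab_neg hw

/-- The refined maximum principle: the difference of the Laplacian along an extremal switch
is at least `m` times the extremal difference. -/
theorem lap_diff_ge_full {a b : R} {p q : C} {x y : Tab r c} (hsw : SwOK x.1 a b p q)
    (hy : y.1 = swRow x.1 a b p q) (v : Tab r c → ℝ)
    (hmax : ∀ z u : Tab r c, AdjIn {a, b} z.1 u.1 → v z - v u ≤ v x - v y)
    (hM : 0 ≤ v x - v y) :
    ((pairDiff x.1 a b).card : ℝ) * (v x - v y) ≤ lap {a, b} v x - lap {a, b} v y := by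
  obtain ⟨hab, hpq, hp1, hq1, hp2, hq2⟩ := id hsw
  have hinv : Function.Involutive (colSwapTab (r := r) (c := c) {a, b} p q) :=
    colSwapTab_invol {a, b} p q
  have hΦx : colSwapTab {a, b} p q x = y := colSwapTab_eq_of_swOK hsw hy
  have hΦy : colSwapTab {a, b} p q y = x := by rw [← hΦx, hinv x]
  have hiff : ∀ u : Tab r c,
      AdjIn {a, b} y.1 (colSwapTab {a, b} p q u).1 ↔ AdjIn {a, b} x.1 u.1 := by
    intro u
    constructor
    · intro h
      have h' := adjIn_colSwapTab p q h
      rw [hΦy, hinv u] at h'
      exact h'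
    · intro h
      have h' := adjIn_colSwapTab p q h
      rw [hΦx] at h'
      exact h'
  have h1 : lap {a, b} v y
      = ∑ u : Tab r c, if AdjIn {a, b} x.1 u.1 then v y - v (colSwapTab {a, b} p q u) else 0 := by
    unfold lap
    rw [← Equiv.sum_comp (hinv.toPerm _)]
    refine sum_congr rfl fun u _ => ?_
    show (if AdjIn {a, b} y.1 (colSwapTab {a, b} p q u).1
        then v y - v (colSwapTab {a, b} p q u) else 0) = _
    by_cases h : AdjIn {a, b} x.1 u.1
    · rw [if_pos h, if_pos ((hiff u).2 h)]
    · rw [if_neg h, if_neg (fun h' => h ((hiff u).1 h'))]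
  -- the summand
  set g : Tab r c → ℝ := fun u => (v x - v y) - (v u - v (colSwapTab {a, b} p q u)) with hg
  have h2 : lap {a, b} v x - lap {a, b} v y
      = ∑ u ∈ univ.filter (fun u : Tab r c => AdjIn {a, b} x.1 u.1), g u := by
    rw [h1, sum_filter]
    unfold lap
    rw [← sum_sub_distrib]
    refine sum_congr rfl fun u _ => ?_
    simp only [hg]
    split_ifs <;> ring
  have hgnn : ∀ u : Tab r c, AdjIn {a, b} x.1 u.1 → 0 ≤ g u := by
    intro u h
    simp only [hg]
    rcases colSwapTab_self_or_adj (p := p) (q := q) hsw (agreeOff_of_adjIn h) with h' | h'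
    · rw [h']
      linarith
    · have := hmax u _ h'
      linarith
  -- the neighbours of `x`, parametrised by the two columns of the switch
  set A : Finset C := x.1 a \ x.1 b with hA
  set B : Finset C := x.1 b \ x.1 a with hB
  have hswAB : ∀ jj ∈ A ×ˢ B, SwOK x.1 a b jj.1 jj.2 := by
    intro jj hjj
    obtain ⟨h1, h2⟩ := mem_product.1 hjj
    obtain ⟨h3, h4⟩ := mem_sdiff.1 h1
    obtain ⟨h5, h6⟩ := mem_sdiff.1 h2
    exact ⟨hab, fun h => h6 (h ▸ h3), h3, h6, h4, h5⟩
  set φ : C × C → Tab r c := fun jj =>
    if h : SwOK x.1 a b jj.1 jj.2 then ⟨swRow x.1 a b jj.1 jj.2, isTable_swRow x.2 h⟩ else x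
    with hφ
  have hφval : ∀ jj ∈ A ×ˢ B, (φ jj).1 = swRow x.1 a b jj.1 jj.2 := by
    intro jj hjj
    simp only [hφ]
    rw [dif_pos (hswAB jj hjj)]
  have hrowa : ∀ (j j' m : C), m ∈ swRow x.1 a b j j' a ↔ (m = j' ∨ (m ≠ j ∧ m ∈ x.1 a)) := by
    intro j j' m
    rw [mem_swRow, if_neg hab, if_pos rfl]
  have hrowb : ∀ (j j' m : C), m ∈ swRow x.1 a b j j' b ↔ (m = j ∨ (m ≠ j' ∧ m ∈ x.1 b)) := by
    intro j j' m
    rw [mem_swRow, if_pos rfl]
  have hinj : Set.InjOn φ (A ×ˢ B : Finset (C × C)) := by
    intro jj hjj kk hkk heq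
    have hjj' := hswAB jj (mem_coe.1 hjj)
    have hkk' := hswAB kk (mem_coe.1 hkk)
    have e : swRow x.1 a b jj.1 jj.2 = swRow x.1 a b kk.1 kk.2 := by
      rw [← hφval jj (mem_coe.1 hjj), ← hφval kk (mem_coe.1 hkk), heq]
    have ea := congrFun e a
    have e2 : jj.2 = kk.2 := by
      have : jj.2 ∈ swRow x.1 a b kk.1 kk.2 a := by
        rw [← ea, hrowa]; exact Or.inl rfl
      rw [hrowa] at this
      rcases this with h | ⟨-, h⟩
      · exact h
      · exact absurd h hjj'.2.2.2.1
    have e1 : jj.1 = kk.1 := by
      have : kk.1 ∉ swRow x.1 a b jj.1 jj.2 a := by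
        rw [ea, hrowa]
        rintro (h | ⟨h, -⟩)
        · exact hkk'.2.1 h
        · exact h rfl
      rw [hrowa] at this
      by_contra hne
      exact this (Or.inr ⟨fun h => hne h.symm, hkk'.2.2.1⟩)
    exact Prod.ext e1 e2
  have hadjφ : ∀ jj ∈ A ×ˢ B, AdjIn {a, b} x.1 (φ jj).1 := by
    intro jj hjj
    exact ⟨a, b, jj.1, jj.2, by simp, by simp, hswAB jj hjj, hφval jj hjj⟩
  have hpA : p ∈ A := mem_sdiff.2 ⟨hp1, hp2⟩
  have hqB : q ∈ B := mem_sdiff.2 ⟨hq2, hq1⟩
  -- termwise lower bound
  have hterm : ∀ jj ∈ A ×ˢ B,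
      (v x - v y) * ((if jj.1 = p then 1 else 0) + (if jj.2 = q then 1 else 0)) ≤ g (φ jj) := by
    intro jj hjj
    have hsw' := hswAB jj hjj
    have hval := hφval jj hjj
    by_cases e1 : jj.1 = p <;> by_cases e2 : jj.2 = q
    · -- the switch itself
      have : φ jj = y := by
        apply Subtype.ext
        rw [hval, hy, e1, e2]
      rw [this, if_pos e1, if_pos e2]
      simp only [hg]
      rw [hΦy]
      linarith
    · -- `p` leaves row `a`, `q` stays in row `b`
      have hfix : colSwapTab {a, b} p q (φ jj) = φ jj := by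
        apply colSwapTab_fix
        intro k hk
        simp only [mem_insert, mem_singleton] at hk
        rcases hk with rfl | rfl
        · rw [hval, hrowa, hrowa, e1]
          have hpj : p ≠ jj.2 := fun h => hsw'.2.2.2.1 (h ▸ hp1)
          have hqj : q ≠ jj.2 := fun h => e2 h.symm
          simp [hpj, hqj, hq1]
        · rw [hval, hrowb, hrowb, e1]
          have hqj : q ≠ jj.2 := fun h => e2 h.symm
          simp [hqj, hq2]
      rw [if_pos e1, if_neg e2]
      simp only [hg]
      rw [hfix]
      linarith
    · -- `q` leaves row `b`, `p` stays in row `a`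
      have hfix : colSwapTab {a, b} p q (φ jj) = φ jj := by
        apply colSwapTab_fix
        intro k hk
        simp only [mem_insert, mem_singleton] at hk
        rcases hk with rfl | rfl
        · rw [hval, hrowa, hrowa, e2]
          have hpj : p ≠ jj.1 := fun h => e1 h.symm
          simp [hpj, hp1]
        · rw [hval, hrowb, hrowb, e2]
          have hpj : p ≠ jj.1 := fun h => e1 h.symm
          have hqj : q ≠ jj.1 := fun h => hq1 (h ▸ hsw'.2.2.1)
          simp [hpj, hqj, hp2]
      rw [if_neg e1, if_pos e2]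
      simp only [hg]
      rw [hfix]
      linarith
    · rw [if_neg e1, if_neg e2]
      have := hgnn (φ jj) (hadjφ jj hjj)
      linarith
  -- evaluate the lower bound
  have hsum : ∑ jj ∈ A ×ˢ B,
      (v x - v y) * ((if jj.1 = p then (1 : ℝ) else 0) + (if jj.2 = q then 1 else 0))
      = ((pairDiff x.1 a b).card : ℝ) * (v x - v y) := by
    rw [← mul_sum, sum_add_distrib, sum_product, sum_product]
    have s1 : ∑ j ∈ A, ∑ _j' ∈ B, (if j = p then (1 : ℝ) else 0) = (B.card : ℝ) := by
      have : ∀ j ∈ A, ∑ _j' ∈ B, (if j = p then (1 : ℝ) else 0)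
          = if j = p then (B.card : ℝ) else 0 := by
        intro j _
        rw [sum_const, nsmul_eq_mul]
        split_ifs <;> simp
      rw [sum_congr rfl this, sum_ite_eq' A p, if_pos hpA]
    have s2 : ∑ _j ∈ A, ∑ j' ∈ B, (if j' = q then (1 : ℝ) else 0) = (A.card : ℝ) := by
      have : ∀ j ∈ A, ∑ j' ∈ B, (if j' = q then (1 : ℝ) else 0) = 1 := by
        intro j _
        rw [sum_ite_eq' B q, if_pos hqB]
      rw [sum_congr rfl this, sum_const, nsmul_eq_mul, mul_one]
    rw [s1, s2, card_pairDiff]
    push_cast
    ring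
  rw [h2, ← hsum]
  calc ∑ jj ∈ A ×ˢ B,
        (v x - v y) * ((if jj.1 = p then (1 : ℝ) else 0) + (if jj.2 = q then 1 else 0))
      ≤ ∑ jj ∈ A ×ˢ B, g (φ jj) := sum_le_sum hterm
    _ = ∑ u ∈ (A ×ˢ B).image φ, g u := (sum_image hinj).symm
    _ ≤ ∑ u ∈ univ.filter (fun u : Tab r c => AdjIn {a, b} x.1 u.1), g u := by
        apply sum_le_sum_of_subset_of_nonneg
        · intro u hu
          obtain ⟨jj, hjj, rfl⟩ := mem_image.1 hu
          exact mem_filter.2 ⟨mem_univ _, hadjφ jj hjj⟩
        · intro u hu _
          exact hgnn u (mem_filter.1 hu).2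

/-- An eigenfunction of the pair Laplacian with eigenvalue below the size `m` of the class
is constant along switches. -/
theorem lap_eigen_invariant_full (a b : R) (hab : a ≠ b) (v : Tab r c → ℝ) (μ : ℝ) (hμ : 0 < μ)
    (hv : ∀ x, lap {a, b} v x = (((pairDiff x.1 a b).card : ℝ) - μ) * v x) :
    ∀ x u : Tab r c, AdjIn {a, b} x.1 u.1 → v x = v u := by
  by_contra hcon
  obtain ⟨x0, hcon⟩ := not_forall.1 hcon
  obtain ⟨u0, hcon⟩ := not_forall.1 hcon
  obtain ⟨hadj0, hne0⟩ := Classical.not_imp.1 hcon
  set P : Finset (Tab r c × Tab r c) := univ.filter (fun z => AdjIn {a, b} z.1.1 z.2.1) with hP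
  have hPne : P.Nonempty := ⟨(x0, u0), by simp [hP, hadj0]⟩
  obtain ⟨z, hz, hmax⟩ := P.exists_max_image (fun z => v z.1 - v z.2) hPne
  have hzadj : AdjIn {a, b} z.1.1 z.2.1 := by simpa [hP] using hz
  have hmax' : ∀ x u : Tab r c, AdjIn {a, b} x.1 u.1 → v x - v u ≤ v z.1 - v z.2 :=
    fun x u h => hmax (x, u) (by simp [hP, h])
  have hpos : 0 < v z.1 - v z.2 := by
    rcases lt_or_gt_of_ne hne0 with h | h
    · have := hmax' u0 x0 (adjIn_symm hadj0)
      linarith
    · have := hmax' x0 u0 hadj0
      linarith
  have hcard : (pairDiff z.2.1 a b).card = (pairDiff z.1.1 a b).card := by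
    rw [pairDiff_eq_of_agree z.1 z.2 hab (agreeOff_of_adjIn hzadj)]
  have hv1 := hv z.1
  have hv2 := hv z.2
  rw [hcard] at hv2
  obtain ⟨a', b', p, q, ha', hb', hsw, hy⟩ := hzadj
  have hab' : a' ≠ b' := hsw.1
  have hW : ({a, b} : Finset R) = {a', b'} ∧
      (pairDiff z.1.1 a b).card = (pairDiff z.1.1 a' b').card := by
    simp only [mem_insert, mem_singleton] at ha' hb'
    rcases ha' with rfl | rfl <;> rcases hb' with rfl | rfl
    · exact absurd rfl hab'
    · exact ⟨rfl, rfl⟩
    · exact ⟨pair_comm _ _, by rw [pairDiff_comm]⟩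
    · exact absurd rfl hab'
  rw [hW.1] at hmax' hv1 hv2
  rw [hW.2] at hv1 hv2
  have key := lap_diff_ge_full hsw hy v hmax' hpos.le
  rw [hv1, hv2] at key
  nlinarith

end Johnson

/-- **The full Johnson gap.** On every class of the pair `{i, i'}` the switches inside the two
rows have spectral gap `m = |pairDiff x i i'|` (ordered pairs in `energyIn`, hence the
factor `2`). -/
theorem johnson_full (i i' : R) (hii : i ≠ i') (f : Tab r c → ℝ) :
    2 * ∑ x : Tab r c, ((pairDiff x.1 i i').card : ℝ) * (f x - avg {i, i'} f x) ^ 2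
      ≤ energyIn {i, i'} f := by
  set W : Finset R := {i, i'} with hW
  set t : Tab r c → ℝ := fun x => ((pairDiff x.1 i i').card : ℝ) with ht
  have htinv : ∀ x y : Tab r c, AgreeOff W x.1 y.1 → t x = t y := by
    intro x y h
    simp only [ht]
    rw [Johnson.pairDiff_eq_of_agree x y hii h]
  -- multiplication by `t` after removing the class mean
  let mL : (Tab r c → ℝ) →ₗ[ℝ] (Tab r c → ℝ) :=
    { toFun := fun f x => t x * (f x - avg W f x)
      map_add' := by
        intro f g
        funext x
        simp only [avg_add, Pi.add_apply]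
        ring
      map_smul' := by
        intro a f
        funext x
        simp only [avg_smul, Pi.smul_apply, smul_eq_mul, RingHom.id_apply]
        ring }
  let Mop : (Tab r c → ℝ) →ₗ[ℝ] (Tab r c → ℝ) := mL - Johnson.lapL W
  have hMop : ∀ (f : Tab r c → ℝ) (x : Tab r c),
      Mop f x = t x * (f x - avg W f x) - Johnson.lap W f x := fun _ _ => rfl
  -- invariant multiples
  have hinvmul : ∀ (h g : Tab r c → ℝ), (∀ x y : Tab r c, AgreeOff W x.1 y.1 → h x = h y) →
      ∑ x, h x * (g x - avg W g x) = 0 := by
    intro h g hh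
    have h1 : avg W h = h := (avg_eq_self_iff W h).mpr hh
    have h2 := avg_symm W h g
    rw [h1] at h2
    unfold ip at h2
    simp only [mul_sub, sum_sub_distrib]
    linarith
  have hsymm : ∀ f g : Tab r c → ℝ, ∑ x, f x * Mop g x = ∑ x, Mop f x * g x := by
    intro f g
    simp only [hMop, mul_sub, sub_mul, sum_sub_distrib]
    rw [Johnson.lap_symm]
    congr 1
    -- `∑ f t (g - avg g) = ∑ t (f - avg f) g`
    have e1 : ∑ x, (f x * (t x * g x) - f x * (t x * avg W g x))
        = ∑ x, (t x * f x) * (g x - avg W g x) := by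
      refine sum_congr rfl fun x _ => ?_
      ring
    have e2 : ∑ x, (t x * f x * g x - t x * avg W f x * g x)
        = ∑ x, (t x * g x) * (f x - avg W f x) := by
      refine sum_congr rfl fun x _ => ?_
      ring
    rw [← sum_sub_distrib, ← sum_sub_distrib, e1, e2]
    -- both equal `∑ t (f - avg f)(g - avg g)`
    have e3 : ∑ x, (t x * f x) * (g x - avg W g x)
        = ∑ x, t x * (f x - avg W f x) * (g x - avg W g x) := by
      have := hinvmul (fun x => t x * avg W f x) g (fun x y h => by
        show t x * avg W f x = t y * avg W f y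
        rw [htinv x y h, avg_apply_of_agree W f x y h])
      have e : ∀ x ∈ (univ : Finset (Tab r c)), (t x * f x) * (g x - avg W g x)
          = t x * (f x - avg W f x) * (g x - avg W g x)
            + (t x * avg W f x) * (g x - avg W g x) := by
        intro x _
        ring
      rw [sum_congr rfl e, sum_add_distrib, this, add_zero]
    have e4 : ∑ x, (t x * g x) * (f x - avg W f x)
        = ∑ x, t x * (f x - avg W f x) * (g x - avg W g x) := by
      have := hinvmul (fun x => t x * avg W g x) f (fun x y h => by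
        show t x * avg W g x = t y * avg W g y
        rw [htinv x y h, avg_apply_of_agree W g x y h])
      have e : ∀ x ∈ (univ : Finset (Tab r c)), (t x * g x) * (f x - avg W f x)
          = t x * (f x - avg W f x) * (g x - avg W g x)
            + (t x * avg W g x) * (f x - avg W f x) := by
        intro x _
        ring
      rw [sum_congr rfl e, sum_add_distrib, this, add_zero]
    rw [e3, e4]
  have hK : ∀ (μ : ℝ) (v : Tab r c → ℝ), v ≠ 0 → Mop v = μ • v → 0 < μ →
      v ∈ (⊥ : Submodule ℝ (Tab r c → ℝ)) := by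
    intro μ v _ hv hμ
    have hv' : ∀ x, t x * (v x - avg W v x) - Johnson.lap W v x = μ * v x := by
      intro x
      have := congrFun hv x
      rw [hMop] at this
      simpa only [Pi.smul_apply, smul_eq_mul] using this
    -- the class means vanish
    have hw : avg W v = 0 := by
      set w := avg W v with hwdef
      have hwinv : ∀ x y : Tab r c, AgreeOff W x.1 y.1 → w x = w y :=
        fun x y h => avg_apply_of_agree W v x y h
      have s1 : ∑ x, w x * (t x * (v x - avg W v x)) = 0 := by
        have := hinvmul (fun x => w x * t x) v (fun x y h => by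
          show w x * t x = w y * t y
          rw [hwinv x y h, htinv x y h])
        rw [← this]
        refine sum_congr rfl fun x _ => ?_
        ring
      have s2 : ∑ x, w x * Johnson.lap W v x = 0 := by
        rw [Johnson.lap_symm]
        have : Johnson.lap W w = 0 := by
          funext x
          unfold Johnson.lap
          apply sum_eq_zero
          intro u _
          split_ifs with h
          · rw [hwinv x u (Johnson.agreeOff_of_adjIn h)]
            simp
          · rfl
        rw [this]
        simp
      have s3 : ∑ x, w x * v x = ∑ x, w x * w x := by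
        have := ip_avg_self W v
        unfold ip at this
        rw [← this]
        refine sum_congr rfl fun x _ => ?_
        ring
      have s4 : ∑ x, w x * (μ * v x) = μ * ∑ x, w x * w x := by
        rw [← s3, mul_sum]
        refine sum_congr rfl fun x _ => ?_
        ring
      have s5 : ∑ x, w x * (t x * (v x - avg W v x)) - ∑ x, w x * Johnson.lap W v x
          = ∑ x, w x * (μ * v x) := by
        rw [← sum_sub_distrib]
        refine sum_congr rfl fun x _ => ?_
        rw [← mul_sub, hv' x]
      rw [s1, s2, s4] at s5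
      have s6 : ∑ x, w x * w x = 0 := by
        have : μ * ∑ x, w x * w x = 0 := by linarith
        rcases mul_eq_zero.1 this with h | h
        · exact absurd h hμ.ne'
        · exact h
      funext x
      have := (sum_eq_zero_iff_of_nonneg (fun x _ => mul_self_nonneg (w x))).1 s6 x (mem_univ x)
      exact mul_self_eq_zero.1 this
    have hv'' : ∀ x, Johnson.lap W v x = (((pairDiff x.1 i i').card : ℝ) - μ) * v x := by
      intro x
      have h1 := hv' x
      have h2 := congrFun hw x
      simp only [Pi.zero_apply] at h2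
      rw [h2] at h1
      simp only [ht] at h1
      linarith
    have hadj : ∀ x u : Tab r c, AdjIn W x.1 u.1 → v x = v u :=
      Johnson.lap_eigen_invariant_full i i' hii v μ hμ hv''
    have hvinv : avg W v = v := by
      rw [avg_eq_self_iff]
      intro x y hxy
      have hreach : ∀ y : Tab r c,
          Relation.ReflTransGen (fun u v : Tab r c => AdjIn W u.1 v.1) x y → v x = v y := by
        intro y hc
        induction hc with
        | refl => rfl
        | tail _ h ih => rw [ih]; exact hadj _ _ h
      exact hreach y (conn W x y hxy)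
    rw [Submodule.mem_bot, ← hvinv, hw]
  have hspec := spectral_le Mop hsymm 0 ⊥ hK f (by
    intro v hv
    rw [Submodule.mem_bot] at hv
    rw [hv]
    simp)
  have e1 : ∑ x, f x * Mop f x
      = ∑ x, t x * (f x - avg W f x) ^ 2 - energyIn W f / 2 := by
    simp only [hMop, mul_sub, sum_sub_distrib]
    rw [Johnson.lap_energy]
    congr 1
    have := hinvmul (fun x => t x * avg W f x) f (fun x y h => by
      show t x * avg W f x = t y * avg W f y
      rw [htinv x y h, avg_apply_of_agree W f x y h])
    have e : ∀ x ∈ (univ : Finset (Tab r c)), f x * (t x * f x) - f x * (t x * avg W f x)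
        = t x * (f x - avg W f x) ^ 2 + (t x * avg W f x) * (f x - avg W f x) := by
      intro x _
      ring
    rw [← sum_sub_distrib, sum_congr rfl e, sum_add_distrib, this, add_zero]
  rw [e1] at hspec
  linarith

end Vale.Agent.Lib.P335.Bip
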