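import Vale.Agent.Lib.P335.Bip.Basic
import Vale.Agent.Lib.P335.Bip.Resplit

/-!
# The same-type step of the three-row lemma (module M6)

Let `y` arise from `x` by the switch in rows `a`, `b` at the columns `p`, `q`, and let the third
row `e` have equal entries at `p` and `q`. Then the classes `cls {b, e} x` and `cls {b, e} y`
are in bijection by a map `tau` that moves every table by exactly one same-type switch at the
columns `p`, `q` (in rows `a` and whichever of `b`, `e` holds `q` but not `p`). Hence the two
class averages of `f` differ by at most the same-type Lipschitz constant of `f`.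
-/

namespace Vale.Agent.Lib.P335.Bip

open Finset
open Classical

variable {R C : Type} [Fintype R] [DecidableEq R] [Fintype C] [DecidableEq C]
variable {r : R → ℕ} {c : C → ℕ}

namespace Same

/-- The switch as a map of tables (the identity when the rectangle is not switchable). -/
noncomputable def sw (z : Tab r c) (i i' : R) (j j' : C) : Tab r c :=
  if h : SwOK z.1 i i' j j' then ⟨swRow z.1 i i' j j', isTable_swRow z.2 h⟩ else z

omit [Fintype C] in
theorem sw_val {z : Tab r c} {i i' : R} {j j' : C} (h : SwOK z.1 i i' j j') :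
    (sw z i i' j j').1 = swRow z.1 i i' j j' := by
  unfold sw
  rw [dif_pos h]

/-- The coupling map: switch rows `a`, `b` at `p`, `q` if possible, otherwise rows `a`, `e`. -/
noncomputable def tau (a b e : R) (p q : C) (z : Tab r c) : Tab r c :=
  if SwOK z.1 a b p q then sw z a b p q else sw z a e p q

omit [Fintype C] in
theorem tau_of_pos {a b : R} (e : R) {p q : C} {z : Tab r c} (h : SwOK z.1 a b p q) :
    tau a b e p q z = sw z a b p q := by
  unfold tau
  rw [if_pos h]

omit [Fintype C] in
theorem tau_of_neg {a b : R} (e : R) {p q : C} {z : Tab r c} (h : ¬ SwOK z.1 a b p q) :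
    tau a b e p q z = sw z a e p q := by
  unfold tau
  rw [if_neg h]

omit [Fintype C] in
/-- In the class of `x` exactly one of the rows `b`, `e` can be switched against row `a` at
`p`, `q`, and the other one has equal entries there. -/
theorem class_cases (a b e : R) (hab : a ≠ b) (hae : a ≠ e) (hbe : b ≠ e) (p q : C)
    (x : Tab r c) (hsw : SwOK x.1 a b p q) (hst : SameType x.1 e p q)
    (z : Tab r c) (hz : AgreeOff {b, e} x.1 z.1) :
    (SwOK z.1 a b p q ∧ SameType z.1 e p q) ∨ (SwOK z.1 a e p q ∧ SameType z.1 b p q) := by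
  obtain ⟨_, hpq, hpa, hqa, hpb, hqb⟩ := hsw
  have hza : z.1 a = x.1 a := (hz a (by simp [hab, hae])).symm
  have hp := pair_count_of_agree x z hbe hz p
  have hq := pair_count_of_agree x z hbe hz q
  unfold SameType at hst ⊢
  unfold SwOK
  rw [hza]
  simp only [hpb, hqb, if_false, if_true] at hp hq
  by_cases h1 : p ∈ z.1 b <;> by_cases h2 : p ∈ z.1 e <;> by_cases h3 : q ∈ z.1 b <;>
    by_cases h4 : q ∈ z.1 e <;> by_cases h5 : p ∈ x.1 e <;> simp_all

omit [Fintype C] in
/-- The three properties of `tau` on the class of `x`. -/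
theorem tau_props (a b e : R) (hab : a ≠ b) (hae : a ≠ e) (hbe : b ≠ e) (p q : C)
    (x y : Tab r c) (hsw : SwOK x.1 a b p q) (hy : y.1 = swRow x.1 a b p q)
    (hst : SameType x.1 e p q) (z : Tab r c) (hz : AgreeOff {b, e} x.1 z.1) :
    AgreeOff {b, e} y.1 (tau a b e p q z).1 ∧ STAdj {a, b, e} z.1 (tau a b e p q z).1 ∧
      tau a b e q p (tau a b e p q z) = z := by
  have hza : z.1 a = x.1 a := (hz a (by simp [hab, hae])).symm
  have hya : y.1 a = insert q ((x.1 a).erase p) := by rw [hy, swRow_apply_left x.1 hab]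
  -- agreement off `{b, e}` for a switch of `z` in rows `a`, `g` with `g ∈ {b, e}`
  have hagree : ∀ g : R, a ≠ g → g ∈ ({b, e} : Finset R) →
      AgreeOff {b, e} y.1 (swRow z.1 a g p q) := by
    intro g hag hg i hi
    have hib : i ≠ b := fun h => hi (by simp [h])
    have hie : i ≠ e := fun h => hi (by simp [h])
    have hig : i ≠ g := fun h => hi (h ▸ hg)
    by_cases hia : i = a
    · subst hia
      rw [hya, swRow_apply_left z.1 hag, hza]
    · rw [swRow_apply_of_ne z.1 hia hig, hy, swRow_apply_of_ne x.1 hia hib]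
      exact hz i hi
  rcases class_cases a b e hab hae hbe p q x hsw hst z hz with ⟨h1, h2⟩ | ⟨h1, h2⟩
  · -- switch with row `b`
    have htau : tau a b e p q z = sw z a b p q := tau_of_pos e h1
    have hval : (tau a b e p q z).1 = swRow z.1 a b p q := by rw [htau, sw_val h1]
    refine ⟨?_, ?_, ?_⟩
    · rw [hval]
      exact hagree b hab (by simp)
    · rw [hval]
      exact ⟨a, b, e, p, q, by simp, by simp, by simp, hae, hbe, h1, h2, rfl⟩
    · have hrev : SwOK (tau a b e p q z).1 a b q p := by
        rw [hval]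
        exact swOK_swRow h1
      apply Subtype.ext
      rw [tau_of_pos e hrev, sw_val hrev, hval, swRow_swRow h1]
  · -- switch with row `e`
    have hnot : ¬ SwOK z.1 a b p q := by
      intro h
      obtain ⟨_, _, _, _, h5, h6⟩ := h
      exact h5 (h2.mpr h6)
    have htau : tau a b e p q z = sw z a e p q := tau_of_neg e hnot
    have hval : (tau a b e p q z).1 = swRow z.1 a e p q := by rw [htau, sw_val h1]
    refine ⟨?_, ?_, ?_⟩
    · rw [hval]
      exact hagree e hae (by simp)
    · rw [hval]
      exact ⟨a, e, b, p, q, by simp, by simp, by simp, hab, Ne.symm hbe, h1, h2, rfl⟩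
    · have hrev : SwOK (tau a b e p q z).1 a e q p := by
        rw [hval]
        exact swOK_swRow h1
      have hnot' : ¬ SwOK (tau a b e p q z).1 a b q p := by
        intro h
        obtain ⟨_, _, _, _, h5, h6⟩ := h
        rw [hval, swRow_apply_of_ne z.1 (Ne.symm hab) hbe] at h5 h6
        exact h5 (h2.mp h6)
      apply Subtype.ext
      rw [tau_of_neg e hnot', sw_val hrev, hval, swRow_swRow h1]

end Same

open Same in
/-- **Same-type step.** If `y` arises from `x` by a switch in rows `a`, `b` at columns `p`, `q`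
and the third row `e` has equal entries at `p`, `q`, then the class averages over the rows
`b`, `e` at `x` and `y` differ by at most the same-type Lipschitz constant of `f`. -/
theorem same_type_step (a b e : R) (hab : a ≠ b) (hae : a ≠ e) (hbe : b ≠ e) (p q : C)
    (x y : Tab r c) (hsw : SwOK x.1 a b p q) (hy : y.1 = swRow x.1 a b p q)
    (hst : SameType x.1 e p q) (f : Tab r c → ℝ) (Ls : ℝ)
    (hLs : ∀ u v : Tab r c, STAdj {a, b, e} u.1 v.1 → |f u - f v| ≤ Ls) :
    |avg {b, e} f x - avg {b, e} f y| ≤ Ls := by
  -- the reversed data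
  have hsw' : SwOK y.1 a b q p := by rw [hy]; exact swOK_swRow hsw
  have hx' : x.1 = swRow y.1 a b q p := by rw [hy, swRow_swRow hsw]
  have hye : y.1 e = x.1 e := by rw [hy, swRow_apply_of_ne x.1 (Ne.symm hae) (Ne.symm hbe)]
  have hst' : SameType y.1 e q p := by
    unfold SameType at hst ⊢
    rw [hye]
    exact hst.symm
  have hfwd := fun z (hz : z ∈ cls {b, e} x) =>
    tau_props a b e hab hae hbe p q x y hsw hy hst z ((mem_cls _ x z).mp hz)
  have hbwd := fun w (hw : w ∈ cls {b, e} y) =>
    tau_props a b e hab hae hbe q p y x hsw' hx' hst' w ((mem_cls _ y w).mp hw)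
  -- the bijection of classes
  have hsum : ∑ z ∈ cls {b, e} x, f (tau a b e p q z) = ∑ w ∈ cls {b, e} y, f w := by
    refine Finset.sum_nbij' (tau a b e p q) (tau a b e q p) ?_ ?_ ?_ ?_ ?_
    · intro z hz
      exact (mem_cls _ y _).mpr (hfwd z hz).1
    · intro w hw
      exact (mem_cls _ x _).mpr (hbwd w hw).1
    · intro z hz
      exact (hfwd z hz).2.2
    · intro w hw
      exact (hbwd w hw).2.2
    · intro z _
      rfl
  have hcard : (cls {b, e} x).card = (cls {b, e} y).card := by
    refine Finset.card_nbij' (tau a b e p q) (tau a b e q p) ?_ ?_ ?_ ?_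
    · intro z hz
      exact (mem_cls _ y _).mpr (hfwd z hz).1
    · intro w hw
      exact (mem_cls _ x _).mpr (hbwd w hw).1
    · intro z hz
      exact (hfwd z hz).2.2
    · intro w hw
      exact (hbwd w hw).2.2
  have hN : (0 : ℝ) < ((cls {b, e} x).card : ℝ) := card_cls_pos_real _ x
  rw [avg_apply, avg_apply, ← hcard, ← hsum, ← sub_div, ← Finset.sum_sub_distrib, abs_div,
    abs_of_pos hN, div_le_iff₀ hN]
  calc |∑ z ∈ cls {b, e} x, (f z - f (tau a b e p q z))|
      ≤ ∑ z ∈ cls {b, e} x, |f z - f (tau a b e p q z)| := Finset.abs_sum_le_sum_abs _ _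
    _ ≤ ∑ _z ∈ cls {b, e} x, Ls :=
        Finset.sum_le_sum fun z hz => hLs z _ (hfwd z hz).2.1
    _ = Ls * ((cls {b, e} x).card : ℝ) := by
        rw [Finset.sum_const, nsmul_eq_mul, mul_comm]

end Vale.Agent.Lib.P335.Bip
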