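import Vale.Agent.Lib.P335.Bip.JohnsonFull
import Vale.Agent.Lib.P335.Bip.Avg
import Vale.Agent.Lib.P335.H13.SepGram

/-!
# The Gram half of the separation inequality in the table model (problem P335)

For two rows `i ≠ k` and two columns `p ≠ q`, a table is *separated* by `p`, `q` when the
switch in the rows `i`, `k` at the columns `p`, `q` is admissible in one of its two
orientations. `kap i k p q g` is the sum over the separated tables of the squared mean of `g`
over the separated tables of the pair class. The theorem `sep_gram_table` transfers the Gram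
bound for the Johnson scheme to the pair classes of tables.

Auxiliary names live in the namespace `Vale.Agent.Lib.P335.Bip.SepGram`.
-/

namespace Vale.Agent.Lib.P335.Bip

open Finset
open Classical

variable {R C : Type} [Fintype R] [DecidableEq R] [Fintype C] [DecidableEq C]
variable {r : R → ℕ} {c : C → ℕ}

namespace SepGram

/-- The columns `p`, `q` separate the rows `i`, `k` of `x`: each of them lies in exactly one of
the two rows, and they lie in different rows. -/
def Sep (i k : R) (p q : C) (x : R → Finset C) : Prop := SwOK x i k p q ∨ SwOK x i k q p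

/-- Sum over the separated tables of the squared mean of `g` over the separated tables of the
pair class. -/
noncomputable def kap (i k : R) (p q : C) (g : Tab r c → ℝ) : ℝ :=
  ∑ x ∈ univ.filter (fun x : Tab r c => Sep i k p q x.1),
    ((∑ y ∈ (cls {i, k} x).filter (fun y : Tab r c => Sep i k p q y.1), g y) /
      (((cls {i, k} x).filter (fun y : Tab r c => Sep i k p q y.1)).card : ℝ)) ^ 2

/-- A set meets a pair in exactly one point iff it contains exactly one of the two points. -/
theorem card_inter_pair_eq_one {α : Type} [DecidableEq α] (T : Finset α) {p q : α}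
    (hpq : p ≠ q) : (T ∩ {p, q}).card = 1 ↔ (p ∈ T ∧ q ∉ T) ∨ (q ∈ T ∧ p ∉ T) := by
  have h : (T ∩ {p, q}).card = (if p ∈ T then 1 else 0) + (if q ∈ T then 1 else 0) := by
    rw [Finset.inter_comm, ← Finset.filter_mem_eq_inter, Finset.card_filter,
      Finset.sum_pair hpq]
  rw [h]
  by_cases hp : p ∈ T <;> by_cases hq : q ∈ T <;> simp [hp, hq]

/-- The number of `n`-subsets of `D` that contain `a` and not `b`. -/
theorem card_filter_mem_not_mem {α : Type} [DecidableEq α] (D : Finset α) {a b : α}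
    (ha : a ∈ D) (hb : b ∈ D) (hab : a ≠ b) {n : ℕ} (hn : 1 ≤ n) :
    ((D.powersetCard n).filter (fun T => a ∈ T ∧ b ∉ T)).card = (D.card - 2).choose (n - 1) := by
  have hD0 : ((D.erase a).erase b).card = D.card - 2 := by
    rw [card_erase_of_mem (mem_erase.2 ⟨hab.symm, hb⟩), card_erase_of_mem ha]
    omega
  rw [← hD0, ← card_powersetCard]
  refine Finset.card_nbij' (fun T => T.erase a) (fun T0 => insert a T0) ?_ ?_ ?_ ?_
  · intro T hT
    obtain ⟨hT1, haT, hbT⟩ := mem_filter.1 (Finset.mem_coe.1 hT)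
    obtain ⟨hsub, hcard⟩ := mem_powersetCard.1 hT1
    refine Finset.mem_coe.2 (mem_powersetCard.2 ⟨?_, ?_⟩)
    · intro t ht
      obtain ⟨hta, htT⟩ := mem_erase.1 ht
      refine mem_erase.2 ⟨?_, mem_erase.2 ⟨hta, hsub htT⟩⟩
      rintro rfl
      exact hbT htT
    · rw [card_erase_of_mem haT, hcard]
  · intro T0 hT0
    obtain ⟨hsub, hcard⟩ := mem_powersetCard.1 (Finset.mem_coe.1 hT0)
    have haT0 : a ∉ T0 := fun h => by
      have h1 := hsub h
      exact (mem_erase.1 (mem_erase.1 h1).2).1 rfl
    have hbT0 : b ∉ T0 := fun h => (mem_erase.1 (hsub h)).1 rfl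
    refine Finset.mem_coe.2 (mem_filter.2 ⟨mem_powersetCard.2 ⟨?_, ?_⟩, mem_insert_self _ _, ?_⟩)
    · intro t ht
      rcases mem_insert.1 ht with rfl | ht
      · exact ha
      · exact (mem_erase.1 (mem_erase.1 (hsub ht)).2).2
    · rw [card_insert_of_notMem haT0, hcard]
      omega
    · intro h
      rcases mem_insert.1 h with h | h
      · exact hab h.symm
      · exact hbT0 h
  · intro T hT
    obtain ⟨hT1, haT, hbT⟩ := mem_filter.1 (Finset.mem_coe.1 hT)
    exact insert_erase haT
  · intro T0 hT0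
    obtain ⟨hsub, hcard⟩ := mem_powersetCard.1 (Finset.mem_coe.1 hT0)
    have haT0 : a ∉ T0 := fun h => by
      have h1 := hsub h
      exact (mem_erase.1 (mem_erase.1 h1).2).1 rfl
    exact erase_insert haT0

/-- The number of `n`-subsets of `D` separating two points of `D`. -/
theorem card_sep_powerset {α : Type} [DecidableEq α] (D : Finset α) {p q : α} (hp : p ∈ D)
    (hq : q ∈ D) (hpq : p ≠ q) {n : ℕ} (hn : 1 ≤ n) :
    ((D.powersetCard n).filter (fun T => (T ∩ {p, q}).card = 1)).card
      = 2 * (D.card - 2).choose (n - 1) := by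
  have h1 : (D.powersetCard n).filter (fun T => (T ∩ {p, q}).card = 1)
      = (D.powersetCard n).filter (fun T => p ∈ T ∧ q ∉ T)
        ∪ (D.powersetCard n).filter (fun T => q ∈ T ∧ p ∉ T) := by
    rw [← Finset.filter_or]
    apply Finset.filter_congr
    intro T _
    exact card_inter_pair_eq_one T hpq
  have h2 : Disjoint ((D.powersetCard n).filter (fun T => p ∈ T ∧ q ∉ T))
      ((D.powersetCard n).filter (fun T => q ∈ T ∧ p ∉ T)) := by
    rw [Finset.disjoint_left]
    intro T hT hT'
    exact (mem_filter.1 hT').2.2 (mem_filter.1 hT).2.1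
  rw [h1, Finset.card_union_of_disjoint h2, card_filter_mem_not_mem D hp hq hpq hn,
    card_filter_mem_not_mem D hq hp hpq.symm hn]
  ring

/-- A sum over ordered pairs of distinct points of `D` of a symmetric function is twice the
sum over the two-element subsets of `D`. -/
theorem sum_ordered_pairs {α : Type} [Fintype α] [DecidableEq α] (D : Finset α)
    (Φ : Finset α → ℝ) :
    ∑ p, ∑ q, (if p = q then 0 else if p ∈ D ∧ q ∈ D then Φ {p, q} else 0)
      = 2 * ∑ e ∈ D.powersetCard 2, Φ e := by
  have h1 : ∑ p, ∑ q, (if p = q then 0 else if p ∈ D ∧ q ∈ D then Φ {p, q} else 0)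
      = ∑ a ∈ D.offDiag, Φ {a.1, a.2} := by
    rw [← Finset.sum_product' (f := fun p q =>
      if p = q then 0 else if p ∈ D ∧ q ∈ D then Φ {p, q} else 0)]
    rw [← Finset.sum_filter_add_sum_filter_not (univ ×ˢ univ) (fun a : α × α => a ∈ D.offDiag)]
    have hz : ∑ a ∈ (univ ×ˢ univ).filter (fun a : α × α => ¬ a ∈ D.offDiag),
        (if a.1 = a.2 then 0 else if a.1 ∈ D ∧ a.2 ∈ D then Φ {a.1, a.2} else 0) = 0 := by
      apply Finset.sum_eq_zero
      intro a ha
      have ha' := (mem_filter.1 ha).2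
      rw [mem_offDiag] at ha'
      by_cases h : a.1 = a.2
      · rw [if_pos h]
      · rw [if_neg h, if_neg]
        intro h'
        exact ha' ⟨h'.1, h'.2, h⟩
    rw [hz, add_zero]
    have hf : (univ ×ˢ univ).filter (fun a : α × α => a ∈ D.offDiag) = D.offDiag := by
      ext a
      simp
    rw [hf]
    apply Finset.sum_congr rfl
    intro a ha
    rw [mem_offDiag] at ha
    rw [if_neg ha.2.2, if_pos ⟨ha.1, ha.2.1⟩]
  have hmaps : ∀ a ∈ D.offDiag, ({a.1, a.2} : Finset α) ∈ D.powersetCard 2 := by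
    intro a ha
    rw [mem_offDiag] at ha
    rw [mem_powersetCard]
    refine ⟨?_, card_pair ha.2.2⟩
    intro t ht
    rcases mem_insert.1 ht with rfl | ht
    · exact ha.1
    · rw [mem_singleton] at ht
      rw [ht]
      exact ha.2.1
  rw [h1, ← Finset.sum_fiberwise_of_maps_to hmaps, Finset.mul_sum]
  apply Finset.sum_congr rfl
  intro e he
  obtain ⟨hsub, hcard⟩ := mem_powersetCard.1 he
  obtain ⟨u, v, huv, rfl⟩ := card_eq_two.1 hcard
  have hu : u ∈ D := hsub (by simp)
  have hv : v ∈ D := hsub (by simp)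
  have hfib : D.offDiag.filter (fun a : α × α => ({a.1, a.2} : Finset α) = {u, v})
      = {(u, v), (v, u)} := by
    ext a
    simp only [mem_filter, mem_offDiag, mem_insert, mem_singleton]
    constructor
    · rintro ⟨⟨_, _, hne⟩, heq⟩
      have h1 : a.1 ∈ ({u, v} : Finset α) := by rw [← heq]; simp
      have h2 : a.2 ∈ ({u, v} : Finset α) := by rw [← heq]; simp
      simp only [mem_insert, mem_singleton] at h1 h2
      rcases h1 with h1 | h1 <;> rcases h2 with h2 | h2
      · exact absurd (h1.trans h2.symm) hne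
      · left; exact Prod.ext h1 h2
      · right; exact Prod.ext h1 h2
      · exact absurd (h1.trans h2.symm) hne
    · rintro (rfl | rfl)
      · exact ⟨⟨hu, hv, huv⟩, rfl⟩
      · exact ⟨⟨hv, hu, huv.symm⟩, Finset.pair_comm v u⟩
  have hsum : ∑ a ∈ D.offDiag.filter (fun a : α × α => ({a.1, a.2} : Finset α) = {u, v}),
      Φ {a.1, a.2} = ∑ a ∈ D.offDiag.filter
        (fun a : α × α => ({a.1, a.2} : Finset α) = {u, v}), Φ {u, v} := by
    apply Finset.sum_congr rfl
    intro a ha
    rw [(mem_filter.1 ha).2]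
  rw [hsum, sum_const, hfib, card_pair (by
    intro h
    exact huv (Prod.ext_iff.1 h).1), nsmul_eq_mul]
  norm_num

/-- Extension of a function on tables by zero. -/
noncomputable def ext0 (g : Tab r c → ℝ) : (R → Finset C) → ℝ :=
  fun y => if h : IsTable r c y then g ⟨y, h⟩ else 0

theorem ext0_val (g : Tab r c → ℝ) (y : Tab r c) : ext0 g y.1 = g y := by
  unfold ext0
  rw [dif_pos y.2]

/-- Admissibility of a switch in a re-split table. -/
theorem swOK_resplit_iff (x : R → Finset C) {i k : R} (hik : i ≠ k) {p q : C} (hpq : p ≠ q)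
    {T : Finset C} (hT : T ⊆ pairDiff x i k) :
    SwOK (resplit x i k T) i k p q ↔ (p ∈ T ∧ q ∈ pairDiff x i k ∧ q ∉ T) := by
  unfold SwOK
  rw [resplit_apply_left x hik, resplit_apply_right]
  have hp : p ∈ T → (p ∈ x i ∧ p ∉ x k) ∨ (p ∈ x k ∧ p ∉ x i) :=
    fun h => (mem_pairDiff x i k p).1 (hT h)
  have hq : q ∈ T → (q ∈ x i ∧ q ∉ x k) ∨ (q ∈ x k ∧ q ∉ x i) :=
    fun h => (mem_pairDiff x i k q).1 (hT h)
  have e1 : (p ∈ x i ∩ x k ∪ T ∧ p ∉ x i ∩ x k ∪ (pairDiff x i k \ T)) ↔ p ∈ T := by
    by_cases a1 : p ∈ x i <;> by_cases a2 : p ∈ x k <;> by_cases a3 : p ∈ T <;>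
      simp_all [mem_pairDiff]
  have e2 : (q ∉ x i ∩ x k ∪ T ∧ q ∈ x i ∩ x k ∪ (pairDiff x i k \ T))
      ↔ (q ∈ pairDiff x i k ∧ q ∉ T) := by
    by_cases a1 : q ∈ x i <;> by_cases a2 : q ∈ x k <;> by_cases a3 : q ∈ T <;>
      simp_all [mem_pairDiff]
  constructor
  · rintro ⟨_, _, h1, h2, h3, h4⟩
    exact ⟨e1.1 ⟨h1, h3⟩, e2.1 ⟨h2, h4⟩⟩
  · rintro ⟨h1, h2, h3⟩
    have a1 := e1.2 h1
    have a2 := e2.2 ⟨h2, h3⟩
    exact ⟨hik, hpq, a1.1, a2.1, a1.2, a2.2⟩

/-- Separation in a re-split table, in Johnson coordinates. -/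
theorem sep_resplit_iff (x : R → Finset C) {i k : R} (hik : i ≠ k) {p q : C} (hpq : p ≠ q)
    {T : Finset C} (hT : T ⊆ pairDiff x i k) :
    Sep i k p q (resplit x i k T)
      ↔ (p ∈ pairDiff x i k ∧ q ∈ pairDiff x i k ∧ (T ∩ {p, q}).card = 1) := by
  unfold Sep
  rw [swOK_resplit_iff x hik hpq hT, swOK_resplit_iff x hik hpq.symm hT,
    card_inter_pair_eq_one T hpq]
  have hp : p ∈ T → p ∈ pairDiff x i k := fun h => hT h
  have hq : q ∈ T → q ∈ pairDiff x i k := fun h => hT h
  constructor
  · rintro (⟨h1, h2, h3⟩ | ⟨h1, h2, h3⟩)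
    · exact ⟨hp h1, h2, Or.inl ⟨h1, h3⟩⟩
    · exact ⟨h2, hq h1, Or.inr ⟨h1, h3⟩⟩
  · rintro ⟨h1, h2, ⟨h3, h4⟩ | ⟨h3, h4⟩⟩
    · exact Or.inl ⟨h3, h2, h4⟩
    · exact Or.inr ⟨h3, h1, h4⟩

/-- Sums over the separated part of a pair class, in Johnson coordinates. -/
theorem sum_cls_filter_sep (x : Tab r c) {i k : R} (hik : i ≠ k) {p q : C} (hpq : p ≠ q)
    (g : Tab r c → ℝ) :
    ∑ y ∈ (cls {i, k} x).filter (fun y : Tab r c => Sep i k p q y.1), g y
      = if p ∈ pairDiff x.1 i k ∧ q ∈ pairDiff x.1 i k then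
          ∑ T ∈ ((pairDiff x.1 i k).powersetCard (x.1 i \ x.1 k).card).filter
            (fun T => (T ∩ {p, q}).card = 1), ext0 g (resplit x.1 i k T)
        else 0 := by
  rw [Finset.sum_filter]
  have h1 : ∀ y ∈ cls {i, k} x, (if Sep i k p q y.1 then g y else 0)
      = (fun z => if Sep i k p q z then ext0 g z else 0) y.1 := by
    intro y _
    simp only [ext0_val]
  rw [Finset.sum_congr rfl h1,
    sum_cls_pair x hik (fun z => if Sep i k p q z then ext0 g z else 0)]
  by_cases hD : p ∈ pairDiff x.1 i k ∧ q ∈ pairDiff x.1 i k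
  · rw [if_pos hD, Finset.sum_filter]
    apply Finset.sum_congr rfl
    intro T hT
    have hsub := (mem_powersetCard.1 hT).1
    have hiff := sep_resplit_iff x.1 hik hpq hsub
    by_cases hs : Sep i k p q (resplit x.1 i k T)
    · rw [if_pos hs, if_pos ((hiff.1 hs).2.2)]
    · rw [if_neg hs, if_neg (fun h => hs (hiff.2 ⟨hD.1, hD.2, h⟩))]
  · rw [if_neg hD]
    apply Finset.sum_eq_zero
    intro T hT
    have hsub := (mem_powersetCard.1 hT).1
    rw [if_neg]
    intro hs
    have h2 := (sep_resplit_iff x.1 hik hpq hsub).1 hs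
    exact hD ⟨h2.1, h2.2.1⟩

/-- The size of the separated part of a pair class, in Johnson coordinates. -/
theorem card_cls_filter_sep (x : Tab r c) {i k : R} (hik : i ≠ k) {p q : C} (hpq : p ≠ q) :
    (((cls {i, k} x).filter (fun y : Tab r c => Sep i k p q y.1)).card : ℝ)
      = if p ∈ pairDiff x.1 i k ∧ q ∈ pairDiff x.1 i k then
          ((((pairDiff x.1 i k).powersetCard (x.1 i \ x.1 k).card).filter
            (fun T => (T ∩ {p, q}).card = 1)).card : ℝ)
        else 0 := by
  have h := sum_cls_filter_sep x hik hpq (fun _ => (1 : ℝ))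
  rw [sum_const, nsmul_eq_mul, mul_one] at h
  rw [h]
  by_cases hD : p ∈ pairDiff x.1 i k ∧ q ∈ pairDiff x.1 i k
  · rw [if_pos hD, if_pos hD]
    have h2 : ∀ T ∈ ((pairDiff x.1 i k).powersetCard (x.1 i \ x.1 k).card).filter
        (fun T => (T ∩ {p, q}).card = 1),
        ext0 (fun _ : Tab r c => (1 : ℝ)) (resplit x.1 i k T) = 1 := by
      intro T hT
      unfold ext0
      rw [dif_pos (isTable_resplit x.2 hik (mem_filter.1 hT).1)]
    rw [Finset.sum_congr rfl h2, sum_const, nsmul_eq_mul, mul_one]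
  · rw [if_neg hD, if_neg hD]

/-- The Gram bound on one pair class. -/
theorem class_gram (x : Tab r c) {i k : R} (hik : i ≠ k) (g : Tab r c → ℝ)
    (hg0 : ∑ y ∈ cls {i, k} x, g y = 0)
    (hgram : ∀ (D : Finset C) (n : ℕ) (h : Finset C → ℝ), ∑ T ∈ D.powersetCard n, h T = 0 →
      ∑ e ∈ D.powersetCard 2,
          (∑ T ∈ (D.powersetCard n).filter (fun T => (T ∩ e).card = 1), h T) ^ 2
        ≤ ((D.card : ℝ) - 2) * ((D.card - 2).choose (n - 1) : ℝ)
          * ∑ T ∈ D.powersetCard n, h T ^ 2) :
    (1 / 2) * ∑ p, ∑ q, (if p = q then 0 else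
        (((cls {i, k} x).filter (fun y : Tab r c => Sep i k p q y.1)).card : ℝ) *
          ((∑ y ∈ (cls {i, k} x).filter (fun y : Tab r c => Sep i k p q y.1), g y) /
            (((cls {i, k} x).filter (fun y : Tab r c => Sep i k p q y.1)).card : ℝ)) ^ 2)
      ≤ (((pairDiff x.1 i k).card : ℝ) - 2) / 2 * ∑ y ∈ cls {i, k} x, g y ^ 2 := by
  obtain ⟨h, hh⟩ : ∃ h : Finset C → ℝ, ∀ T, h T = ext0 g (resplit x.1 i k T) :=
    ⟨_, fun _ => rfl⟩
  have hsum1 : ∑ y ∈ cls {i, k} x, g y
      = ∑ T ∈ (pairDiff x.1 i k).powersetCard (x.1 i \ x.1 k).card, h T := by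
    calc ∑ y ∈ cls {i, k} x, g y = ∑ y ∈ cls {i, k} x, ext0 g y.1 :=
          Finset.sum_congr rfl (fun y _ => (ext0_val g y).symm)
      _ = ∑ T ∈ (pairDiff x.1 i k).powersetCard (x.1 i \ x.1 k).card,
            ext0 g (resplit x.1 i k T) := sum_cls_pair x hik (ext0 g)
      _ = _ := Finset.sum_congr rfl (fun T _ => (hh T).symm)
  have hsum2 : ∑ y ∈ cls {i, k} x, g y ^ 2
      = ∑ T ∈ (pairDiff x.1 i k).powersetCard (x.1 i \ x.1 k).card, h T ^ 2 := by
    calc ∑ y ∈ cls {i, k} x, g y ^ 2 = ∑ y ∈ cls {i, k} x, ext0 g y.1 ^ 2 :=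
          Finset.sum_congr rfl (fun y _ => by rw [ext0_val])
      _ = ∑ T ∈ (pairDiff x.1 i k).powersetCard (x.1 i \ x.1 k).card,
            ext0 g (resplit x.1 i k T) ^ 2 := sum_cls_pair x hik (fun z => ext0 g z ^ 2)
      _ = _ := Finset.sum_congr rfl (fun T _ => by rw [hh T])
  have hS' : ∀ p q : C, p ≠ q →
      ∑ y ∈ (cls {i, k} x).filter (fun y : Tab r c => Sep i k p q y.1), g y
        = if p ∈ pairDiff x.1 i k ∧ q ∈ pairDiff x.1 i k then
            ∑ T ∈ ((pairDiff x.1 i k).powersetCard (x.1 i \ x.1 k).card).filter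
              (fun T => (T ∩ {p, q}).card = 1), h T
          else 0 := by
    intro p q hpq
    rw [sum_cls_filter_sep x hik hpq g]
    by_cases hDpq : p ∈ pairDiff x.1 i k ∧ q ∈ pairDiff x.1 i k
    · rw [if_pos hDpq, if_pos hDpq]
      exact Finset.sum_congr rfl (fun T _ => (hh T).symm)
    · rw [if_neg hDpq, if_neg hDpq]
  have hN := fun (p q : C) (hpq : p ≠ q) => card_cls_filter_sep x hik hpq
  have hh0' : ∑ T ∈ (pairDiff x.1 i k).powersetCard (x.1 i \ x.1 k).card, h T = 0 := by
    rw [← hsum1]; exact hg0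
  have hG' := hgram (pairDiff x.1 i k) (x.1 i \ x.1 k).card h hh0'
  rw [hsum2]
  generalize hDdef : pairDiff x.1 i k = D at hS' hN hG' hh0' ⊢
  generalize hndef : (x.1 i \ x.1 k).card = n at hS' hN hG' hh0' ⊢
  by_cases hz : ∑ T ∈ D.powersetCard n, h T ^ 2 = 0
  · have hall : ∀ T ∈ D.powersetCard n, h T = 0 := by
      intro T hT
      have h1 := (Finset.sum_eq_zero_iff_of_nonneg (fun T _ => sq_nonneg (h T))).1 hz T hT
      exact pow_eq_zero_iff (two_ne_zero) |>.1 h1
    rw [hz, mul_zero]
    have hterm : ∀ p q : C, (if p = q then (0 : ℝ) else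
        (((cls {i, k} x).filter (fun y : Tab r c => Sep i k p q y.1)).card : ℝ) *
          ((∑ y ∈ (cls {i, k} x).filter (fun y : Tab r c => Sep i k p q y.1), g y) /
            (((cls {i, k} x).filter (fun y : Tab r c => Sep i k p q y.1)).card : ℝ)) ^ 2)
        = 0 := by
      intro p q
      by_cases hpq : p = q
      · rw [if_pos hpq]
      · rw [if_neg hpq, hS' p q hpq]
        have h0 : (if p ∈ D ∧ q ∈ D then
            ∑ T ∈ (D.powersetCard n).filter (fun T => (T ∩ {p, q}).card = 1), h T
          else 0) = 0 := by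
          split_ifs
          · exact Finset.sum_eq_zero (fun T hT => hall T (mem_filter.1 hT).1)
          · rfl
        rw [h0]
        simp
    simp only [hterm, sum_const_zero, mul_zero, le_refl]
  · obtain ⟨T0, hT0, hT0ne⟩ : ∃ T0 ∈ D.powersetCard n, h T0 ≠ 0 := by
      by_contra hcon
      exact hz (Finset.sum_eq_zero (fun T hT => by
        have h0 : h T = 0 := by
          by_contra hne
          exact hcon ⟨T, hT, hne⟩
        rw [h0]; ring))
    obtain ⟨T1, hT1, hT1ne⟩ : ∃ T1 ∈ D.powersetCard n, T1 ≠ T0 := by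
      by_contra hcon
      have h1 : ∑ T ∈ D.powersetCard n, h T = h T0 :=
        Finset.sum_eq_single_of_mem T0 hT0 (fun T hT hne => absurd ⟨T, hT, hne⟩ hcon)
      rw [hh0'] at h1
      exact hT0ne h1.symm
    obtain ⟨hs0, hc0⟩ := mem_powersetCard.1 hT0
    obtain ⟨hs1, hc1⟩ := mem_powersetCard.1 hT1
    have hn1 : 1 ≤ n := by
      by_contra hcon
      have hn0 : n = 0 := by omega
      rw [hn0] at hc0 hc1
      exact hT1ne ((card_eq_zero.1 hc1).trans (card_eq_zero.1 hc0).symm)
    have hnm : n + 1 ≤ D.card := by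
      by_contra hcon
      have hle : D.card ≤ n := by omega
      have e0 : T0 = D := Finset.eq_of_subset_of_card_le hs0 (by rw [hc0]; exact hle)
      have e1 : T1 = D := Finset.eq_of_subset_of_card_le hs1 (by rw [hc1]; exact hle)
      exact hT1ne (e1.trans e0.symm)
    have hn2 : 0 < (D.card - 2).choose (n - 1) := Nat.choose_pos (by omega)
    obtain ⟨n2, hn2def⟩ : ∃ n2 : ℝ, n2 = ((D.card - 2).choose (n - 1) : ℝ) := ⟨_, rfl⟩
    have hn2r : (0 : ℝ) < n2 := by
      rw [hn2def]; exact_mod_cast hn2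
    rw [← hn2def] at hG'
    obtain ⟨Φ, hΦ⟩ : ∃ Φ : Finset C → ℝ, ∀ e, Φ e
        = (∑ T ∈ (D.powersetCard n).filter (fun T => (T ∩ e).card = 1), h T) ^ 2 / (2 * n2) :=
      ⟨_, fun _ => rfl⟩
    have hterm : ∀ p q : C, (if p = q then (0 : ℝ) else
        (((cls {i, k} x).filter (fun y : Tab r c => Sep i k p q y.1)).card : ℝ) *
          ((∑ y ∈ (cls {i, k} x).filter (fun y : Tab r c => Sep i k p q y.1), g y) /
            (((cls {i, k} x).filter (fun y : Tab r c => Sep i k p q y.1)).card : ℝ)) ^ 2)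
        = if p = q then 0 else if p ∈ D ∧ q ∈ D then Φ {p, q} else 0 := by
      intro p q
      by_cases hpq : p = q
      · rw [if_pos hpq, if_pos hpq]
      · rw [if_neg hpq, if_neg hpq, hS' p q hpq, hN p q hpq]
        by_cases hDpq : p ∈ D ∧ q ∈ D
        · rw [if_pos hDpq, if_pos hDpq, if_pos hDpq,
            card_sep_powerset D hDpq.1 hDpq.2 hpq hn1, hΦ]
          push_cast
          rw [← hn2def]
          field_simp
        · rw [if_neg hDpq, if_neg hDpq, if_neg hDpq]
          simp
    rw [Finset.sum_congr rfl (fun p _ => Finset.sum_congr rfl (fun q _ => hterm p q)),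
      sum_ordered_pairs D Φ]
    have hΦsum : ∑ e ∈ D.powersetCard 2, Φ e
        = (∑ e ∈ D.powersetCard 2,
            (∑ T ∈ (D.powersetCard n).filter (fun T => (T ∩ e).card = 1), h T) ^ 2)
          / (2 * n2) := by
      rw [Finset.sum_div]
      exact Finset.sum_congr rfl (fun e _ => hΦ e)
    rw [hΦsum]
    have h2 : (1 / 2 : ℝ) * (2 * ((∑ e ∈ D.powersetCard 2,
        (∑ T ∈ (D.powersetCard n).filter (fun T => (T ∩ e).card = 1), h T) ^ 2) / (2 * n2)))
        = (∑ e ∈ D.powersetCard 2,
            (∑ T ∈ (D.powersetCard n).filter (fun T => (T ∩ e).card = 1), h T) ^ 2)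
          / (2 * n2) := by ring
    rw [h2, div_le_iff₀ (by positivity)]
    calc ∑ e ∈ D.powersetCard 2,
          (∑ T ∈ (D.powersetCard n).filter (fun T => (T ∩ e).card = 1), h T) ^ 2
        ≤ ((D.card : ℝ) - 2) * n2 * ∑ T ∈ D.powersetCard n, h T ^ 2 := hG'
      _ = ((D.card : ℝ) - 2) / 2 * (∑ T ∈ D.powersetCard n, h T ^ 2) * (2 * n2) := by ring

/-- The sum of `g` over the separated part of the pair class of `x`. -/
noncomputable def sepSum (i k : R) (p q : C) (g : Tab r c → ℝ) (x : Tab r c) : ℝ :=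
  ∑ y ∈ (cls {i, k} x).filter (fun y : Tab r c => Sep i k p q y.1), g y

/-- The size of the separated part of the pair class of `x`. -/
noncomputable def sepCard (i k : R) (p q : C) (x : Tab r c) : ℝ :=
  (((cls {i, k} x).filter (fun y : Tab r c => Sep i k p q y.1)).card : ℝ)

theorem kap_eq (i k : R) (p q : C) (g : Tab r c → ℝ) :
    kap i k p q g = ∑ x : Tab r c,
      (if Sep i k p q x.1 then (sepSum i k p q g x / sepCard i k p q x) ^ 2 else 0) := by
  unfold kap sepSum sepCard
  rw [Finset.sum_filter]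

theorem sepSum_congr (i k : R) (p q : C) (g : Tab r c → ℝ) {x y : Tab r c}
    (h : y ∈ cls {i, k} x) : sepSum i k p q g y = sepSum i k p q g x := by
  unfold sepSum
  rw [cls_eq_of_mem _ _ _ h]

theorem sepCard_congr (i k : R) (p q : C) {x y : Tab r c}
    (h : y ∈ cls {i, k} x) : sepCard (r := r) (c := c) i k p q y = sepCard i k p q x := by
  unfold sepCard
  rw [cls_eq_of_mem _ _ _ h]

/-- The sum of a function equals the sum of its class averages. -/
theorem sum_eq_sum_avg (W : Finset R) (φ : Tab r c → ℝ) : ∑ x, φ x = ∑ x, avg W φ x := by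
  have h1 := avg_symm W (fun _ : Tab r c => (1 : ℝ)) φ
  rw [avg_const] at h1
  simp only [ip, one_mul] at h1
  exact h1

end SepGram

open SepGram in
/-- **Gram half of the separation inequality in the table model.** For `g` with zero mean on
every class of the row pair `i`, `k`: the sum over unordered column pairs of `kap` is at most
the sum over all tables of half of `m - 2` times `g ^ 2`, where `m` is the number of columns lying in
exactly one of the two rows. The Gram bound of the Johnson scheme is taken as a hypothesis. -/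
theorem sep_gram_table_of (i k : R) (hik : i ≠ k) (g : Tab r c → ℝ) (hg : avg {i, k} g = 0)
    (hgram : ∀ (D : Finset C) (n : ℕ) (h : Finset C → ℝ), ∑ T ∈ D.powersetCard n, h T = 0 →
      ∑ e ∈ D.powersetCard 2,
          (∑ T ∈ (D.powersetCard n).filter (fun T => (T ∩ e).card = 1), h T) ^ 2
        ≤ ((D.card : ℝ) - 2) * ((D.card - 2).choose (n - 1) : ℝ)
          * ∑ T ∈ D.powersetCard n, h T ^ 2) :
    (1 / 2) * ∑ p, ∑ q, (if p = q then 0 else SepGram.kap i k p q g)
      ≤ ∑ x : Tab r c, ((((pairDiff x.1 i k).card : ℝ) - 2) / 2) * g x ^ 2 := by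
  -- the left side as a sum over tables
  have hL : (1 / 2 : ℝ) * ∑ p, ∑ q, (if p = q then 0 else SepGram.kap i k p q g)
      = ∑ x : Tab r c, (1 / 2 : ℝ) * ∑ p, ∑ q, (if p = q then 0 else
          if Sep i k p q x.1 then (sepSum i k p q g x / sepCard i k p q x) ^ 2 else 0) := by
    rw [← Finset.mul_sum]
    congr 1
    calc ∑ p, ∑ q, (if p = q then 0 else SepGram.kap i k p q g)
        = ∑ p, ∑ q, ∑ x : Tab r c, (if p = q then 0 else
            if Sep i k p q x.1 then (sepSum i k p q g x / sepCard i k p q x) ^ 2 else 0) := by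
          apply Finset.sum_congr rfl
          intro p _
          apply Finset.sum_congr rfl
          intro q _
          by_cases hpq : p = q
          · simp [hpq]
          · simp only [if_neg hpq]
            exact kap_eq i k p q g
      _ = ∑ p, ∑ x : Tab r c, ∑ q, (if p = q then 0 else
            if Sep i k p q x.1 then (sepSum i k p q g x / sepCard i k p q x) ^ 2 else 0) := by
          apply Finset.sum_congr rfl
          intro p _
          exact Finset.sum_comm
      _ = _ := Finset.sum_comm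
  rw [hL, sum_eq_sum_avg {i, k}, sum_eq_sum_avg {i, k}
    (fun x : Tab r c => ((((pairDiff x.1 i k).card : ℝ) - 2) / 2) * g x ^ 2)]
  apply Finset.sum_le_sum
  intro x _
  rw [avg_apply, avg_apply]
  apply div_le_div_of_nonneg_right _ (le_of_lt (card_cls_pos_real _ x))
  -- the class sum of the left side
  have hg0 : ∑ y ∈ cls {i, k} x, g y = 0 := by
    have h1 := congrFun hg x
    rw [avg_apply] at h1
    rcases div_eq_zero_iff.1 h1 with h2 | h2
    · exact h2
    · exact absurd h2 (card_cls_ne_zero _ x)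
  have hcg := class_gram x hik g hg0 hgram
  have hLc : ∑ y ∈ cls {i, k} x, (1 / 2 : ℝ) * ∑ p, ∑ q, (if p = q then 0 else
        if Sep i k p q y.1 then (sepSum i k p q g y / sepCard i k p q y) ^ 2 else 0)
      = (1 / 2) * ∑ p, ∑ q, (if p = q then 0 else
        (((cls {i, k} x).filter (fun y : Tab r c => Sep i k p q y.1)).card : ℝ) *
          ((∑ y ∈ (cls {i, k} x).filter (fun y : Tab r c => Sep i k p q y.1), g y) /
            (((cls {i, k} x).filter (fun y : Tab r c => Sep i k p q y.1)).card : ℝ)) ^ 2) := by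
    rw [← Finset.mul_sum]
    congr 1
    calc ∑ y ∈ cls {i, k} x, ∑ p, ∑ q, (if p = q then 0 else
            if Sep i k p q y.1 then (sepSum i k p q g y / sepCard i k p q y) ^ 2 else 0)
        = ∑ p, ∑ y ∈ cls {i, k} x, ∑ q, (if p = q then 0 else
            if Sep i k p q y.1 then (sepSum i k p q g y / sepCard i k p q y) ^ 2 else 0) :=
          Finset.sum_comm
      _ = ∑ p, ∑ q, ∑ y ∈ cls {i, k} x, (if p = q then 0 else
            if Sep i k p q y.1 then (sepSum i k p q g y / sepCard i k p q y) ^ 2 else 0) := by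
          apply Finset.sum_congr rfl
          intro p _
          exact Finset.sum_comm
      _ = _ := by
          apply Finset.sum_congr rfl
          intro p _
          apply Finset.sum_congr rfl
          intro q _
          by_cases hpq : p = q
          · simp [hpq]
          · simp only [if_neg hpq]
            have h1 : ∀ y ∈ cls {i, k} x,
                (if Sep i k p q y.1 then (sepSum i k p q g y / sepCard i k p q y) ^ 2 else 0)
                = (if Sep i k p q y.1 then
                    (sepSum i k p q g x / sepCard i k p q x) ^ 2 else 0) := by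
              intro y hy
              rw [sepSum_congr i k p q g hy, sepCard_congr i k p q hy]
            rw [Finset.sum_congr rfl h1, ← Finset.sum_filter, sum_const, nsmul_eq_mul]
            rfl
  have hRc : ∑ y ∈ cls {i, k} x, ((((pairDiff y.1 i k).card : ℝ) - 2) / 2) * g y ^ 2
      = (((pairDiff x.1 i k).card : ℝ) - 2) / 2 * ∑ y ∈ cls {i, k} x, g y ^ 2 := by
    rw [Finset.mul_sum]
    apply Finset.sum_congr rfl
    intro y hy
    rw [Johnson.pairDiff_eq_of_agree x y hik ((mem_cls _ _ _).1 hy)]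
  rw [hLc, hRc]
  exact hcg

/-- **Gram half of the separation inequality in the table model.** For `g` with zero mean on
every class of the row pair `i`, `k`: half the sum over ordered pairs of distinct columns of
`kap` (that is, the sum over unordered column pairs) is at most the sum over all tables of
half of `m - 2` times `g ^ 2`, where `m` is the number of columns lying in exactly one of the two
rows. -/
theorem sep_gram_table (i k : R) (hik : i ≠ k) (g : Tab r c → ℝ) (hg : avg {i, k} g = 0) :
    (1 / 2) * ∑ p, ∑ q, (if p = q then 0 else SepGram.kap i k p q g)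
      ≤ ∑ x : Tab r c, ((((pairDiff x.1 i k).card : ℝ) - 2) / 2) * g x ^ 2 :=
  sep_gram_table_of i k hik g hg (fun D n h hsum => H13.sep_gram_bound D n h hsum)

end Vale.Agent.Lib.P335.Bip
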